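import Vale.Agent.P070.Defs

/-!
# P070: elementary facts on positive contractions of a Hilbert space (used in `cap`)
-/

open scoped ComplexOrder InnerProductSpace

namespace Vale.Agent.P070

variable {H : Type*} [NormedAddCommGroup H] [InnerProductSpace ℂ H] [CompleteSpace H]

/-- a positive contraction is `S* S` with a contraction `S` -/
private theorem capPos_factor {T : H →L[ℂ] H} (h0 : 0 ≤ T) (h1 : T ≤ 1) :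
    ∃ S : H →L[ℂ] H, T = star S * S ∧ ‖S‖ ≤ 1 := by
  obtain ⟨S, hS⟩ := CStarAlgebra.nonneg_iff_eq_star_mul_self.1 h0
  refine ⟨S, hS, ?_⟩
  have h2 : ‖T‖ ≤ 1 := (CStarAlgebra.norm_le_one_iff_of_nonneg T h0).2 h1
  rw [hS, CStarRing.norm_star_mul_self] at h2
  nlinarith [norm_nonneg S]

private theorem capPos_q {S : H →L[ℂ] H} (z : H) :
    (⟪z, (star S * S) z⟫_ℂ).re = ‖S z‖ ^ 2 := by
  rw [mul_apply_eq_comp, ContinuousLinearMap.star_eq_adjoint,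
    ContinuousLinearMap.adjoint_inner_right, inner_self_eq_norm_sq_to_K]
  norm_cast

/-- a positive contraction satisfies `T² ≤ T` -/
theorem capPos_sq {T : H →L[ℂ] H} (h0 : 0 ≤ T) (h1 : T ≤ 1) (z : H) :
    ‖T z‖ ^ 2 ≤ (⟪z, T z⟫_ℂ).re := by
  obtain ⟨S, rfl, hS⟩ := capPos_factor h0 h1
  rw [capPos_q, mul_apply_eq_comp]
  have h3 : ‖(star S) (S z)‖ ≤ ‖S z‖ := by
    calc ‖(star S) (S z)‖ ≤ ‖star S‖ * ‖S z‖ := ContinuousLinearMap.le_opNorm _ _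
      _ ≤ 1 * ‖S z‖ := by rw [norm_star]; gcongr
      _ = ‖S z‖ := one_mul _
  exact pow_le_pow_left₀ (norm_nonneg _) h3 2

theorem capPos_le {T : H →L[ℂ] H} (h0 : 0 ≤ T) (h1 : T ≤ 1) (z : H) : ‖T z‖ ≤ ‖z‖ := by
  have h2 : ‖T‖ ≤ 1 := (CStarAlgebra.norm_le_one_iff_of_nonneg T h0).2 h1
  calc ‖T z‖ ≤ ‖T‖ * ‖z‖ := T.le_opNorm z
    _ ≤ 1 * ‖z‖ := by gcongr
    _ = ‖z‖ := one_mul _

/-- self-adjointness in the form used here -/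
theorem capPos_symm {T : H →L[ℂ] H} (h0 : 0 ≤ T) (u v : H) : ⟪T u, v⟫_ℂ = ⟪u, T v⟫_ℂ := by
  have h1 : star T = T := (IsSelfAdjoint.of_nonneg h0).star_eq
  conv_rhs => rw [← h1]
  rw [ContinuousLinearMap.star_eq_adjoint, ContinuousLinearMap.adjoint_inner_right]

theorem capPos_dist {T : H →L[ℂ] H} (h0 : 0 ≤ T) (h1 : T ≤ 1) (z : H) :
    ‖T z - z‖ ^ 2 ≤ ‖z‖ ^ 2 - (⟪z, T z⟫_ℂ).re := by
  have h2 := capPos_sq h0 h1 z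
  have h3 : ‖T z - z‖ ^ 2 = ‖T z‖ ^ 2 - 2 * (⟪T z, z⟫_ℂ).re + ‖z‖ ^ 2 := by
    have := norm_sub_sq (𝕜 := ℂ) (T z) z
    simpa using this
  rw [capPos_symm h0] at h3
  linarith

theorem capPos_lip {T : H →L[ℂ] H} (h0 : 0 ≤ T) (h1 : T ≤ 1) (u v : H) :
    |(⟪u, T u⟫_ℂ).re - (⟪v, T v⟫_ℂ).re| ≤ ‖u - v‖ * (‖u‖ + ‖v‖) := by
  have h2 : (⟪u, T u⟫_ℂ).re - (⟪v, T v⟫_ℂ).re = (⟪u - v, T u⟫_ℂ).re + (⟪v, T (u - v)⟫_ℂ).re := by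
    rw [map_sub, inner_sub_left, inner_sub_right, Complex.sub_re, Complex.sub_re]
    ring
  have h3 : |(⟪u - v, T u⟫_ℂ).re| ≤ ‖u - v‖ * ‖u‖ :=
    calc |(⟪u - v, T u⟫_ℂ).re| ≤ ‖⟪u - v, T u⟫_ℂ‖ := Complex.abs_re_le_norm _
      _ ≤ ‖u - v‖ * ‖T u‖ := norm_inner_le_norm _ _
      _ ≤ ‖u - v‖ * ‖u‖ := by gcongr; exact capPos_le h0 h1 u
  have h4 : |(⟪v, T (u - v)⟫_ℂ).re| ≤ ‖v‖ * ‖u - v‖ :=
    calc |(⟪v, T (u - v)⟫_ℂ).re| ≤ ‖⟪v, T (u - v)⟫_ℂ‖ := Complex.abs_re_le_norm _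
      _ ≤ ‖v‖ * ‖T (u - v)‖ := norm_inner_le_norm _ _
      _ ≤ ‖v‖ * ‖u - v‖ := by gcongr; exact capPos_le h0 h1 _
  rw [h2]
  have h5 := abs_add_le ((⟪u - v, T u⟫_ℂ).re) ((⟪v, T (u - v)⟫_ℂ).re)
  nlinarith

/-- the Hilbert space estimate of step (5): `e, b, x` positive contractions, `ζ` a unit vector
with `1 - 3 κ ≤ ⟪e ζ, b (e ζ)⟫` and `⟪e b z, x e b z⟫ ≤ 3 δ ‖b z‖²` for all `z`, and
`108 κ ≤ δ²`.  Then `⟪ζ, x ζ⟫ ≤ 4 δ`. -/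
theorem cap_est {e b x : H →L[ℂ] H} (he0 : 0 ≤ e) (he1 : e ≤ 1) (hb0 : 0 ≤ b) (hb1 : b ≤ 1)
    (hx0 : 0 ≤ x) (hx1 : x ≤ 1) {δ κ : ℝ} (hδ : 0 < δ) (hκ : 0 < κ) (hκδ : 108 * κ ≤ δ ^ 2)
    (h : ∀ z : H, (⟪e (b z), x (e (b z))⟫_ℂ).re ≤ 3 * δ * ‖b z‖ ^ 2) {ζ : H} (hζ : ‖ζ‖ = 1)
    (hk : 1 - 3 * κ ≤ (⟪e ζ, b (e ζ)⟫_ℂ).re) : (⟪ζ, x ζ⟫_ℂ).re ≤ 4 * δ := by
  set s : ℝ := δ / 6 with hs
  have hs0 : 0 < s := by positivity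
  have hs3 : 3 * κ ≤ s ^ 2 := by rw [hs]; nlinarith
  have hle : ∀ y : H, ‖y‖ ^ 2 ≤ s ^ 2 → ‖y‖ ≤ s := fun y hy =>
    (pow_le_pow_iff_left₀ (norm_nonneg _) hs0.le two_ne_zero).1 hy
  have hbe : (⟪e ζ, b (e ζ)⟫_ℂ).re ≤ ‖e ζ‖ ^ 2 := by
    calc (⟪e ζ, b (e ζ)⟫_ℂ).re ≤ ‖⟪e ζ, b (e ζ)⟫_ℂ‖ := Complex.re_le_norm _
      _ ≤ ‖e ζ‖ * ‖b (e ζ)‖ := norm_inner_le_norm _ _
      _ ≤ ‖e ζ‖ * ‖e ζ‖ := by gcongr; exact capPos_le hb0 hb1 _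
      _ = ‖e ζ‖ ^ 2 := by ring
  have heζ := capPos_sq he0 he1 ζ
  have h1 : ‖e ζ - ζ‖ ≤ s := hle _ ((capPos_dist he0 he1 ζ).trans (by rw [hζ]; linarith))
  have h1' : ‖e ζ‖ ≤ 1 := hζ ▸ capPos_le he0 he1 ζ
  have h2 : ‖b (e ζ) - e ζ‖ ≤ s := hle _ ((capPos_dist hb0 hb1 (e ζ)).trans (by nlinarith [norm_nonneg (e ζ)]))
  have h3 : ‖e (b (e ζ)) - ζ‖ ≤ 3 * s := by
    have h4 : e (b (e ζ)) - ζ = e (b (e ζ) - e ζ) + (e (e ζ - ζ) + (e ζ - ζ)) := by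
      rw [map_sub, map_sub]; abel
    rw [h4]
    calc ‖e (b (e ζ) - e ζ) + (e (e ζ - ζ) + (e ζ - ζ))‖
        ≤ ‖e (b (e ζ) - e ζ)‖ + (‖e (e ζ - ζ)‖ + ‖e ζ - ζ‖) :=
          (norm_add_le _ _).trans (by gcongr; exact norm_add_le _ _)
      _ ≤ s + (s + s) := by
          gcongr
          · exact (capPos_le he0 he1 _).trans h2
          · exact (capPos_le he0 he1 _).trans h1
      _ = 3 * s := by ring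
  have h5 := capPos_lip hx0 hx1 ζ (e (b (e ζ)))
  have h6 := (abs_le.1 h5).2
  have h7 := h (e ζ)
  have h8 : ‖b (e ζ)‖ ≤ 1 := (capPos_le hb0 hb1 _).trans h1'
  have h9 : ‖e (b (e ζ))‖ ≤ 1 := (capPos_le he0 he1 _).trans h8
  have h10 : 3 * δ * ‖b (e ζ)‖ ^ 2 ≤ 3 * δ := by
    have : ‖b (e ζ)‖ ^ 2 ≤ 1 := pow_le_one₀ (norm_nonneg _) h8
    nlinarith
  have h11 : ‖ζ - e (b (e ζ))‖ * (‖ζ‖ + ‖e (b (e ζ))‖) ≤ 3 * s * 2 := by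
    rw [norm_sub_rev]
    gcongr
    rw [hζ]; linarith
  have h12 : 3 * s * 2 = δ := by rw [hs]; ring
  linarith

/-- step (4): `e, b` positive contractions, `ζ` a unit vector fixed by `b` with
`1 - 2 δ' ≤ ⟪ζ, e ζ⟫` and `8 δ' ≤ κ²`.  Then `1 - κ ≤ ⟪e ζ, b (e ζ)⟫`. -/
theorem cap_low {e b : H →L[ℂ] H} (he0 : 0 ≤ e) (he1 : e ≤ 1) (hb0 : 0 ≤ b) (hb1 : b ≤ 1)
    {κ δ' : ℝ} (hκ : 0 < κ) (hδ' : 8 * δ' ≤ κ ^ 2) {ζ : H} (hζ : ‖ζ‖ = 1) (hb : b ζ = ζ)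
    (he : 1 - 2 * δ' ≤ (⟪ζ, e ζ⟫_ℂ).re) : 1 - κ ≤ (⟪e ζ, b (e ζ)⟫_ℂ).re := by
  have h1 : ‖e ζ - ζ‖ ≤ κ / 2 := by
    refine (pow_le_pow_iff_left₀ (norm_nonneg _) (by positivity) two_ne_zero).1 ?_
    refine (capPos_dist he0 he1 ζ).trans ?_
    rw [hζ]
    nlinarith
  have h2 := capPos_lip hb0 hb1 (e ζ) ζ
  have h3 : (⟪ζ, b ζ⟫_ℂ).re = 1 := by
    rw [hb, inner_self_eq_norm_sq_to_K, hζ]; norm_num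
  have h4 : ‖e ζ‖ ≤ 1 := hζ ▸ capPos_le he0 he1 ζ
  have h5 : ‖e ζ - ζ‖ * (‖e ζ‖ + ‖ζ‖) ≤ κ / 2 * 2 := by
    gcongr
    rw [hζ]; linarith
  have h6 := (abs_le.1 h2).1
  linarith

end Vale.Agent.P070
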