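import Vale.Agent.P070.Defs

/-!
# P070, module GNS: cyclic representation of a quasi-state

Mathlib has `PositiveLinearMap.gnsNonUnitalStarAlgHom` (file
`Mathlib/Analysis/CStarAlgebra/GelfandNaimarkSegal.lean`); use the local instances
`CStarAlgebra.spectralOrder A`, `CStarAlgebra.spectralOrderedRing A` to view `φ ∈ Q A` as a
positive linear map (`0 ≤ x` iff `x = star a * a`: `CStarAlgebra.nonneg_iff_eq_star_mul_self`).

Missing in Mathlib: the cyclic vector.  First `‖φ a‖ ^ 2 ≤ (φ (star a * a)).re`: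
Cauchy-Schwarz for the positive form `(b, a) ↦ φ (star b * a)` with `b = e` in the approximate
unit: `‖φ (star e * a)‖^2 ≤ φ (star e * e) φ (star a * a) ≤ φ (star a * a)` because
`‖φ (star e * e)‖ ≤ ‖star e * e‖ ≤ 1`, and `e * a → a`.  So `[a] ↦ φ a` extends to a bounded
functional of norm `≤ 1` on the completion; `ξ` = its Riesz representative (so `⟪ξ, [a]⟫ = φ a`,
`‖ξ‖ ≤ 1`).  Then `ρ a ξ = [a]` (test against `[b]`), so the orbit of `ξ` is the dense image of
`A`, and `⟪ξ, ρ a ξ⟫ = ⟪ξ, [a]⟫ = φ a`.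
-/

open scoped ComplexOrder InnerProductSpace

namespace Vale.Agent.P070

universe u
variable {A : Type u} [NonUnitalCStarAlgebra A]

/-- A quasi-state as a positive linear map for the spectral order. -/
noncomputable def gnsPos [PartialOrder A] [StarOrderedRing A] (φ : WeakDual ℂ A)
    (hφ : φ ∈ Q A) : A →ₚ[ℂ] ℂ :=
  PositiveLinearMap.mk₀ (φ : A →L[ℂ] ℂ).toLinearMap (by
    intro x hx
    obtain ⟨a, rfl⟩ := CStarAlgebra.nonneg_iff_eq_star_mul_self.1 hx
    exact hφ.1 a)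

theorem gnsPos_apply [PartialOrder A] [StarOrderedRing A] (φ : WeakDual ℂ A)
    (hφ : φ ∈ Q A) (a : A) : gnsPos φ hφ a = φ a := rfl

theorem gns_norm_le [PartialOrder A] [StarOrderedRing A] {φ : WeakDual ℂ A}
    (hφ : φ ∈ Q A) (b : A) (hb : ‖b‖ ≤ 1) : ‖(gnsPos φ hφ).toPreGNS b‖ ≤ 1 := by
  rw [PositiveLinearMap.preGNS_norm_def, Real.sqrt_le_one]
  refine (Complex.re_le_norm _).trans ((hφ.2 _).trans ?_)
  rw [PositiveLinearMap.ofPreGNS_toPreGNS, CStarRing.norm_star_mul_self]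
  nlinarith [norm_nonneg b]

theorem gns_norm_apply_le [PartialOrder A] [StarOrderedRing A] {φ : WeakDual ℂ A}
    (hφ : φ ∈ Q A) (a : A) : ‖φ a‖ ≤ ‖(gnsPos φ hφ).toPreGNS a‖ := by
  have hu := CStarAlgebra.increasingApproximateUnit A
  have h1 : Filter.Tendsto (fun e : A => ‖φ (e * a)‖) (CStarAlgebra.approximateUnit A)
      (nhds ‖φ a‖) := by
    have h2 := hu.tendsto_mul_right a
    exact ((φ : A →L[ℂ] ℂ).continuous.norm.tendsto a).comp h2
  refine le_of_tendsto h1 ?_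
  filter_upwards [hu.eventually_norm] with e he
  have h3 : ‖⟪(gnsPos φ hφ).toPreGNS (star e), (gnsPos φ hφ).toPreGNS a⟫_ℂ‖ ≤ _ :=
    norm_inner_le_norm _ _
  rw [PositiveLinearMap.preGNS_inner_def, PositiveLinearMap.ofPreGNS_toPreGNS,
    PositiveLinearMap.ofPreGNS_toPreGNS, star_star, gnsPos_apply] at h3
  refine h3.trans ?_
  have h4 := gns_norm_le hφ (star e) (by rwa [norm_star])
  calc _ ≤ 1 * ‖(gnsPos φ hφ).toPreGNS a‖ := by gcongr
    _ = _ := one_mul _

/-- Kadison's inequality for quasi-states. -/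
theorem Q_norm_sq_le {φ : WeakDual ℂ A} (hφ : φ ∈ Q A) (a : A) :
    ‖φ a‖ ^ 2 ≤ (φ (star a * a)).re := by
  let _ := CStarAlgebra.spectralOrder A
  have _ := CStarAlgebra.spectralOrderedRing A
  have h1 := gns_norm_apply_le hφ a
  have h2 : ((‖(gnsPos φ hφ).toPreGNS a‖ ^ 2 : ℝ) : ℂ) = φ (star a * a) := by
    have := (gnsPos φ hφ).preGNS_norm_sq ((gnsPos φ hφ).toPreGNS a)
    rw [PositiveLinearMap.ofPreGNS_toPreGNS, gnsPos_apply] at this
    rw [← this]; push_cast; rfl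
  rw [← h2, Complex.ofReal_re]
  gcongr

theorem gns_exists {φ : WeakDual ℂ A} (hφ : φ ∈ Q A) : Nonempty (GNSData φ) := by
  let _ := CStarAlgebra.spectralOrder A
  have _ := CStarAlgebra.spectralOrderedRing A
  set f := gnsPos φ hφ with hf
  -- the functional `[a] ↦ φ a`
  let ℓ₀ : f.PreGNS →L[ℂ] ℂ := LinearMap.mkContinuous
    ((φ : A →L[ℂ] ℂ).toLinearMap ∘ₗ f.ofPreGNS.toLinearMap) 1 (by
      intro x
      rw [one_mul]
      exact gns_norm_apply_le hφ (f.ofPreGNS x))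
  let ℓ : f.GNS →L[ℂ] ℂ := ℓ₀.fromCompletion
  have hℓ0 : ∀ x : f.PreGNS, ‖ℓ₀ x‖ ≤ ‖x‖ := fun x => gns_norm_apply_le hφ (f.ofPreGNS x)
  have hℓc : ∀ x : f.PreGNS, ℓ (x : f.GNS) = φ (f.ofPreGNS x) := fun x => by
    simp only [ℓ, ContinuousLinearMap.fromCompletion_apply_coe]; rfl
  have hℓ : ∀ x : f.GNS, ‖ℓ x‖ ≤ ‖x‖ := by
    intro x
    induction x using UniformSpace.Completion.induction_on with
    | hp => exact isClosed_le (by fun_prop) (by fun_prop)
    | ih x =>
      rw [hℓc, UniformSpace.Completion.norm_coe]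
      exact hℓ0 x
  let ξ : f.GNS := (InnerProductSpace.toDual ℂ f.GNS).symm ℓ
  have hξ : ∀ x : f.GNS, ⟪ξ, x⟫_ℂ = ℓ x := fun x =>
    InnerProductSpace.toDual_symm_apply
  have hξn : ‖ξ‖ ≤ 1 := by
    simp only [ξ, LinearIsometryEquiv.norm_map]
    exact ContinuousLinearMap.opNorm_le_bound _ zero_le_one (by simpa using hℓ)
  -- the orbit of `ξ`
  have horb : ∀ a : A, f.gnsNonUnitalStarAlgHom a ξ = ((f.toPreGNS a : f.PreGNS) : f.GNS) := by
    intro a
    refine ext_inner_right ℂ fun y => ?_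
    induction y using UniformSpace.Completion.induction_on with
    | hp => exact isClosed_eq (by fun_prop) (by fun_prop)
    | ih y =>
      have h1 : ⟪f.gnsNonUnitalStarAlgHom a ξ, (y : f.GNS)⟫_ℂ =
          ⟪ξ, f.gnsNonUnitalStarAlgHom (star a) (y : f.GNS)⟫_ℂ := by
        rw [map_star, ContinuousLinearMap.star_eq_adjoint, ContinuousLinearMap.adjoint_inner_right]
      rw [h1, PositiveLinearMap.gnsNonUnitalStarAlgHom_apply_coe, hξ, hℓc,
        UniformSpace.Completion.inner_coe, PositiveLinearMap.preGNS_inner_def]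
      simp only [PositiveLinearMap.leftMulMapPreGNS_apply, PositiveLinearMap.ofPreGNS_toPreGNS]
      rfl
  refine ⟨⟨f.GNS, f.gnsNonUnitalStarAlgHom, ξ, ?_, ?_, hξn⟩⟩
  · intro a
    rw [horb, hξ, hℓc, PositiveLinearMap.ofPreGNS_toPreGNS]
  · intro K hK hKo
    rw [eq_top_iff]
    rintro x -
    induction x using UniformSpace.Completion.induction_on with
    | hp => exact hK
    | ih x =>
      have := hKo (f.ofPreGNS x)
      rwa [horb, PositiveLinearMap.toPreGNS_ofPreGNS] at this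

end Vale.Agent.P070
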