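import Vale.Agent.P070.Defs

/-!
# P070, module SCHUR: the commutant of an irreducible representation is `ℂ`

Real and imaginary part: it suffices to treat self-adjoint `T` (`star T` commutes with all
`π a` as well).  If the spectrum of `T` has two points `s ≠ t`, choose continuous real functions
`h, k` with `h k = 0`, `h s = 1`, `k t = 1`; `cfc h T ≠ 0`, `cfc k T ≠ 0`,
`cfc h T * cfc k T = 0` and both commute with `π(A)` (`Commute.cfc`).  The closed subspace
`ker (cfc h T)` is invariant, not `⊤` and not `⊥` (it contains the range of `cfc k T`).  So the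
spectrum is one point `c` and `T = c` (`cfc` of the identity = `cfc` of a constant).
-/

open scoped ComplexOrder InnerProductSpace

namespace Vale.Agent.P070

variable {A : Type*} [NonUnitalCStarAlgebra A]
variable {H : Type*} [NormedAddCommGroup H] [InnerProductSpace ℂ H] [CompleteSpace H]

theorem schur_nontrivial {π : A →⋆ₙₐ[ℂ] (H →L[ℂ] H)} (hπ : IsIrred π) :
    Nontrivial (H →L[ℂ] H) := by
  obtain ⟨a, ha⟩ := hπ.ne_zero
  exact ⟨⟨π a, 0, ha⟩⟩

theorem schur_zero {π : A →⋆ₙₐ[ℂ] (H →L[ℂ] H)} (hπ : IsIrred π) {X Y : H →L[ℂ] H}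
    (hX : ∀ a, Commute X (π a)) (hXY : X * Y = 0) : X = 0 ∨ Y = 0 := by
  have hK := hπ.irred (LinearMap.ker (X : H →ₗ[ℂ] H)) X.isClosed_ker (fun a x hx => by
    rw [LinearMap.mem_ker] at hx ⊢
    have h1 : (X * π a) x = (π a * X) x := by rw [(hX a).eq]
    change X x = 0 at hx
    change X (π a x) = 0
    change X (π a x) = π a (X x) at h1
    rw [h1, hx, map_zero])
  rcases hK with h | h
  · right
    ext x
    have h1 : Y x ∈ LinearMap.ker (X : H →ₗ[ℂ] H) := by
      rw [LinearMap.mem_ker]
      change (X * Y) x = 0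
      rw [hXY]
      rfl
    rw [h, Submodule.mem_bot] at h1
    rw [h1]
    rfl
  · left
    ext x
    have h1 : x ∈ LinearMap.ker (X : H →ₗ[ℂ] H) := by
      rw [h]
      trivial
    exact h1

theorem schur_spec {S : H →L[ℂ] H} (hS : IsSelfAdjoint S) {f : ℝ → ℝ} (hf : Continuous f) {t : ℝ}
    (ht : t ∈ spectrum ℝ S) (hft : f t ≠ 0) : cfc f S ≠ 0 := by
  intro h
  have h1 := cfc_map_spectrum (R := ℝ) (f := f) (a := S) hS hf.continuousOn
  rw [h] at h1
  have h2 : f t ∈ spectrum ℝ (0 : H →L[ℂ] H) := by
    rw [h1]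
    exact ⟨t, ht, rfl⟩
  have h3 : f t ∈ ({0} : Set ℝ) := by
    have hn : Nontrivial (H →L[ℂ] H) := by
      by_contra hn
      rw [not_nontrivial_iff_subsingleton] at hn
      have := spectrum.of_subsingleton (R := ℝ) S
      rw [this] at ht
      exact ht
    rwa [spectrum.zero_eq] at h2
  exact hft h3

theorem schur_sa {π : A →⋆ₙₐ[ℂ] (H →L[ℂ] H)} (hπ : IsIrred π) {S : H →L[ℂ] H}
    (hS : IsSelfAdjoint S) (hc : ∀ a, Commute S (π a)) : ∃ c : ℝ, S = (c : ℂ) • (1 : H →L[ℂ] H) := by
  have hn := schur_nontrivial hπ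
  obtain ⟨s, hs⟩ : (spectrum ℝ S).Nonempty := ContinuousFunctionalCalculus.spectrum_nonempty S hS
  have hone : ∀ t ∈ spectrum ℝ S, t = s := by
    intro t ht
    by_contra hne
    have key : ∀ s t : ℝ, s ∈ spectrum ℝ S → t ∈ spectrum ℝ S → s < t → False := by
      intro s t hs ht hst
      set m := (s + t) / 2 with hm
      have h1 := schur_zero hπ (X := cfc (fun x : ℝ => max 0 (x - m)) S)
        (Y := cfc (fun x : ℝ => max 0 (m - x)) S)
        (fun a => (hc a).cfc_real _) (by
          rw [← cfc_mul (fun x : ℝ => max 0 (x - m)) (fun x : ℝ => max 0 (m - x)) S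
            (by fun_prop) (by fun_prop)]
          have : (fun x : ℝ => max 0 (x - m) * max 0 (m - x)) = fun _ => 0 := by
            funext x
            rcases le_total x m with h | h
            · rw [max_eq_left (by linarith), zero_mul]
            · rw [max_eq_left (a := (0 : ℝ)) (b := m - x) (by linarith), mul_zero]
          rw [this, cfc_const_zero])
      rcases h1 with h | h
      · refine schur_spec hS (f := fun x : ℝ => max 0 (x - m)) (by fun_prop) ht ?_ h
        have : 0 < t - m := by rw [hm]; linarith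
        rw [max_eq_right this.le]
        exact this.ne'
      · refine schur_spec hS (f := fun x : ℝ => max 0 (m - x)) (by fun_prop) hs ?_ h
        have : 0 < m - s := by rw [hm]; linarith
        rw [max_eq_right this.le]
        exact this.ne'
    rcases lt_or_gt_of_ne hne with h | h
    · exact key t s ht hs h
    · exact key s t hs ht h
  refine ⟨s, ?_⟩
  have h1 : cfc (id : ℝ → ℝ) S = cfc (fun _ : ℝ => s) S := by
    refine cfc_congr fun t ht => ?_
    exact hone t ht
  rw [cfc_id ℝ S hS, cfc_const s S hS] at h1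
  rw [h1, Algebra.algebraMap_eq_smul_one]
  ext x
  simp

theorem schur {π : A →⋆ₙₐ[ℂ] (H →L[ℂ] H)} (hπ : IsIrred π) (T : H →L[ℂ] H)
    (hT : ∀ a, T * π a = π a * T) : ∃ c : ℂ, T = c • (1 : H →L[ℂ] H) := by
  have hTs : ∀ a, star T * π a = π a * star T := by
    intro a
    have h1 := congrArg star (hT (star a))
    rw [star_mul, star_mul, map_star, star_star] at h1
    exact h1.symm
  obtain ⟨c, hc⟩ := schur_sa hπ (S := T + star T) (IsSelfAdjoint.add_star_self T)
    (fun a => by
      show (T + star T) * π a = π a * (T + star T)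
      rw [add_mul, mul_add, hT, hTs])
  obtain ⟨d, hd⟩ := schur_sa hπ (S := Complex.I • (star T - T)) (by
      unfold IsSelfAdjoint
      rw [star_smul, star_sub, star_star]
      show (starRingEnd ℂ) Complex.I • (T - star T) = _
      rw [Complex.conj_I, neg_smul, ← smul_neg, neg_sub])
    (fun a => by
      show (Complex.I • (star T - T)) * π a = π a * (Complex.I • (star T - T))
      rw [smul_mul_assoc, mul_smul_comm, sub_mul, mul_sub, hT, hTs])
  refine ⟨(1 / 2) * ((c : ℂ) + Complex.I * d), ?_⟩
  have h1 : T - star T = Complex.I • ((d : ℂ) • (1 : H →L[ℂ] H)) := by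
    rw [← hd, smul_smul, Complex.I_mul_I, neg_one_smul, neg_sub]
  have h2 : T = (1 / 2 : ℂ) • ((T + star T) + (T - star T)) := by
    have : (T + star T) + (T - star T) = (2 : ℂ) • T := by
      rw [two_smul]
      abel
    rw [this, smul_smul]
    norm_num
  rw [h2, hc, h1, smul_smul, ← add_smul, smul_smul]

end Vale.Agent.P070
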