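import Vale.Agent.P070.Nondeg
import Vale.Agent.P070.Schur
import Vale.Agent.P070.Gns

/-!
# P070, module VECEXT: vector states of an irreducible representation are extreme in `Q A`

Let `vec π ξ = s ψ₁ + (1-s) ψ₂`, `0 < s < 1`, `ψᵢ ∈ Q A`, `‖ξ‖ = 1`.  Take GNS data
`(H₁, ρ, ξ₁)` of `ψ₁` (`gns_exists`).  `‖√s ρ(a) ξ₁‖² = s ψ₁(a* a) ≤ ‖π a ξ‖²`, and
`a ↦ π a ξ` has dense range (`orbit_dense`), so there is a bounded `V : H → H₁` with
`V (π a ξ) = √s ρ a ξ₁` (`LinearMap.extendOfNorm`, `LinearMap.extendOfNorm_eq`).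
`V π(a) = ρ(a) V`, so `T = V* V` commutes with `π(A)`, `T = c` by `schur`, hence
`s ψ₁(b* a) = c ⟪π b ξ, π a ξ⟫ = c (vec π ξ)(b* a)`; products `b* a` are dense in `A`
(approximate unit; or use `nondeg`-type argument directly on functionals), so
`s ψ₁ = c vec π ξ`, `c` real, `0 ≤ c`; similarly `(1-s) ψ₂ = c' vec π ξ`, and `c + c' = 1`
(as `vec π ξ ≠ 0`).  `‖ψ₁‖ ≤ 1` and `vec_norm` give `c ≤ s`, `c' ≤ 1 - s`, so `c = s`, `ψ₁ = vec`.
(Mathlib's `mem_extremePoints`: need `ψ₁ = vec π ξ` and/or `ψ₂ = vec π ξ`.)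
-/

open scoped ComplexOrder InnerProductSpace

namespace Vale.Agent.P070

universe u
variable {A : Type u} [NonUnitalCStarAlgebra A]
variable {H : Type u} [NormedAddCommGroup H] [InnerProductSpace ℂ H] [CompleteSpace H]

theorem VECEXT_inner {K : Type u} [NormedAddCommGroup K] [InnerProductSpace ℂ K] [CompleteSpace K]
    (π : A →⋆ₙₐ[ℂ] (K →L[ℂ] K)) (a b : A) (ξ : K) :
    ⟪π b ξ, π a ξ⟫_ℂ = ⟪ξ, π (star b * a) ξ⟫_ℂ := by
  rw [map_mul, map_star, ContinuousLinearMap.star_eq_adjoint, mul_apply_eq_comp,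
    ContinuousLinearMap.adjoint_inner_right]

theorem VECEXT_sq {K : Type u} [NormedAddCommGroup K] [InnerProductSpace ℂ K] [CompleteSpace K]
    (π : A →⋆ₙₐ[ℂ] (K →L[ℂ] K)) (a : A) (ξ : K) :
    ‖π a ξ‖ ^ 2 = (⟪ξ, π (star a * a) ξ⟫_ℂ).re := by
  rw [← VECEXT_inner, inner_self_eq_norm_sq_to_K]
  norm_cast

theorem VECEXT_core {π : A →⋆ₙₐ[ℂ] (H →L[ℂ] H)} (hπ : IsIrred π) {ξ : H} (hξ : ξ ≠ 0)
    {ψ : WeakDual ℂ A} (hψ : ψ ∈ Q A) {s : ℝ} (hs : 0 < s)
    (hle : ∀ a, s * (ψ (star a * a)).re ≤ ‖π a ξ‖ ^ 2) :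
    ∃ c : ℂ, ∀ a, (s : ℂ) * ψ a = c * vec π ξ a := by
  obtain ⟨G⟩ := gns_exists hψ
  let e : A →ₗ[ℂ] H :=
    { toFun := fun a => π a ξ
      map_add' := by intro a b; simp
      map_smul' := by intro c a; simp }
  let f : A →ₗ[ℂ] G.H :=
    { toFun := fun a => ((Real.sqrt s : ℝ) : ℂ) • G.ρ a G.ξ
      map_add' := by intro a b; simp
      map_smul' := by
        intro c a
        rw [map_smul]
        exact smul_comm _ _ _ }
  have hed : DenseRange e := by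
    intro η
    rw [Metric.mem_closure_range_iff]
    intro ε hε
    obtain ⟨a, ha⟩ := orbit_dense hπ hξ η hε
    refine ⟨a, ?_⟩
    rw [dist_comm, dist_eq_norm]
    exact ha
  have hfn : ∀ a, ‖f a‖ ≤ 1 * ‖e a‖ := by
    intro a
    rw [one_mul]
    have h1 : ‖f a‖ ^ 2 = s * (ψ (star a * a)).re := by
      show ‖((Real.sqrt s : ℝ) : ℂ) • G.ρ a G.ξ‖ ^ 2 = _
      rw [norm_smul, mul_pow, VECEXT_sq, ← G.apply, Complex.norm_real, Real.norm_of_nonneg
        (Real.sqrt_nonneg s), Real.sq_sqrt hs.le]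
    have h2 : ‖f a‖ ^ 2 ≤ ‖e a‖ ^ 2 := by
      rw [h1]
      exact hle a
    exact (pow_le_pow_iff_left₀ (norm_nonneg _) (norm_nonneg _) two_ne_zero).1 h2
  let V : H →L[ℂ] G.H := f.extendOfNorm e
  have hV : ∀ a, V (π a ξ) = ((Real.sqrt s : ℝ) : ℂ) • G.ρ a G.ξ := fun a =>
    LinearMap.extendOfNorm_eq hed ⟨1, hfn⟩ a
  have hint : ∀ a x, V (π a x) = G.ρ a (V x) := by
    intro a
    have h1 : (fun x => V (π a x)) = fun x => G.ρ a (V x) := by
      refine hed.equalizer (by fun_prop) (by fun_prop) ?_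
      funext b
      show V (π a (π b ξ)) = G.ρ a (V (π b ξ))
      rw [← mul_apply_eq_comp, ← map_mul, hV, hV, map_smul, map_mul, mul_apply_eq_comp]
    exact fun x => congrFun h1 x
  have hadj : ∀ a y, ContinuousLinearMap.adjoint V (G.ρ a y) =
      π a (ContinuousLinearMap.adjoint V y) := by
    intro a y
    refine ext_inner_left ℂ fun z => ?_
    rw [ContinuousLinearMap.adjoint_inner_right]
    have e1 : ⟪V z, G.ρ a y⟫_ℂ = ⟪G.ρ (star a) (V z), y⟫_ℂ := by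
      rw [map_star, ContinuousLinearMap.star_eq_adjoint, ContinuousLinearMap.adjoint_inner_left]
    have e2 : ⟪z, π a (ContinuousLinearMap.adjoint V y)⟫_ℂ =
        ⟪π (star a) z, ContinuousLinearMap.adjoint V y⟫_ℂ := by
      rw [map_star, ContinuousLinearMap.star_eq_adjoint, ContinuousLinearMap.adjoint_inner_left]
    rw [e1, e2, ContinuousLinearMap.adjoint_inner_right, hint]
  obtain ⟨c, hc⟩ := schur hπ (ContinuousLinearMap.adjoint V ∘L V) (by
    intro a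
    ext x
    show ContinuousLinearMap.adjoint V (V (π a x)) = π a (ContinuousLinearMap.adjoint V (V x))
    rw [hint, hadj])
  have hprod : ∀ a b : A, (s : ℂ) * ψ (star b * a) = c * vec π ξ (star b * a) := by
    intro a b
    have e1 : ⟪V (π b ξ), V (π a ξ)⟫_ℂ = c * vec π ξ (star b * a) := by
      rw [← ContinuousLinearMap.adjoint_inner_right]
      have e3 : ContinuousLinearMap.adjoint V (V (π a ξ)) = c • π a ξ := by
        have := congrArg (fun T : H →L[ℂ] H => T (π a ξ)) hc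
        simpa using this
      rw [e3, inner_smul_right, vec_apply, VECEXT_inner]
    have e2 : ⟪V (π b ξ), V (π a ξ)⟫_ℂ = (s : ℂ) * ψ (star b * a) := by
      rw [hV, hV, inner_smul_left, inner_smul_right, VECEXT_inner, ← G.apply,
        Complex.conj_ofReal, ← mul_assoc, ← Complex.ofReal_mul, Real.mul_self_sqrt hs.le]
    rw [← e1, e2]
  refine ⟨c, fun a => ?_⟩
  let _ := CStarAlgebra.spectralOrder A
  have _ := CStarAlgebra.spectralOrderedRing A
  have hu := CStarAlgebra.increasingApproximateUnit A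
  have t1 : Filter.Tendsto (fun e : A => (s : ℂ) * ψ (e * a)) (CStarAlgebra.approximateUnit A)
      (nhds ((s : ℂ) * ψ a)) := by
    have h2 := hu.tendsto_mul_right a
    exact ((continuous_const.mul (ψ : A →L[ℂ] ℂ).continuous).tendsto a).comp h2
  have t2 : Filter.Tendsto (fun e : A => c * vec π ξ (e * a)) (CStarAlgebra.approximateUnit A)
      (nhds (c * vec π ξ a)) := by
    have h2 := hu.tendsto_mul_right a
    exact ((continuous_const.mul (vec π ξ : A →L[ℂ] ℂ).continuous).tendsto a).comp h2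
  have h3 : (fun e : A => (s : ℂ) * ψ (e * a)) = fun e : A => c * vec π ξ (e * a) := by
    funext e
    have := hprod a (star e)
    rwa [star_star] at this
  rw [h3] at t1
  exact tendsto_nhds_unique t1 t2

theorem VECEXT_bound {π : A →⋆ₙₐ[ℂ] (H →L[ℂ] H)} (hπ : IsIrred π) {ξ : H} (hξ : ‖ξ‖ = 1)
    {ψ : WeakDual ℂ A} (hψ : ψ ∈ Q A) {s : ℝ} (hs : 0 < s) {c : ℂ}
    (h : ∀ a, (s : ℂ) * ψ a = c * vec π ξ a) : ‖c‖ ≤ s := by
  refine le_of_forall_pos_le_add fun ε hε => ?_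
  obtain ⟨η, hη, hη1, hη2⟩ : ∃ η : ℝ, 0 < η ∧ η ≤ 1 / 2 ∧ ‖c‖ * η ≤ ε := by
    refine ⟨min (1 / 2) (ε / (‖c‖ + 1)), by positivity, min_le_left _ _, ?_⟩
    calc ‖c‖ * min (1 / 2) (ε / (‖c‖ + 1)) ≤ (‖c‖ + 1) * (ε / (‖c‖ + 1)) := by
          gcongr
          · linarith
          · exact min_le_right _ _
      _ = ε := by field_simp
  obtain ⟨e, he1, he2⟩ := vec_norm hπ ξ hη
  rw [hξ, one_pow] at he2
  have h1 : 1 - η ≤ ‖vec π ξ e‖ := he2.le.trans (Complex.re_le_norm _)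
  have h2 : ‖c‖ * ‖vec π ξ e‖ = s * ‖ψ e‖ := by
    have := congrArg norm (h e)
    rw [norm_mul, norm_mul, Complex.norm_real, Real.norm_of_nonneg hs.le] at this
    exact this.symm
  have h3 : ‖ψ e‖ ≤ 1 := (hψ.2 e).trans he1
  have h4 : ‖c‖ * (1 - η) ≤ s := by
    calc ‖c‖ * (1 - η) ≤ ‖c‖ * ‖vec π ξ e‖ := by gcongr
      _ = s * ‖ψ e‖ := h2
      _ ≤ s * 1 := by gcongr
      _ = s := mul_one s
  linarith

theorem vec_extreme {π : A →⋆ₙₐ[ℂ] (H →L[ℂ] H)} (hπ : IsIrred π) {ξ : H} (hξ : ‖ξ‖ = 1) :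
    vec π ξ ∈ (Q A).extremePoints ℝ := by
  have hξ0 : ξ ≠ 0 := by
    intro h
    rw [h, norm_zero] at hξ
    exact zero_ne_one hξ
  rw [mem_extremePoints_iff_left]
  refine ⟨vec_mem π hξ.le, ?_⟩
  rintro ψ₁ h₁ ψ₂ h₂ ⟨t, r, ht, hr, htr, hseg⟩
  have hval : ∀ a, (t : ℂ) * ψ₁ a + (r : ℂ) * ψ₂ a = vec π ξ a := by
    intro a
    have : (t • ψ₁ + r • ψ₂) a = vec π ξ a := by rw [hseg]
    rw [← this]
    show _ = t • ψ₁ a + r • ψ₂ a
    rw [Complex.real_smul, Complex.real_smul]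
  have hpos : ∀ (ψ : WeakDual ℂ A), ψ ∈ Q A → ∀ a, 0 ≤ (ψ (star a * a)).re := by
    intro ψ hψ a
    exact (Complex.le_def.1 (hψ.1 a)).1
  have hsum : ∀ a, t * (ψ₁ (star a * a)).re + r * (ψ₂ (star a * a)).re = ‖π a ξ‖ ^ 2 := by
    intro a
    have h3 := congrArg Complex.re (hval (star a * a))
    rw [Complex.add_re, Complex.re_ofReal_mul, Complex.re_ofReal_mul, vec_apply,
      ← VECEXT_sq] at h3
    exact h3
  obtain ⟨c₁, hc₁⟩ := VECEXT_core hπ hξ0 h₁ ht (fun a => by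
    have := hsum a
    have h4 := mul_nonneg hr.le (hpos ψ₂ h₂ a)
    linarith)
  obtain ⟨c₂, hc₂⟩ := VECEXT_core hπ hξ0 h₂ hr (fun a => by
    have := hsum a
    have h4 := mul_nonneg ht.le (hpos ψ₁ h₁ a)
    linarith)
  have b₁ := VECEXT_bound hπ hξ h₁ ht hc₁
  have b₂ := VECEXT_bound hπ hξ h₂ hr hc₂
  obtain ⟨e, -, he⟩ := vec_norm hπ ξ (ε := 1 / 2) (by norm_num)
  rw [hξ] at he
  have hne : vec π ξ e ≠ 0 := by
    intro h
    rw [h] at he
    norm_num at he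
  have hcc : c₁ + c₂ = 1 := by
    have h5 := hval e
    rw [hc₁, hc₂, ← add_mul] at h5
    exact mul_right_cancel₀ hne (by rw [h5, one_mul])
  have hre : c₁.re + c₂.re = 1 := by
    have := congrArg Complex.re hcc
    simpa using this
  have r1 : c₁.re ≤ ‖c₁‖ := Complex.re_le_norm _
  have r2 : c₂.re ≤ ‖c₂‖ := Complex.re_le_norm _
  have hc1re : c₁.re = t := by linarith
  have hc1n : ‖c₁‖ = t := by linarith
  have hc1 : c₁ = (t : ℂ) := by
    have h6 : ‖c₁‖ ^ 2 = c₁.re ^ 2 + c₁.im ^ 2 := by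
      rw [← Complex.normSq_eq_norm_sq, Complex.normSq_apply]
      ring
    rw [hc1n, hc1re] at h6
    have h7 : c₁.im = 0 := by
      have : c₁.im ^ 2 = 0 := by linarith
      exact pow_eq_zero_iff two_ne_zero |>.1 this
    exact Complex.ext (by simpa using hc1re) (by simpa using h7)
  refine DFunLike.ext _ _ fun a => ?_
  have h8 := hc₁ a
  rw [hc1] at h8
  exact mul_left_cancel₀ (Complex.ofReal_ne_zero.2 ht.ne') h8

end Vale.Agent.P070
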