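import Vale.Agent.P070.Slice
import Vale.Agent.P070.VecExt

/-!
# P070: Choquet slice for the first step of `cap`
-/

open scoped ComplexOrder InnerProductSpace

namespace Vale.Agent.P070

universe u
variable {A : Type u} [NonUnitalCStarAlgebra A]
variable {H : Type u} [NormedAddCommGroup H] [InnerProductSpace ℂ H] [CompleteSpace H]

private theorem CAPSLICE_half (a : A) (s : ℝ) :
    Convex ℝ {φ : WeakDual ℂ A | φ ∈ Q A ∧ (φ a).re ≤ s} ∧
      IsClosed {φ : WeakDual ℂ A | φ ∈ Q A ∧ (φ a).re ≤ s} ∧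
      Convex ℝ {φ : WeakDual ℂ A | φ ∈ Q A ∧ s ≤ (φ a).re} ∧
      IsClosed {φ : WeakDual ℂ A | φ ∈ Q A ∧ s ≤ (φ a).re} := by
  have hc : Continuous fun φ : WeakDual ℂ A => (φ a).re :=
    Complex.continuous_re.comp (WeakDual.eval_continuous a)
  have hre : ∀ (φ ψ : WeakDual ℂ A) (x y : ℝ), ((x • φ + y • ψ) a).re =
      x * (φ a).re + y * (ψ a).re := by
    intro φ ψ x y
    show (x • φ a + y • ψ a).re = _
    rw [Complex.add_re, Complex.real_smul, Complex.real_smul, Complex.re_ofReal_mul,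
      Complex.re_ofReal_mul]
  have hQc : IsClosed (Q A) := Q_isCompact.isClosed
  refine ⟨?_, ?_, ?_, ?_⟩
  · rintro φ ⟨hφ, h1⟩ ψ ⟨hψ, h2⟩ x y hx hy hxy
    refine ⟨Q_convex hφ hψ hx hy hxy, ?_⟩
    rw [hre]
    calc x * (φ a).re + y * (ψ a).re ≤ x * s + y * s := by gcongr
      _ = s := by rw [← add_mul, hxy, one_mul]
  · exact hQc.inter (isClosed_le hc continuous_const)
  · rintro φ ⟨hφ, h1⟩ ψ ⟨hψ, h2⟩ x y hx hy hxy
    refine ⟨Q_convex hφ hψ hx hy hxy, ?_⟩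
    rw [hre]
    calc s = x * s + y * s := by rw [← add_mul, hxy, one_mul]
      _ ≤ x * (φ a).re + y * (ψ a).re := by gcongr
  · exact hQc.inter (isClosed_le continuous_const hc)

/-- Choquet slice: `φ₀ = vec π ξ` is extreme in `Q A` and is not in the closed convex sets
`C₀ = {φ ∈ Q A | (φ e).re ≤ 1 - 2 δ'}` and `C_i = {φ ∈ Q A | 3 δ ≤ (φ (y i)).re}`.
`0 ∈ C₀` gives `0 ≤ t`. -/
theorem cap_slice {π : A →⋆ₙₐ[ℂ] (H →L[ℂ] H)} (hπ : IsIrred π) {ξ : H} (hξ : ‖ξ‖ = 1)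
    (e : A) {n : ℕ} (y : Fin n → A) {δ δ' : ℝ} (hδ' : δ' ≤ 1 / 2)
    (he : 1 - 2 * δ' < (⟪ξ, π e ξ⟫_ℂ).re) (hy : ∀ i, (⟪ξ, π (y i) ξ⟫_ℂ).re < 3 * δ) :
    ∃ a : A, IsSelfAdjoint a ∧ ∃ t : ℝ, 0 ≤ t ∧ t < (⟪ξ, π a ξ⟫_ℂ).re ∧
      ∀ ζ : H, ‖ζ‖ ≤ 1 → t < (⟪ζ, π a ζ⟫_ℂ).re →
        1 - 2 * δ' < (⟪ζ, π e ζ⟫_ℂ).re ∧ ∀ i, (⟪ζ, π (y i) ζ⟫_ℂ).re < 3 * δ := by
  let C : Option (Fin n) → Set (WeakDual ℂ A) := fun o => match o with
    | none => {φ : WeakDual ℂ A | φ ∈ Q A ∧ (φ e).re ≤ 1 - 2 * δ'}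
    | some i => {φ : WeakDual ℂ A | φ ∈ Q A ∧ 3 * δ ≤ (φ (y i)).re}
  obtain ⟨a, ha, t, ht, hC⟩ := slice (vec_extreme hπ hξ) C
    (fun o => by
      cases o with
      | none => exact (CAPSLICE_half e (1 - 2 * δ')).1
      | some i => exact (CAPSLICE_half (y i) (3 * δ)).2.2.1)
    (fun o => by
      cases o with
      | none => exact (CAPSLICE_half e (1 - 2 * δ')).2.1
      | some i => exact (CAPSLICE_half (y i) (3 * δ)).2.2.2)
    (fun o => by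
      cases o with
      | none => exact fun φ hφ => hφ.1
      | some i => exact fun φ hφ => hφ.1)
    (fun o => by
      cases o with
      | none => exact fun hφ => absurd hφ.2 (not_le.2 he)
      | some i => exact fun hφ => absurd hφ.2 (not_le.2 (hy i)))
  refine ⟨a, ha, t, ?_, ht, fun ζ hζ hζt => ?_⟩
  · have h0 : (0 : WeakDual ℂ A) ∈ C none := by
      refine ⟨zero_mem_Q, ?_⟩
      show (0 : ℂ).re ≤ 1 - 2 * δ'
      rw [Complex.zero_re]
      linarith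
    have h1 := hC none 0 h0
    have h2 : ((0 : WeakDual ℂ A) a).re = 0 := by
      show (0 : ℂ).re = 0
      rfl
    rw [h2] at h1
    exact h1
  · have hm := vec_mem π hζ
    constructor
    · by_contra hcon
      exact absurd hζt (not_lt.2 (hC none (vec π ζ) ⟨hm, not_lt.1 hcon⟩))
    · intro i
      by_contra hcon
      exact absurd hζt (not_lt.2 (hC (some i) (vec π ζ) ⟨hm, not_lt.1 hcon⟩))

end Vale.Agent.P070
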