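import Vale.Agent.P070.Defs

/-!
# P070, module CUT: the functional calculus lemma
-/

open scoped ComplexOrder InnerProductSpace

namespace Vale.Agent.P070

universe u
variable {A : Type u} [NonUnitalCStarAlgebra A]
variable {H : Type u} [NormedAddCommGroup H] [InnerProductSpace ℂ H] [CompleteSpace H]

/-- the closed set of `x` with `f x = x`, `f x* = x*` contains the functional calculus of `k` -/
theorem fix_cfcn (f k : A) (hk : IsSelfAdjoint k) (hfk : f * k = k) (h : ℝ → ℝ) :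
    f * cfcₙ h k = cfcₙ h k := by
  let S : NonUnitalStarSubalgebra ℝ A :=
    { carrier := {x | f * x = x ∧ f * star x = star x}
      add_mem' := by
        rintro x y ⟨hx, hx'⟩ ⟨hy, hy'⟩
        exact ⟨by rw [mul_add, hx, hy], by rw [star_add, mul_add, hx', hy']⟩
      zero_mem' := by simp
      mul_mem' := by
        rintro x y ⟨hx, hx'⟩ ⟨hy, hy'⟩
        exact ⟨by rw [← mul_assoc, hx], by rw [star_mul, ← mul_assoc, hy']⟩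
      smul_mem' := by
        rintro c x ⟨hx, hx'⟩
        refine ⟨?_, ?_⟩
        · show f * (c • x) = c • x
          rw [mul_smul_comm, hx]
        · show f * star (c • x) = star (c • x)
          rw [star_smul, mul_smul_comm, hx']
      star_mem' := by
        rintro x ⟨hx, hx'⟩
        exact ⟨hx', by rw [star_star, hx]⟩ }
  have hcl : IsClosed (S : Set A) := by
    have h1 : IsClosed {x : A | f * x = x} :=
      isClosed_eq (continuous_const.mul continuous_id) continuous_id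
    have h2 : IsClosed {x : A | f * star x = star x} :=
      isClosed_eq (continuous_const.mul continuous_star) continuous_star
    exact h1.inter h2
  have hkS : k ∈ S := ⟨hfk, by rw [hk.star_eq, hfk]⟩
  have hle : NonUnitalStarAlgebra.elemental ℝ k ≤ S :=
    NonUnitalStarAlgebra.elemental.le_of_mem hcl hkS
  have hmem : cfcₙ h k ∈ NonUnitalStarAlgebra.elemental ℝ k :=
    cfcₙ_mem_elemental h k
  exact (hle hmem).1

/-- the first cut function -/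
noncomputable def cutA (r₁ r₂ : ℝ) (s : ℝ) : ℝ := min 1 (max 0 ((s - r₁) / (r₂ - r₁)))

/-- the second cut function -/
noncomputable def cutB (r₂ : ℝ) (s : ℝ) : ℝ := max 0 (s - r₂)

theorem cutA_cont (r₁ r₂ : ℝ) : Continuous (cutA r₁ r₂) := by
  unfold cutA; fun_prop

theorem cutB_cont (r₂ : ℝ) : Continuous (cutB r₂) := by
  unfold cutB; fun_prop

theorem cutA_zero {r₁ r₂ : ℝ} (h0 : 0 ≤ r₁) (h12 : r₁ < r₂) : cutA r₁ r₂ 0 = 0 := by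
  unfold cutA
  have h : (0 - r₁) / (r₂ - r₁) ≤ 0 :=
    div_nonpos_of_nonpos_of_nonneg (by linarith) (by linarith)
  rw [max_eq_left h]
  exact min_eq_right zero_le_one

theorem cutB_zero {r₁ r₂ : ℝ} (h0 : 0 ≤ r₁) (h12 : r₁ < r₂) : cutB r₂ 0 = 0 := by
  unfold cutB
  exact max_eq_left (by linarith)

theorem cutA_nonneg (r₁ r₂ s : ℝ) : 0 ≤ cutA r₁ r₂ s :=
  le_min zero_le_one (le_max_left _ _)

theorem cutA_le_one (r₁ r₂ s : ℝ) : cutA r₁ r₂ s ≤ 1 := min_le_left _ _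

theorem cut_mul {r₁ r₂ : ℝ} (h12 : r₁ < r₂) (s : ℝ) :
    cutA r₁ r₂ s * cutB r₂ s = cutB r₂ s := by
  unfold cutA cutB
  rcases le_total s r₂ with hs | hs
  · rw [max_eq_left (by linarith : s - r₂ ≤ 0), mul_zero]
  · have h1 : 1 ≤ (s - r₁) / (r₂ - r₁) := by
      rw [le_div_iff₀ (by linarith)]; linarith
    rw [max_eq_right (by linarith : (0:ℝ) ≤ (s - r₁) / (r₂ - r₁)), min_eq_left h1, one_mul]

theorem cut_low {r₁ r₂ : ℝ} (h12 : r₁ < r₂) (s : ℝ) :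
    0 ≤ cutA r₁ r₂ s * (s - r₁) * cutA r₁ r₂ s := by
  rcases le_total s r₁ with hs | hs
  · have : cutA r₁ r₂ s = 0 := by
      unfold cutA
      have h : (s - r₁) / (r₂ - r₁) ≤ 0 :=
        div_nonpos_of_nonpos_of_nonneg (by linarith) (by linarith)
      rw [max_eq_left h]
      exact min_eq_right zero_le_one
    rw [this]; simp
  · exact mul_nonneg (mul_nonneg (cutA_nonneg _ _ _) (by linarith)) (cutA_nonneg _ _ _)

omit [CompleteSpace H] in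
theorem re_inner_algebraMap (r : ℝ) (ζ : H) :
    (⟪ζ, algebraMap ℝ (H →L[ℂ] H) r ζ⟫_ℂ).re = r * ‖ζ‖ ^ 2 := by
  have h1 : algebraMap ℝ (H →L[ℂ] H) r ζ = (r : ℂ) • ζ := by
    rw [Algebra.algebraMap_eq_smul_one]
    show r • ζ = (r : ℂ) • ζ
    exact (Complex.coe_smul r ζ).symm
  have h2 : ⟪ζ, ζ⟫_ℂ = ((‖ζ‖ ^ 2 : ℝ) : ℂ) := by
    rw [inner_self_eq_norm_sq_to_K]; norm_cast
  rw [h1, inner_smul_right, h2, ← Complex.ofReal_mul, Complex.ofReal_re]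

/-- everything, with explicit elements -/
theorem cut_core (π : A →⋆ₙₐ[ℂ] (H →L[ℂ] H)) (k : A) (hk : IsSelfAdjoint k)
    {r₁ r₂ r₃ : ℝ} (h0 : 0 ≤ r₁) (h12 : r₁ < r₂) (h23 : r₂ < r₃) {ζ₀ : H} (hζ₀ : ‖ζ₀‖ = 1)
    (hr : r₃ ≤ (⟪ζ₀, π k ζ₀⟫_ℂ).re) :
    IsSelfAdjoint (cfcₙ (cutA r₁ r₂) k) ∧ IsSelfAdjoint (cfcₙ (cutB r₂) k) ∧
      0 ≤ π (cfcₙ (cutA r₁ r₂) k) ∧ π (cfcₙ (cutA r₁ r₂) k) ≤ 1 ∧
      cfcₙ (cutA r₁ r₂) k * cfcₙ (cutB r₂) k = cfcₙ (cutB r₂) k ∧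
      cfcₙ (cutB r₂) k * cfcₙ (cutA r₁ r₂) k = cfcₙ (cutB r₂) k ∧
      π (cfcₙ (cutB r₂) k) ≠ 0 ∧
      ∀ ζ : H, r₁ * ‖π (cfcₙ (cutA r₁ r₂) k) ζ‖ ^ 2 ≤
        (⟪π (cfcₙ (cutA r₁ r₂) k) ζ, π k (π (cfcₙ (cutA r₁ r₂) k) ζ)⟫_ℂ).re := by
  have hA0 := cutA_zero h0 h12
  have hB0 := cutB_zero h0 h12
  have hAc := cutA_cont r₁ r₂
  have hBc := cutB_cont r₂
  have hT : IsSelfAdjoint (π k) := hk.map π
  have hπc : Continuous π :=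
    AddMonoidHomClass.continuous_of_bound π 1 fun a => by
      rw [one_mul]; exact NonUnitalStarAlgHom.norm_apply_le π a
  have e1 : π (cfcₙ (cutA r₁ r₂) k) = cfc (cutA r₁ r₂) (π k) := by
    rw [π.map_cfcₙ (cutA r₁ r₂) k hAc.continuousOn hA0 hπc hk hT]
    exact cfcₙ_eq_cfc hAc.continuousOn hA0
  have e2 : π (cfcₙ (cutB r₂) k) = cfc (cutB r₂) (π k) := by
    rw [π.map_cfcₙ (cutB r₂) k hBc.continuousOn hB0 hπc hk hT]
    exact cfcₙ_eq_cfc hBc.continuousOn hB0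
  have hmul : cfcₙ (cutA r₁ r₂) k * cfcₙ (cutB r₂) k = cfcₙ (cutB r₂) k := by
    rw [← cfcₙ_mul (cutA r₁ r₂) (cutB r₂) k hAc.continuousOn hA0 hBc.continuousOn hB0]
    congr 1
    funext s
    exact cut_mul h12 s
  have hmul' : cfcₙ (cutB r₂) k * cfcₙ (cutA r₁ r₂) k = cfcₙ (cutB r₂) k := by
    rw [← cfcₙ_mul (cutB r₂) (cutA r₁ r₂) k hBc.continuousOn hB0 hAc.continuousOn hA0]
    congr 1
    funext s
    rw [mul_comm]
    exact cut_mul h12 s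
  refine ⟨cfcₙ_predicate _ _, cfcₙ_predicate _ _, ?_, ?_, hmul, hmul', ?_, ?_⟩
  · rw [e1]
    exact cfc_nonneg fun s _ => cutA_nonneg _ _ _
  · rw [e1]
    exact cfc_le_one _ _ fun s _ => cutA_le_one _ _ _
  · intro hz
    rw [e2] at hz
    have hle : cfc (fun s : ℝ => s - r₂) (π k) ≤ cfc (cutB r₂) (π k) := by
      refine cfc_mono (fun s _ => le_max_right _ _) (by fun_prop) hBc.continuousOn
    have hsub : cfc (fun s : ℝ => s - r₂) (π k) = π k - algebraMap ℝ (H →L[ℂ] H) r₂ := by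
      rw [cfc_sub (fun s : ℝ => s) (fun _ => r₂) (π k) (by fun_prop) (by fun_prop),
        cfc_id' ℝ (π k), cfc_const r₂ (π k)]
    rw [hz, hsub, ContinuousLinearMap.le_def, zero_sub, neg_sub] at hle
    have h3 := hle.re_inner_nonneg_right ζ₀
    have h4 : (⟪ζ₀, algebraMap ℝ (H →L[ℂ] H) r₂ ζ₀⟫_ℂ).re = r₂ := by
      rw [re_inner_algebraMap, hζ₀]; ring
    have h5 : (⟪ζ₀, (algebraMap ℝ (H →L[ℂ] H) r₂ - π k) ζ₀⟫_ℂ).re
        = (⟪ζ₀, algebraMap ℝ (H →L[ℂ] H) r₂ ζ₀⟫_ℂ).re - (⟪ζ₀, π k ζ₀⟫_ℂ).re := by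
      rw [show (algebraMap ℝ (H →L[ℂ] H) r₂ - π k) ζ₀
        = algebraMap ℝ (H →L[ℂ] H) r₂ ζ₀ - π k ζ₀ from rfl, inner_sub_right, Complex.sub_re]
    have h6 : 0 ≤ (⟪ζ₀, (algebraMap ℝ (H →L[ℂ] H) r₂ - π k) ζ₀⟫_ℂ).re := h3
    rw [h5, h4] at h6
    linarith
  · intro ζ
    rw [e1]
    set S := cfc (cutA r₁ r₂) (π k) with hS
    have hSsa : IsSelfAdjoint S := cfc_predicate _ _
    have hpos : 0 ≤ S * (π k - algebraMap ℝ (H →L[ℂ] H) r₁) * S := by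
      have hsub : cfc (fun s : ℝ => s - r₁) (π k) = π k - algebraMap ℝ (H →L[ℂ] H) r₁ := by
        rw [cfc_sub (fun s : ℝ => s) (fun _ => r₁) (π k) (by fun_prop) (by fun_prop),
          cfc_id' ℝ (π k), cfc_const r₁ (π k)]
      rw [← hsub, hS, ← cfc_mul (cutA r₁ r₂) (fun s => s - r₁) (π k) hAc.continuousOn
        (by fun_prop), ← cfc_mul (fun s => cutA r₁ r₂ s * (s - r₁)) (cutA r₁ r₂) (π k)
        (by fun_prop) hAc.continuousOn]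
      exact cfc_nonneg fun s _ => cut_low h12 s
    rw [ContinuousLinearMap.nonneg_iff_isPositive] at hpos
    have h3 : 0 ≤ (⟪ζ, (S * (π k - algebraMap ℝ (H →L[ℂ] H) r₁) * S) ζ⟫_ℂ).re :=
      hpos.re_inner_nonneg_right ζ
    have h4 : ⟪ζ, (S * (π k - algebraMap ℝ (H →L[ℂ] H) r₁) * S) ζ⟫_ℂ
        = ⟪S ζ, π k (S ζ)⟫_ℂ - ⟪S ζ, algebraMap ℝ (H →L[ℂ] H) r₁ (S ζ)⟫_ℂ := by
      rw [← inner_sub_right]
      have h5 : ⟪S ζ, (π k (S ζ) - algebraMap ℝ (H →L[ℂ] H) r₁ (S ζ))⟫_ℂ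
          = ⟪ζ, S (π k (S ζ) - algebraMap ℝ (H →L[ℂ] H) r₁ (S ζ))⟫_ℂ := by
        have h6 := ContinuousLinearMap.adjoint_inner_right S ζ
          (π k (S ζ) - algebraMap ℝ (H →L[ℂ] H) r₁ (S ζ))
        rw [← h6, ← ContinuousLinearMap.star_eq_adjoint, hSsa.star_eq]
      rw [h5]
      rfl
    rw [h4, Complex.sub_re, re_inner_algebraMap] at h3
    linarith

theorem cut (π : A →⋆ₙₐ[ℂ] (H →L[ℂ] H)) (f k : A) (hk : IsSelfAdjoint k) (hfk : f * k = k)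
    {r₁ r₂ r₃ : ℝ} (h0 : 0 ≤ r₁) (h12 : r₁ < r₂) (h23 : r₂ < r₃) {ζ₀ : H} (hζ₀ : ‖ζ₀‖ = 1)
    (hr : r₃ ≤ (⟪ζ₀, π k ζ₀⟫_ℂ).re) :
    ∃ f' g' : A, IsSelfAdjoint f' ∧ IsSelfAdjoint g' ∧ 0 ≤ π f' ∧ π f' ≤ 1 ∧ f * f' = f' ∧
      f' * g' = g' ∧ g' * f' = g' ∧ π g' ≠ 0 ∧
      ∀ ζ : H, r₁ * ‖π f' ζ‖ ^ 2 ≤ (⟪π f' ζ, π k (π f' ζ)⟫_ℂ).re := by
  obtain ⟨a1, a2, a3, a4, a5, a6, a7, a8⟩ := cut_core π k hk h0 h12 h23 hζ₀ hr
  exact ⟨_, _, a1, a2, a3, a4, fix_cfcn f k hk hfk _, a5, a6, a7, a8⟩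

/-- version without `f` -/
theorem cut' (π : A →⋆ₙₐ[ℂ] (H →L[ℂ] H)) (k : A) (hk : IsSelfAdjoint k)
    {r₁ r₂ r₃ : ℝ} (h0 : 0 ≤ r₁) (h12 : r₁ < r₂) (h23 : r₂ < r₃) {ζ₀ : H} (hζ₀ : ‖ζ₀‖ = 1)
    (hr : r₃ ≤ (⟪ζ₀, π k ζ₀⟫_ℂ).re) :
    ∃ f' g' : A, IsSelfAdjoint f' ∧ IsSelfAdjoint g' ∧ 0 ≤ π f' ∧ π f' ≤ 1 ∧
      f' * g' = g' ∧ g' * f' = g' ∧ π g' ≠ 0 ∧
      ∀ ζ : H, r₁ * ‖π f' ζ‖ ^ 2 ≤ (⟪π f' ζ, π k (π f' ζ)⟫_ℂ).re := by
  obtain ⟨a1, a2, a3, a4, a5, a6, a7, a8⟩ := cut_core π k hk h0 h12 h23 hζ₀ hr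
  exact ⟨_, _, a1, a2, a3, a4, a5, a6, a7, a8⟩

end Vale.Agent.P070
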