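import Mathlib

/-! # P070, module LUNIT: local units in the hereditary algebra of `g` -/

open scoped ComplexOrder InnerProductSpace

namespace Vale.Agent.P070

universe u
variable {A : Type u} [NonUnitalCStarAlgebra A]
variable {H : Type u} [NormedAddCommGroup H] [InnerProductSpace ℂ H] [CompleteSpace H]

private noncomputable def luW (c : ℝ) (s : ℝ) : ℝ := s / (s ^ 2 + c ^ 2)

private theorem luW_cont {c : ℝ} (hc : 0 < c) : Continuous (luW c) := by
  unfold luW
  refine Continuous.div (by fun_prop) (by fun_prop) fun s => ?_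
  positivity

private theorem luW_zero (c : ℝ) : luW c 0 = 0 := by
  unfold luW
  rw [zero_div]

private theorem luW_nonneg {c : ℝ} (hc : 0 < c) (s : ℝ) : 0 ≤ s * luW c s := by
  unfold luW
  rw [mul_div_assoc']
  exact div_nonneg (mul_self_nonneg s) (by positivity)

private theorem luW_le_one {c : ℝ} (hc : 0 < c) (s : ℝ) : s * luW c s ≤ 1 := by
  unfold luW
  rw [mul_div_assoc', div_le_one (by positivity)]
  nlinarith [sq_nonneg c]

private theorem luW_bound {c : ℝ} (hc : 0 < c) (s : ℝ) : ‖s * luW c s * s - s‖ ≤ c := by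
  have h1 : s * luW c s * s - s = -(c ^ 2 * s / (s ^ 2 + c ^ 2)) := by
    unfold luW
    have : s ^ 2 + c ^ 2 ≠ 0 := by positivity
    field_simp
    ring
  have h2 : 0 < s ^ 2 + c ^ 2 := by positivity
  rw [h1, norm_neg, Real.norm_eq_abs, abs_div, abs_of_pos h2, abs_mul, abs_of_nonneg (sq_nonneg c),
    div_le_iff₀ h2]
  have h3 := sq_abs s
  nlinarith [mul_nonneg hc.le (sq_nonneg (|s| - c)), abs_nonneg s]

/-- local units in the hereditary algebra of `g` -/
theorem local_unit (π : A →⋆ₙₐ[ℂ] (H →L[ℂ] H)) (f g : A) (hg : IsSelfAdjoint g)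
    (hfg : f * g = g) (η : H) {ε : ℝ} (hε : 0 < ε) :
    ∃ e : A, IsSelfAdjoint e ∧ 0 ≤ π e ∧ π e ≤ 1 ∧ f * e = e ∧
      ‖π e (π g η) - π g η‖ ≤ ε := by
  obtain ⟨c, hc, hcη⟩ : ∃ c : ℝ, 0 < c ∧ c * ‖η‖ ≤ ε := by
    refine ⟨ε / (‖η‖ + 1), by positivity, ?_⟩
    rw [div_mul_eq_mul_div, div_le_iff₀ (by positivity)]
    nlinarith [norm_nonneg η]
  have hcont := luW_cont hc
  have hcont2 : Continuous fun s => s * luW c s := continuous_id.mul hcont
  have hcont3 : Continuous fun s => s * luW c s * s := hcont2.mul continuous_id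
  have h0 : (fun s => s * luW c s) 0 = 0 := by simp
  have he : cfcₙ (fun s => s * luW c s) g = g * cfcₙ (luW c) g := by
    rw [cfcₙ_mul (fun s => s) (luW c) g continuous_id.continuousOn rfl hcont.continuousOn
      (luW_zero c), cfcₙ_id' ℝ g]
  have hπc : Continuous π := AddMonoidHomClass.continuous_of_bound π 1
    fun x => by simpa using NonUnitalStarAlgHom.norm_apply_le π x
  have hπ : π (cfcₙ (fun s => s * luW c s) g) = cfcₙ (fun s => s * luW c s) (π g) :=
    NonUnitalStarAlgHomClass.map_cfcₙ π (fun s => s * luW c s) g (hf := hcont2.continuousOn)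
      (hf₀ := h0) (hφ := hπc) (ha := hg) (hφa := hg.map π)
  refine ⟨cfcₙ (fun s => s * luW c s) g, ?_, ?_, ?_, ?_, ?_⟩
  · exact cfcₙ_predicate _ g
  · rw [hπ]
    exact cfcₙ_nonneg fun s _ => luW_nonneg hc s
  · rw [hπ, cfcₙ_eq_cfc]
    exact cfc_le_one _ _ fun s _ => luW_le_one hc s
  · rw [he, ← mul_assoc, hfg]
  · have h1 : cfcₙ (fun s => s * luW c s) g * g - g =
        cfcₙ (fun s => s * luW c s * s - s) g := by
      rw [cfcₙ_sub (fun s => s * luW c s * s) (fun s => s) g hcont3.continuousOn (by simp)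
        continuous_id.continuousOn rfl, cfcₙ_mul (fun s => s * luW c s) (fun s => s) g
        hcont2.continuousOn h0 continuous_id.continuousOn rfl, cfcₙ_id' ℝ g]
    have h2 : ‖cfcₙ (fun s => s * luW c s) g * g - g‖ ≤ c := by
      rw [h1]
      exact norm_cfcₙ_le fun s _ => luW_bound hc s
    have h3 : π (cfcₙ (fun s => s * luW c s) g) (π g η) - π g η =
        π (cfcₙ (fun s => s * luW c s) g * g - g) η := by
      rw [map_sub, map_mul]
      rfl
    rw [h3]
    calc _ ≤ ‖π (cfcₙ (fun s => s * luW c s) g * g - g)‖ * ‖η‖ :=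
          ContinuousLinearMap.le_opNorm _ _
      _ ≤ c * ‖η‖ := mul_le_mul_of_nonneg_right
          ((NonUnitalStarAlgHom.norm_apply_le π _).trans h2) (norm_nonneg _)
      _ ≤ ε := hcη

end Vale.Agent.P070
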