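import Vale.Agent.P070.Slice
import Vale.Agent.P070.Cut
import Vale.Agent.P070.LUnit
import Vale.Agent.P070.VecExt
import Vale.Agent.P070.CapPos
import Vale.Agent.P070.CapSlice

/-!
# P070: the first step of `cap`
-/

open scoped ComplexOrder InnerProductSpace

namespace Vale.Agent.P070

universe u
variable {A : Type u} [NonUnitalCStarAlgebra A]
variable {H : Type u} [NormedAddCommGroup H] [InnerProductSpace ℂ H] [CompleteSpace H]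

theorem CAPONE_scale (T : H →L[ℂ] H) (w : H) (r : ℝ) :
    (⟪((r : ℝ) : ℂ) • w, T (((r : ℝ) : ℂ) • w)⟫_ℂ).re = r ^ 2 * (⟪w, T w⟫_ℂ).re := by
  rw [map_smul, inner_smul_left, inner_smul_right, Complex.conj_ofReal, ← mul_assoc,
    ← Complex.ofReal_mul, Complex.re_ofReal_mul]
  ring

/-- steps (1)-(3) -/
theorem cap_one {π : A →⋆ₙₐ[ℂ] (H →L[ℂ] H)} (hπ : IsIrred π) (f g : A) (hg : IsSelfAdjoint g)
    (hfg : f * g = g) {ξ : H} (hξ : ‖ξ‖ = 1) (hξg : ∃ η, ξ = π g η)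
    (F : Finset (H →L[ℂ] H)) {δ δ' : ℝ} (hδ' : 0 < δ') (hδ1 : δ' ≤ 1 / 2) (hδδ : δ' ≤ δ)
    (hF : ∀ x ∈ F, 0 ≤ x ∧ x ≤ 1 ∧ (∀ a, ∃ b, π b = x * π a) ∧ (⟪ξ, x ξ⟫_ℂ).re ≤ δ) :
    ∃ e b b₁ : A, IsSelfAdjoint e ∧ 0 ≤ π e ∧ π e ≤ 1 ∧ f * e = e ∧
      IsSelfAdjoint b ∧ 0 ≤ π b ∧ π b ≤ 1 ∧ b * b₁ = b₁ ∧ π b₁ ≠ 0 ∧
      ∀ z : H, (1 - 2 * δ') * ‖π b z‖ ^ 2 ≤ (⟪π b z, π e (π b z)⟫_ℂ).re ∧
        ∀ x ∈ F, (⟪π e (π b z), x (π e (π b z))⟫_ℂ).re ≤ 3 * δ * ‖π b z‖ ^ 2 := by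
  classical
  obtain ⟨η, hη⟩ := hξg
  obtain ⟨e, he, he0, he1, hfe, hedist⟩ := local_unit π f g hg hfg η (ε := δ' / 2) (by positivity)
  rw [← hη] at hedist
  have hδ : 0 < δ := lt_of_lt_of_le hδ' hδδ
  have heξ : ‖π e ξ‖ ≤ 1 := by
    have := capPos_le he0 he1 ξ
    rwa [hξ] at this
  -- `⟪ξ, π e ξ⟫` is close to one
  have h1 : 1 - 2 * δ' < (⟪ξ, π e ξ⟫_ℂ).re := by
    have h2 : ⟪ξ, π e ξ⟫_ℂ = ⟪ξ, ξ⟫_ℂ + ⟪ξ, π e ξ - ξ⟫_ℂ := by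
      rw [← inner_add_right]
      congr 1
      abel
    have h3 : (⟪ξ, ξ⟫_ℂ).re = 1 := by
      have := inner_self_eq_norm_sq (𝕜 := ℂ) ξ
      rw [hξ] at this
      simpa using this
    have h4 : |(⟪ξ, π e ξ - ξ⟫_ℂ).re| ≤ δ' / 2 := by
      refine (Complex.abs_re_le_norm _).trans ?_
      refine (norm_inner_le_norm _ _).trans ?_
      rw [hξ, one_mul]
      exact hedist
    rw [h2, Complex.add_re, h3]
    have := (abs_le.1 h4).1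
    linarith
  -- the elements `y x`
  have hy : ∀ x : F, ∃ y : A, π y = π e * (x.1 * π e) := by
    intro x
    obtain ⟨b, hb⟩ := (hF x.1 x.2).2.2.1 e
    exact ⟨e * b, by rw [map_mul, hb]⟩
  choose y hy using hy
  have hyin : ∀ (x : F) (z : H), ⟪z, π (y x) z⟫_ℂ = ⟪π e z, x.1 (π e z)⟫_ℂ := by
    intro x z
    rw [hy x, capPos_symm he0]
    rfl
  obtain ⟨a, ha, t, ht0, hta, hprop⟩ := cap_slice hπ hξ e
    (y := fun i : Fin F.card => y (F.equivFin.symm i)) (δ := δ) (δ' := δ') hδ1 h1 (by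
    intro i
    rw [hyin]
    obtain ⟨h5, h6, -, h7⟩ := hF _ (F.equivFin.symm i).2
    have h8 := capPos_lip h5 h6 (π e ξ) ξ
    have h9 : ‖π e ξ - ξ‖ * (‖π e ξ‖ + ‖ξ‖) ≤ δ' / 2 * 2 := by
      refine mul_le_mul hedist (by linarith) (by positivity) (by positivity)
    have h10 := (abs_le.1 (h8.trans h9)).2
    linarith)
  obtain ⟨b, b₁, hb, -, hb0, hb1, hbb, -, hb₁, hcut⟩ := cut' π a ha
    (r₁ := t + ((⟪ξ, π a ξ⟫_ℂ).re - t) / 3) (r₂ := t + 2 * ((⟪ξ, π a ξ⟫_ℂ).re - t) / 3)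
    (r₃ := (⟪ξ, π a ξ⟫_ℂ).re) (by linarith) (by linarith) (by linarith) hξ le_rfl
  refine ⟨e, b, b₁, he, he0, he1, hfe, hb, hb0, hb1, hbb, hb₁, fun z => ?_⟩
  by_cases hw : π b z = 0
  · rw [hw]
    simp
  have hwn : 0 < ‖π b z‖ := norm_pos_iff.2 hw
  set ζ : H := ((‖π b z‖⁻¹ : ℝ) : ℂ) • π b z with hζ
  have hζ1 : ‖ζ‖ = 1 := by
    rw [hζ, norm_smul, Complex.norm_real, norm_inv, norm_norm]
    exact inv_mul_cancel₀ hwn.ne'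
  have hsc : ∀ T : H →L[ℂ] H, (⟪π b z, T (π b z)⟫_ℂ).re = ‖π b z‖ ^ 2 * (⟪ζ, T ζ⟫_ℂ).re := by
    intro T
    rw [hζ, CAPONE_scale]
    field_simp
  have h11 : t < (⟪ζ, π a ζ⟫_ℂ).re := by
    have h12 := hcut z
    rw [hsc, mul_comm] at h12
    have h13 := le_of_mul_le_mul_left h12 (by positivity)
    linarith
  obtain ⟨h14, h15⟩ := hprop ζ hζ1.le h11
  refine ⟨?_, fun x hx => ?_⟩
  · rw [hsc, mul_comm]
    exact mul_le_mul_of_nonneg_left h14.le (by positivity)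
  · have h16 := h15 (F.equivFin ⟨x, hx⟩)
    simp only [Equiv.symm_apply_apply] at h16
    have h17 := hyin ⟨x, hx⟩ (π b z)
    rw [← h17, hsc, mul_comm]
    exact mul_le_mul_of_nonneg_right h16.le (by positivity)


end Vale.Agent.P070
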