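import Vale.Agent.P070.Slice
import Vale.Agent.P070.Cut
import Vale.Agent.P070.LUnit
import Vale.Agent.P070.VecExt
import Vale.Agent.P070.CapOne

/-!
# P070, module CAP (excision without Kadison transitivity)

`cut`: functional calculus lemma.  `k : A` self-adjoint, `r₁ < r₂ < r₃`, `0 ≤ r₁`, and some unit
vector `ζ` with `r₃ ≤ ⟪ζ, π k ζ⟫`.  Put `f' = cfcₙ h₂ k`, `g' = cfcₙ h₃ k` with
`h₂ s = min 1 (max 0 ((s - r₁)/(r₂ - r₁)))`, `h₃ s = max 0 (s - r₂)`.  Then `f' g' = g'`,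
`0 ≤ π f' ≤ 1`, `π g' ≠ 0` (else `π k ≤ r₂`), and `π f' ζ = ζ` implies `r₁ ‖ζ‖² ≤ ⟪ζ, π k ζ⟫`
(`(s - r₁) h₂(s)² ≥ 0` for all `s`).  `f k = k` implies `f f' = f'` (approximate `h₂` by
polynomials without constant term, or `cfcₙ_mul`-type argument / `CFC` induction).
More precisely also: for every `ζ` (not nec. fixed), `ζ' = π f' ζ` satisfies
`r₁ ‖ζ'‖² ≤ ⟪ζ', π k ζ'⟫` and `‖π f' ζ‖ ≤ ‖ζ‖`.

`cap`: `ξ = π g η` unit, `f g = g`.  Let `κ > 0` small (depending on `δ`), `δ' > 0` with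
`2 √(2 δ') ≤ κ`, `δ' ≤ δ`.
(1) `e = cfcₙ h g` (`h` close to `1` away from `0`, `0 ≤ h ≤ 1`, `h 0 = 0`) with
`‖π e ξ - ξ‖ ≤ δ'/2`; `f e = e`, `0 ≤ π e ≤ 1`.
(2) `y x : A` with `π (y x) = π e * x * π e` for `x ∈ F`.  In `Q A` the closed convex sets
`C₀ = {φ | (φ e).re ≤ 1 - 2 δ'}`, `C_x = {φ | 3 δ ≤ (φ (y x)).re}` do not contain
`φ₀ = vec π ξ`, extreme by `vec_extreme`.  `slice`: self-adjoint `a`, `t < ⟪ξ, π a ξ⟫`,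
`(φ a).re ≤ t` on all the `C`'s; `0 ≤ t` because `0 ∈ C₀` (`δ' ≤ 1/2`).
(3) Let `M = sup ⟪ζ, π a ζ⟫` over unit `ζ`, `t < M`; `cut` for `k = a` with
`t < r₁ < r₂ < r₃ < M` gives `b = f'`, `b₁ = g'`: for unit `ζ` with `π b ζ = ζ` the state
`vec π ζ ∉ C`'s, so `1 - 2 δ' < ⟪ζ, π e ζ⟫` and `⟪ζ, π (y x) ζ⟫ < 3 δ`; the same (after
normalisation) for every `ζ'' = π b ζ' ≠ 0`: `⟪ζ'', π (y x) ζ''⟫ ≤ 3 δ ‖ζ''‖²`.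
(4) `k = e b e`, `f k = k`, `0 ≤ π k ≤ 1`.  A unit vector `ζ₁` in the closure of the range of
`π b₁` (`π b ζ₁ = ζ₁`) has `‖π e ζ₁ - ζ₁‖² ≤ 2 δ'`, so `⟪ζ₁, π k ζ₁⟫ ≥ 1 - 2 √(2 δ') ≥ 1 - κ`.
`cut` for `k` with `r₁ = 1 - 3 κ < r₂ = 1 - 2 κ < r₃ = 1 - κ` gives the final `f', g'`.
(5) For unit `ζ` with `π f' ζ = ζ`: `⟪ζ, π k ζ⟫ ≥ 1 - 3κ`.  `ζ' = π e ζ`: `‖ζ' - ζ‖² ≤ 3κ`,
`‖π b ζ' - ζ'‖² ≤ 6κ`, `ζ'' = π b ζ'`: `⟪ζ'', π (y x) ζ''⟫ ≤ 3 δ`, hence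
`⟪ζ, x ζ⟫ ≤ 3δ + C √κ ≤ 4 δ`.
-/

open scoped ComplexOrder InnerProductSpace

namespace Vale.Agent.P070

universe u
variable {A : Type u} [NonUnitalCStarAlgebra A]
variable {H : Type u} [NormedAddCommGroup H] [InnerProductSpace ℂ H] [CompleteSpace H]

theorem cap {π : A →⋆ₙₐ[ℂ] (H →L[ℂ] H)} (hπ : IsIrred π) (f g : A) (hg : IsSelfAdjoint g)
    (hfg : f * g = g) {ξ : H} (hξ : ‖ξ‖ = 1) (hξg : ∃ η, ξ = π g η)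
    (F : Finset (H →L[ℂ] H)) {δ : ℝ} (hδ : 0 < δ) (hδ1 : δ ≤ 1)
    (hF : ∀ x ∈ F, 0 ≤ x ∧ x ≤ 1 ∧ (∀ a, ∃ b, π b = x * π a) ∧ (⟪ξ, x ξ⟫_ℂ).re ≤ δ) :
    ∃ f' g' : A, IsSelfAdjoint f' ∧ IsSelfAdjoint g' ∧ 0 ≤ π f' ∧ π f' ≤ 1 ∧ f * f' = f' ∧
      f' * g' = g' ∧ π g' ≠ 0 ∧
      ∀ ζ : H, ‖ζ‖ = 1 → π f' ζ = ζ → ∀ x ∈ F, (⟪ζ, x ζ⟫_ℂ).re ≤ 4 * δ := by
  have hκ : 0 < δ ^ 2 / 108 := by positivity
  set κ : ℝ := δ ^ 2 / 108 with hκdef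
  have hδsq : δ ^ 2 ≤ 1 := by nlinarith
  have hδ' : 0 < κ ^ 2 / 8 := by positivity
  set δ' : ℝ := κ ^ 2 / 8 with hδ'def
  have hκ1 : κ ≤ 1 / 108 := by rw [hκdef]; linarith
  have hκδ : κ ≤ δ := by rw [hκdef]; nlinarith
  have hδ'κ : δ' ≤ κ := by rw [hδ'def]; nlinarith
  obtain ⟨e, b, b₁, he, he0, he1, hfe, hb, hb0, hb1, hbb, hb1n, hz⟩ :=
    cap_one hπ f g hg hfg hξ hξg F hδ' (by linarith) (by linarith) hF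
  obtain ⟨η', hη'⟩ : ∃ η', π b₁ η' ≠ 0 := by
    by_contra hcon
    push Not at hcon
    exact hb1n (ContinuousLinearMap.ext fun v => by rw [hcon v]; rfl)
  set ζ₁ : H := ((‖π b₁ η'‖⁻¹ : ℝ) : ℂ) • π b₁ η' with hζ₁def
  have hζ₁ : ‖ζ₁‖ = 1 := by
    rw [hζ₁def, norm_smul, Complex.norm_real, norm_inv, norm_norm]
    exact inv_mul_cancel₀ (norm_ne_zero_iff.2 hη')
  have hbζ₁ : π b ζ₁ = ζ₁ := by
    rw [hζ₁def, map_smul, ← mul_apply_eq_comp, ← map_mul, hbb]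
  have hlow := cap_low (δ' := δ') he0 he1 hb0 hb1 hκ (by rw [hδ'def]; linarith) hζ₁ hbζ₁ (by
    have := (hz ζ₁).1
    rw [hbζ₁, hζ₁] at this
    linarith)
  have hinner : ∀ z : H, ⟪z, π (e * b * e) z⟫_ℂ = ⟪π e z, π b (π e z)⟫_ℂ := by
    intro z
    rw [map_mul, map_mul, capPos_symm he0]
    rfl
  have hksa : IsSelfAdjoint (e * b * e) := by
    rw [isSelfAdjoint_iff, star_mul, star_mul, he.star_eq, hb.star_eq, mul_assoc]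
  obtain ⟨f', g', hf', hg', hf0, hf1, hff, hfg', _, hgn, hlast⟩ :=
    cut π f (e * b * e) hksa (by rw [← mul_assoc, ← mul_assoc, hfe])
      (r₁ := 1 - 3 * κ) (r₂ := 1 - 2 * κ) (r₃ := 1 - κ) (by linarith) (by linarith) (by linarith)
      hζ₁ (by rw [hinner]; exact hlow)
  refine ⟨f', g', hf', hg', hf0, hf1, hff, hfg', hgn, ?_⟩
  intro ζ hζ hfix x hx
  obtain ⟨hx0, hx1, _, _⟩ := hF x hx
  refine cap_est he0 he1 hb0 hb1 hx0 hx1 hδ hκ (by rw [hκdef]; linarith)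
    (fun z => (hz z).2 x hx) hζ ?_
  have := hlast ζ
  rw [hfix, hζ, hinner] at this
  linarith

end Vale.Agent.P070
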