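import Vale.Agent.P070.Defs

/-!
# P070, module COVER: Gelfand theory of the commutative C*-algebra `D`

`D` is a closed unital commutative star subalgebra of `B(H)`, `H` the closed span of the joint
eigenvectors.  `ξ` unit vector whose component in every joint eigenspace has norm² `≤ ε`.
`D` is a commutative C*-algebra, `X = characterSpace ℂ D` is compact, Gelfand transform
`gelfandStarTransform D : D ≃⋆ₐ[ℂ] C(X, ℂ)`.
For every `τ ∈ X` there is `x_τ ∈ D`, `0 ≤ x_τ ≤ 1`, `τ x_τ = 1`, `⟪ξ, x_τ ξ⟫ ≤ 2 ε`: approximate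
`ξ` by a finite sum `∑_{k ∈ S} v_k` of joint eigenvectors with distinct characters `τ_k` (the
orthogonal projections of `ξ` onto finitely many eigenspaces, remaining norm² `≤ ε/2` or so), choose
by Urysohn a continuous `f : X → [0,1]` with `f τ = 1`, `f τ_k = 0` for `τ_k ≠ τ`; then
`⟪ξ, x ξ⟫ ≤ ‖component at τ‖² + remaining ≤ 2 ε`.
The open sets `{τ' | 1/2 < τ' x_τ}` cover `X`: finite subcover gives `F`.
A nonzero `v ∈ eig D χ` makes `χ` a character `τ'` (evaluate `d v = χ d v`), choose `x ∈ F` with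
`1/2 < τ' x`, i.e. `x v = c v`, `c > 1/2`.  For `ζ = α v + ζ'` with `ζ' ⊥ v`:
`⟪ζ, x ζ⟫ = |α|² c ‖v‖² + ⟪ζ', x ζ'⟫ ≥ |α|² ‖v‖² / 2` (cross terms vanish because `x` is
self-adjoint), and `|⟪v, ζ⟫|² = |α|² ‖v‖⁴`.
-/

open scoped ComplexOrder InnerProductSpace

namespace Vale.Agent.P070

open WeakDual

theorem COVER_sep {A : Type*} [CommCStarAlgebra A] (τ : characterSpace ℂ A)
    (T : Set (characterSpace ℂ A)) (hT : T.Finite) (h : τ ∉ T) :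
    ∃ y z : A, star y * y + star z * z = 1 ∧ τ (star y * y) = 1 ∧
      ∀ τ' ∈ T, τ' (star y * y) = 0 := by
  obtain ⟨f, hf0, hf1, hf⟩ := exists_continuous_zero_one_of_isClosed hT.isClosed
    (isClosed_singleton (x := τ)) (by simpa using h)
  let g : C(characterSpace ℂ A, ℂ) := ⟨fun t => ((Real.sqrt (f t) : ℝ) : ℂ), by fun_prop⟩
  let k : C(characterSpace ℂ A, ℂ) := ⟨fun t => ((Real.sqrt (1 - f t) : ℝ) : ℂ), by fun_prop⟩
  have hg : ∀ t, star (g t) * g t = ((f t : ℝ) : ℂ) := by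
    intro t
    show star ((Real.sqrt (f t) : ℝ) : ℂ) * ((Real.sqrt (f t) : ℝ) : ℂ) = _
    rw [Complex.star_def, Complex.conj_ofReal, ← Complex.ofReal_mul,
      Real.mul_self_sqrt (hf t).1]
  have hk : ∀ t, star (k t) * k t = ((1 - f t : ℝ) : ℂ) := by
    intro t
    show star ((Real.sqrt (1 - f t) : ℝ) : ℂ) * ((Real.sqrt (1 - f t) : ℝ) : ℂ) = _
    rw [Complex.star_def, Complex.conj_ofReal, ← Complex.ofReal_mul,
      Real.mul_self_sqrt (by have := (hf t).2; linarith)]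
  have key : ∀ t : characterSpace ℂ A, ∀ u : C(characterSpace ℂ A, ℂ),
      t ((gelfandStarTransform A).symm u) = u t := by
    intro t u
    have := congrArg (fun w : C(characterSpace ℂ A, ℂ) => w t)
      ((gelfandStarTransform A).apply_symm_apply u)
    exact this
  refine ⟨(gelfandStarTransform A).symm g, (gelfandStarTransform A).symm k, ?_, ?_, ?_⟩
  · rw [← map_star, ← map_star, ← map_mul, ← map_mul, ← map_add,
      ← map_one (gelfandStarTransform A).symm]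
    congr 1
    ext t
    show star (g t) * g t + star (k t) * k t = 1
    rw [hg, hk]
    push_cast
    ring
  · rw [← map_star, ← map_mul, key]
    show star (g τ) * g τ = 1
    rw [hg, hf1 (Set.mem_singleton τ)]
    simp
  · intro τ' hτ'
    rw [← map_star, ← map_mul, key]
    show star (g τ') * g τ' = 0
    rw [hg, hf0 hτ']
    simp


variable {H : Type*} [NormedAddCommGroup H] [InnerProductSpace ℂ H] [CompleteSpace H]

/-- the character of `D` given by a joint eigenvector -/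
def COVER_char (D : StarSubalgebra ℂ (H →L[ℂ] H)) {χ : ↥(D : Set (H →L[ℂ] H)) → ℂ} {v : H}
    (hv : v ∈ eig (D : Set (H →L[ℂ] H)) χ) (hv0 : v ≠ 0) : ↥D →ₐ[ℂ] ℂ where
  toFun d := χ ⟨d.1, d.2⟩
  map_one' := by
    apply smul_left_injective ℂ hv0
    show χ _ • v = (1 : ℂ) • v
    rw [← mem_eig.1 hv]
    simp
  map_mul' x y := by
    apply smul_left_injective ℂ hv0
    show χ _ • v = (χ _ * χ _) • v
    have e1 := mem_eig.1 hv ⟨(x * y : ↥D).1, (x * y : ↥D).2⟩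
    have e2 := mem_eig.1 hv ⟨x.1, x.2⟩
    have e3 := mem_eig.1 hv ⟨y.1, y.2⟩
    rw [← e1, mul_comm, mul_smul, ← e2, ← map_smul, ← e3]
    rfl
  map_zero' := by
    apply smul_left_injective ℂ hv0
    show χ _ • v = (0 : ℂ) • v
    rw [← mem_eig.1 hv]
    simp
  map_add' x y := by
    apply smul_left_injective ℂ hv0
    show χ _ • v = (χ _ + χ _) • v
    have e1 := mem_eig.1 hv ⟨(x + y : ↥D).1, (x + y : ↥D).2⟩
    have e2 := mem_eig.1 hv ⟨x.1, x.2⟩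
    have e3 := mem_eig.1 hv ⟨y.1, y.2⟩
    rw [← e1, add_smul, ← e2, ← e3]
    rfl
  commutes' r := by
    apply smul_left_injective ℂ hv0
    show χ _ • v = r • v
    rw [← mem_eig.1 hv]
    simp [Algebra.algebraMap_eq_smul_one]

theorem COVER_inner (y : H →L[ℂ] H) (a b : H) : ⟪a, (star y * y) b⟫_ℂ = ⟪y a, y b⟫_ℂ := by
  rw [mul_apply_eq_comp, ContinuousLinearMap.star_eq_adjoint,
    ContinuousLinearMap.adjoint_inner_right]

theorem COVER_inner' (y : H →L[ℂ] H) (a b : H) : ⟪(star y * y) a, b⟫_ℂ = ⟪y a, y b⟫_ℂ := by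
  rw [mul_apply_eq_comp, ContinuousLinearMap.star_eq_adjoint,
    ContinuousLinearMap.adjoint_inner_left]

theorem COVER_contr {y z : H →L[ℂ] H} (h : star y * y + star z * z = 1) (a : H) :
    ‖y a‖ ≤ ‖a‖ := by
  have h1 : ‖a‖ ^ 2 = ‖y a‖ ^ 2 + ‖z a‖ ^ 2 := by
    have e := congrArg (fun T : H →L[ℂ] H => (⟪a, T a⟫_ℂ).re) h
    simp only [add_apply, inner_add_right, COVER_inner, Complex.add_re,
      one_apply_eq_self] at e
    have f : ∀ w : H, (⟪w, w⟫_ℂ).re = ‖w‖ ^ 2 := fun w => by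
      rw [inner_self_eq_norm_sq_to_K]
      norm_cast
    rw [f, f, f] at e
    exact e.symm
  have h2 : ‖y a‖ ^ 2 ≤ ‖a‖ ^ 2 := by nlinarith [sq_nonneg ‖z a‖]
  exact (sq_le_sq₀ (norm_nonneg _) (norm_nonneg _)).1 h2


omit [CompleteSpace H] in
theorem COVER_self (u : H) : ⟪u, u⟫_ℂ = ((‖u‖ ^ 2 : ℝ) : ℂ) := by
  rw [inner_self_eq_norm_sq_to_K]
  norm_cast

theorem COVER_small (D : StarSubalgebra ℂ (H →L[ℂ] H)) (C : ↥D → ℂ)
    (y z : ↥D) (hyz : star y * y + star z * z = 1) (h1 : C (star y * y) = 1)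
    {ξ : H} (hξ : ‖ξ‖ = 1) {ε : ℝ} (hε : 0 < ε)
    (hsmall : ∀ χ : (↥(D : Set (H →L[ℂ] H)) → ℂ), ∀ v ∈ eig (D : Set (H →L[ℂ] H)) χ,
      ‖⟪v, ξ⟫_ℂ‖ ^ 2 ≤ ε * ‖v‖ ^ 2)
    (w : H) (hw : ‖ξ - w‖ ≤ ε / (Real.sqrt ε + 1))
    (hu : ((star y * y : ↥D) : H →L[ℂ] H) w ∈ eig (D : Set (H →L[ℂ] H)) (fun d => C ⟨d.1, d.2⟩)) :
    (⟪ξ, ((star y * y : ↥D) : H →L[ℂ] H) ξ⟫_ℂ).re ≤ 2 * ε := by
  have hs0 : 0 ≤ Real.sqrt ε := Real.sqrt_nonneg ε
  have hss : Real.sqrt ε * Real.sqrt ε = ε := Real.mul_self_sqrt hε.le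
  set δ := ε / (Real.sqrt ε + 1) with hδ
  have hδ1 : δ * (Real.sqrt ε + 1) = ε := div_mul_cancel₀ _ (by positivity)
  have hδ0 : 0 ≤ δ := by positivity
  have hyz' : star (y : H →L[ℂ] H) * (y : H →L[ℂ] H) + star (z : H →L[ℂ] H) * (z : H →L[ℂ] H) = 1 := by
    have := congrArg (fun t : ↥D => (t : H →L[ℂ] H)) hyz
    simpa using this
  have hcon := fun a => COVER_contr hyz' a
  have hxc : ((star y * y : ↥D) : H →L[ℂ] H) = star (y : H →L[ℂ] H) * (y : H →L[ℂ] H) := by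
    simp
  set u := ((star y * y : ↥D) : H →L[ℂ] H) w with hudef
  have hxu : ((star y * y : ↥D) : H →L[ℂ] H) u = u := by
    have e : ((star y * y : ↥D) : H →L[ℂ] H) u = C (star y * y) • u :=
      mem_eig.1 hu ⟨(star y * y : ↥D).1, (star y * y : ↥D).2⟩
    rw [h1, one_smul] at e
    exact e
  have huw : ⟪u, u⟫_ℂ = ⟪w, u⟫_ℂ := by
    have e1 : ⟪u, u⟫_ℂ = ⟪((star y * y : ↥D) : H →L[ℂ] H) w, u⟫_ℂ := rfl
    rw [e1, hxc, COVER_inner', ← COVER_inner, ← hxc, hxu]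
  have hsm : ∀ v, v ∈ eig (D : Set (H →L[ℂ] H)) (fun d => C ⟨d.1, d.2⟩) →
      ‖⟪v, ξ⟫_ℂ‖ ≤ Real.sqrt ε * ‖v‖ := by
    intro v hv
    have h2 := hsmall _ v hv
    have h3 : ‖⟪v, ξ⟫_ℂ‖ ^ 2 ≤ (Real.sqrt ε * ‖v‖) ^ 2 := by
      rw [mul_pow, sq (Real.sqrt ε), hss]; exact h2
    exact (sq_le_sq₀ (norm_nonneg _) (by positivity)).1 h3
  have hun : ‖u‖ ≤ Real.sqrt ε + δ := by
    by_cases hu0 : ‖u‖ = 0
    · rw [hu0]; positivity
    have h2 : ‖u‖ ^ 2 ≤ (Real.sqrt ε + δ) * ‖u‖ := by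
      have e1 : ‖u‖ ^ 2 = ‖⟪u, u⟫_ℂ‖ := by
        rw [COVER_self, Complex.norm_real, Real.norm_eq_abs, abs_of_nonneg (by positivity)]
      rw [e1, huw]
      have e2 : ⟪w, u⟫_ℂ = ⟪ξ, u⟫_ℂ - ⟪ξ - w, u⟫_ℂ := by
        rw [inner_sub_left]; ring
      rw [e2]
      refine (norm_sub_le _ _).trans ?_
      have e3 : ‖⟪ξ, u⟫_ℂ‖ ≤ Real.sqrt ε * ‖u‖ := by
        rw [norm_inner_symm]; exact hsm u hu
      have e4 : ‖⟪ξ - w, u⟫_ℂ‖ ≤ δ * ‖u‖ :=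
        (norm_inner_le_norm _ _).trans (mul_le_mul_of_nonneg_right hw (norm_nonneg _))
      linarith
    have h3 : 0 < ‖u‖ := lt_of_le_of_ne (norm_nonneg _) (Ne.symm hu0)
    rw [sq] at h2
    exact le_of_mul_le_mul_right h2 h3
  have e5 : ⟪ξ, ((star y * y : ↥D) : H →L[ℂ] H) ξ⟫_ℂ
      = ⟪ξ, u⟫_ℂ + ⟪(y : H →L[ℂ] H) ξ, (y : H →L[ℂ] H) (ξ - w)⟫_ℂ := by
    rw [← COVER_inner, ← hxc, ← inner_add_right]
    congr 1
    rw [map_sub, hudef]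
    abel
  have e6 : (⟪ξ, ((star y * y : ↥D) : H →L[ℂ] H) ξ⟫_ℂ).re
      ≤ ‖⟪ξ, u⟫_ℂ‖ + ‖⟪(y : H →L[ℂ] H) ξ, (y : H →L[ℂ] H) (ξ - w)⟫_ℂ‖ := by
    rw [e5]
    exact (Complex.re_le_norm _).trans (norm_add_le _ _)
  have e7 : ‖⟪ξ, u⟫_ℂ‖ ≤ Real.sqrt ε * (Real.sqrt ε + δ) := by
    rw [norm_inner_symm]
    exact (hsm u hu).trans (mul_le_mul_of_nonneg_left hun hs0)
  have e8 : ‖⟪(y : H →L[ℂ] H) ξ, (y : H →L[ℂ] H) (ξ - w)⟫_ℂ‖ ≤ δ := by
    refine (norm_inner_le_norm _ _).trans ?_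
    have a1 := hcon ξ
    have a2 := hcon (ξ - w)
    rw [hξ] at a1
    calc ‖(y : H →L[ℂ] H) ξ‖ * ‖(y : H →L[ℂ] H) (ξ - w)‖ ≤ 1 * δ :=
          mul_le_mul a1 (a2.trans hw) (norm_nonneg _) zero_le_one
      _ = δ := one_mul _
  nlinarith

theorem COVER_sum (D : StarSubalgebra ℂ (H →L[ℂ] H)) (C : ↥D → ℂ) (x : ↥D)
    (f : (↥(D : Set (H →L[ℂ] H)) → ℂ) →₀ H)
    (hf : ∀ χ, f χ ∈ eig (D : Set (H →L[ℂ] H)) χ)
    (h0 : ∀ χ ∈ f.support, χ ≠ (fun d => C ⟨d.1, d.2⟩) → χ ⟨x.1, x.2⟩ = 0) :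
    (x : H →L[ℂ] H) (f.sum fun _ v => v) ∈
      eig (D : Set (H →L[ℂ] H)) (fun d => C ⟨d.1, d.2⟩) := by
  rw [Finsupp.sum, map_sum]
  refine Submodule.sum_mem _ fun χ hχ => ?_
  have e := mem_eig.1 (hf χ) ⟨x.1, x.2⟩
  by_cases hc : χ = (fun d => C ⟨d.1, d.2⟩)
  · have e1 : (x : H →L[ℂ] H) (f χ) = χ ⟨x.1, x.2⟩ • f χ := e
    rw [e1]
    have h3 := hf χ
    rw [← hc]
    exact Submodule.smul_mem _ _ h3
  · have e1 : (x : H →L[ℂ] H) (f χ) = χ ⟨x.1, x.2⟩ • f χ := e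
    rw [e1, h0 χ hχ hc, zero_smul]
    exact Submodule.zero_mem _

theorem cover (D : StarSubalgebra ℂ (H →L[ℂ] H)) (hcl : IsClosed (D : Set (H →L[ℂ] H)))
    (hcomm : ∀ x ∈ D, ∀ y ∈ D, x * y = y * x)
    (hspan : (⨆ χ : (↥(D : Set (H →L[ℂ] H)) → ℂ), eig (D : Set (H →L[ℂ] H)) χ).topologicalClosure
      = ⊤)
    {ξ : H} (hξ : ‖ξ‖ = 1) {ε : ℝ} (hε : 0 < ε)
    (hsmall : ∀ χ : (↥(D : Set (H →L[ℂ] H)) → ℂ), ∀ v ∈ eig (D : Set (H →L[ℂ] H)) χ,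
      ‖⟪v, ξ⟫_ℂ‖ ^ 2 ≤ ε * ‖v‖ ^ 2) :
    ∃ F : Finset (H →L[ℂ] H),
      (∀ x ∈ F, x ∈ D ∧ 0 ≤ x ∧ x ≤ 1 ∧ (⟪ξ, x ξ⟫_ℂ).re ≤ 2 * ε) ∧
      ∀ χ : (↥(D : Set (H →L[ℂ] H)) → ℂ), ∀ v ∈ eig (D : Set (H →L[ℂ] H)) χ, ∃ x ∈ F, ∀ ζ : H,
        ‖⟪v, ζ⟫_ℂ‖ ^ 2 ≤ 2 * ‖v‖ ^ 2 * (⟪ζ, x ζ⟫_ℂ).re := by
  classical
  haveI := hcl
  letI i1 : CStarAlgebra ↥D := StarSubalgebra.cstarAlgebra D
  letI i2 : CommCStarAlgebra ↥D :=
    { i1 with mul_comm := fun x y => Subtype.ext (hcomm x.1 x.2 y.1 y.2) }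
  -- approximation of `ξ`
  have hδ : 0 < ε / (Real.sqrt ε + 1) := by positivity
  have hmem : ξ ∈ (⨆ χ : (↥(D : Set (H →L[ℂ] H)) → ℂ),
      eig (D : Set (H →L[ℂ] H)) χ).topologicalClosure := by rw [hspan]; trivial
  obtain ⟨w, hw, hdist⟩ := Metric.mem_closure_iff.1 hmem _ hδ
  rw [dist_eq_norm] at hdist
  obtain ⟨f, hf, hfw⟩ := (Submodule.mem_iSup_iff_exists_finsupp _ _).1 hw
  -- the local elements
  have hloc : ∀ τ : WeakDual.characterSpace ℂ ↥D, ∃ y z : ↥D, star y * y + star z * z = 1 ∧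
      τ (star y * y) = 1 ∧ (⟪ξ, ((star y * y : ↥D) : H →L[ℂ] H) ξ⟫_ℂ).re ≤ 2 * ε := by
    intro τ
    let R : WeakDual.characterSpace ℂ ↥D → (↥(D : Set (H →L[ℂ] H)) → ℂ) :=
      fun t d => t ⟨d.1, d.2⟩
    have hR : Function.Injective R := by
      intro s t hst
      ext d
      exact congrFun hst ⟨d.1, d.2⟩
    let T : Set (WeakDual.characterSpace ℂ ↥D) := {t | R t ∈ f.support} \ {τ}
    have hT : T.Finite := by
      refine Set.Finite.subset ?_ Set.sdiff_subset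
      exact Set.Finite.of_injOn (t := (f.support : Set _)) (fun t ht => ht) hR.injOn
        (Finset.finite_toSet _)
    obtain ⟨y, z, hyz, hy1, hy0⟩ := COVER_sep τ T hT (by simp [T])
    refine ⟨y, z, hyz, hy1, ?_⟩
    refine COVER_small D τ y z hyz hy1 hξ hε hsmall w hdist.le ?_
    rw [← hfw]
    refine COVER_sum D τ (star y * y) f hf ?_
    intro χ hχ hne
    have hv0 : f χ ≠ 0 := Finsupp.mem_support_iff.1 hχ
    let t : WeakDual.characterSpace ℂ ↥D :=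
      WeakDual.CharacterSpace.equivAlgHom.symm (COVER_char D (hf χ) hv0)
    have hRt : R t = χ := by
      funext d
      rfl
    have htT : t ∈ T := by
      refine ⟨?_, ?_⟩
      · show R t ∈ f.support
        rw [hRt]; exact hχ
      · intro ht
        apply hne
        rw [← hRt, ht]
    have := hy0 t htT
    rw [← hRt]
    exact this
  choose y z hyz hy1 hsm using hloc
  let U : WeakDual.characterSpace ℂ ↥D → Set (WeakDual.characterSpace ℂ ↥D) :=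
    fun τ => {t | 1 / 2 < (t (star (y τ) * y τ)).re}
  have hU : ∀ τ ∈ (Set.univ : Set (WeakDual.characterSpace ℂ ↥D)), U τ ∈ nhds τ := by
    intro τ _
    have hc : Continuous fun t : WeakDual.characterSpace ℂ ↥D => (t (star (y τ) * y τ)).re := by
      have h := (WeakDual.gelfandTransform ℂ ↥D (star (y τ) * y τ)).continuous
      exact Complex.continuous_re.comp h
    refine (isOpen_lt continuous_const hc).mem_nhds ?_
    show (1 : ℝ) / 2 < (τ (star (y τ) * y τ)).re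
    rw [hy1 τ]
    norm_num
  obtain ⟨t, -, ht⟩ := isCompact_univ.elim_nhds_subcover U hU
  refine ⟨insert 0 (t.image fun τ => ((star (y τ) * y τ : ↥D) : H →L[ℂ] H)), ?_, ?_⟩
  · intro x hx
    rcases Finset.mem_insert.1 hx with rfl | hx
    · refine ⟨D.zero_mem, le_rfl, zero_le_one, ?_⟩
      simp [hε.le]
    · obtain ⟨τ, -, rfl⟩ := Finset.mem_image.1 hx
      refine ⟨(star (y τ) * y τ : ↥D).2, ?_, ?_, hsm τ⟩
      · have : ((star (y τ) * y τ : ↥D) : H →L[ℂ] H) = star (y τ : H →L[ℂ] H) * (y τ) := by simp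
        rw [this]
        exact star_mul_self_nonneg _
      · have e := congrArg (fun s : ↥D => (s : H →L[ℂ] H)) (hyz τ)
        have e' : ((star (y τ) * y τ : ↥D) : H →L[ℂ] H) + star (z τ : H →L[ℂ] H) * (z τ) = 1 := by
          simpa using e
        rw [← e']
        exact le_add_of_nonneg_right (star_mul_self_nonneg _)
  · intro χ v hv
    by_cases hv0 : v = 0
    · refine ⟨0, Finset.mem_insert_self _ _, fun ζ => ?_⟩
      rw [hv0]; simp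
    let s : WeakDual.characterSpace ℂ ↥D :=
      WeakDual.CharacterSpace.equivAlgHom.symm (COVER_char D hv hv0)
    obtain ⟨τ, hτ, hs⟩ := Set.mem_iUnion₂.1 (ht (Set.mem_univ s))
    refine ⟨_, Finset.mem_insert_of_mem (Finset.mem_image_of_mem _ hτ), fun ζ => ?_⟩
    have hxc : ((star (y τ) * y τ : ↥D) : H →L[ℂ] H) = star (y τ : H →L[ℂ] H) * (y τ) := by simp
    have hxv : ((star (y τ) * y τ : ↥D) : H →L[ℂ] H) v = s (star (y τ) * y τ) • v :=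
      mem_eig.1 hv ⟨(star (y τ) * y τ : ↥D).1, (star (y τ) * y τ : ↥D).2⟩
    set c := s (star (y τ) * y τ) with hc
    have hcre : 1 / 2 < c.re := hs
    have hn : ∀ a : H, (⟪a, ((star (y τ) * y τ : ↥D) : H →L[ℂ] H) a⟫_ℂ).re
        = ‖(y τ : H →L[ℂ] H) a‖ ^ 2 := by
      intro a
      rw [hxc, COVER_inner, inner_self_eq_norm_sq_to_K]
      norm_cast
    rw [hn]
    have h1 : ‖(y τ : H →L[ℂ] H) v‖ ^ 2 = c.re * ‖v‖ ^ 2 := by
      rw [← hn, hxv, inner_smul_right, COVER_self, Complex.re_mul_ofReal]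
    have h2 : (starRingEnd ℂ) c * ⟪v, ζ⟫_ℂ = ⟪(y τ : H →L[ℂ] H) v, (y τ : H →L[ℂ] H) ζ⟫_ℂ := by
      rw [← COVER_inner', ← hxc, hxv, inner_smul_left]
    have h3 : ‖c‖ * ‖⟪v, ζ⟫_ℂ‖ ≤ ‖(y τ : H →L[ℂ] H) v‖ * ‖(y τ : H →L[ℂ] H) ζ‖ := by
      have := norm_inner_le_norm (𝕜 := ℂ) ((y τ : H →L[ℂ] H) v) ((y τ : H →L[ℂ] H) ζ)
      rw [← h2, norm_mul, RCLike.norm_conj] at this
      exact this
    have h4 : c.re * ‖⟪v, ζ⟫_ℂ‖ ≤ ‖(y τ : H →L[ℂ] H) v‖ * ‖(y τ : H →L[ℂ] H) ζ‖ :=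
      (mul_le_mul_of_nonneg_right (Complex.re_le_norm c) (norm_nonneg _)).trans h3
    have h5 : (c.re * ‖⟪v, ζ⟫_ℂ‖) ^ 2 ≤ (c.re * ‖v‖ ^ 2) * ‖(y τ : H →L[ℂ] H) ζ‖ ^ 2 := by
      rw [← h1, ← mul_pow]
      exact pow_le_pow_left₀ (by positivity) h4 2
    have hcp : 0 < c.re := by linarith
    have h6 : c.re * ‖⟪v, ζ⟫_ℂ‖ ^ 2 ≤ ‖v‖ ^ 2 * ‖(y τ : H →L[ℂ] H) ζ‖ ^ 2 := by
      have : c.re * (c.re * ‖⟪v, ζ⟫_ℂ‖ ^ 2) ≤ c.re * (‖v‖ ^ 2 * ‖(y τ : H →L[ℂ] H) ζ‖ ^ 2) := by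
        nlinarith
      exact le_of_mul_le_mul_left this hcp
    nlinarith [sq_nonneg ‖⟪v, ζ⟫_ℂ‖]

end Vale.Agent.P070
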