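import Vale.Agent.P070.Defs

/-! # P070, module SPREADO: orthogonality of joint eigenspaces (helper48) -/

open scoped ComplexOrder InnerProductSpace

namespace Vale.Agent.P070

variable {H : Type*} [NormedAddCommGroup H] [InnerProductSpace ℂ H] [CompleteSpace H]

theorem eig_orth {D : Set (H →L[ℂ] H)} (hstar : ∀ d ∈ D, star d ∈ D)
    (hcomm : ∀ d ∈ D, ∀ d' ∈ D, d * d' = d' * d) {χ χ' : D → ℂ} (h : χ ≠ χ') {v w : H}
    (hv : v ∈ eig D χ) (hw : w ∈ eig D χ') : ⟪v, w⟫_ℂ = 0 := by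
  obtain ⟨d, hd⟩ := Function.ne_iff.1 h
  have hv' : (d : H →L[ℂ] H) v = χ d • v := hv d
  have hw' : (d : H →L[ℂ] H) w = χ' d • w := hw d
  obtain ⟨T, hT⟩ : ∃ T : H →L[ℂ] H, T = (d : H →L[ℂ] H) := ⟨_, rfl⟩
  rw [← hT] at hv' hw'
  have hn : IsStarNormal (T - χ d • (1 : H →L[ℂ] H)) := by
    have h1 : star T * T = T * star T := by
      rw [hT]
      exact hcomm _ (hstar _ d.2) _ d.2
    refine ⟨?_⟩
    rw [Commute, SemiconjBy, star_sub, star_smul, star_one]
    simp only [sub_mul, mul_sub, smul_mul_assoc, mul_smul_comm, one_mul, mul_one, h1]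
    rw [smul_sub, smul_sub, smul_comm (star (χ d)) (χ d)]
    abel
  have h2 := (ContinuousLinearMap.isStarNormal_iff_norm_eq_adjoint
    (T := T - χ d • (1 : H →L[ℂ] H))).1 hn v
  have h3 : (T - χ d • (1 : H →L[ℂ] H)) v = 0 := by simp [hv']
  rw [h3, norm_zero, eq_comm, norm_eq_zero] at h2
  have h4 : ⟪(ContinuousLinearMap.adjoint (T - χ d • (1 : H →L[ℂ] H))) v, w⟫_ℂ = 0 := by
    rw [h2, inner_zero_left]
  rw [ContinuousLinearMap.adjoint_inner_left] at h4
  have h6 : (T - χ d • (1 : H →L[ℂ] H)) w = (χ' d - χ d) • w := by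
    rw [sub_smul, ← hw']
    rfl
  rw [h6, inner_smul_right] at h4
  rcases mul_eq_zero.1 h4 with h5 | h5
  · exact absurd (sub_eq_zero.1 h5).symm hd
  · exact h5

end Vale.Agent.P070
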