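import Vale.Agent.P070.Defs
import Vale.Agent.P070.SpreadOrth

/-!
# P070, module SPREAD (pure Hilbert space): vectors with small atoms

`eig_orth`: joint eigenvectors of a commuting star-closed family for different eigenvalue
functions are orthogonal (each `d` is normal, so `d ξ = c ξ` implies `star d ξ = conj c ξ`:
`‖(d - c) ξ‖ = ‖star (d - c) ξ‖`).

`spread`: `H` is the closed span of pairwise orthogonal finite-dimensional `V j`, `R` an
infinite-dimensional subspace (not nec. closed).  Choose `N` with `4 / N ≤ ε` and small `η > 0`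
(`N η ≤ 1`).  Recursively choose unit vectors `ξ₁, ξ₂, …, ξ_N ∈ R` and finite sets
`S₁ ⊆ S₂ ⊆ … ` of indices with: `ξ_{k+1}` orthogonal to `ξ₁, …, ξ_k` and to all `V j`, `j ∈ S_k`
(possible: `R` is infinite-dimensional and these are finitely many linear conditions), and
`S_{k+1} ⊇ S_k` such that the distance of `ξ_{k+1}` to `⨆ j ∈ S_{k+1}, V j` is `≤ η`, so that
`|⟪v, ξ_{k+1}⟫| ≤ η ‖v‖` for `v ∈ V j`, `j ∉ S_{k+1}`.  Put `ξ = (ξ₁ + … + ξ_N)/√N ∈ R`.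
For `j ∈ S_k \ S_{k-1}` and `v ∈ V j`: `⟪v, ξ_l⟫ = 0` for `l > k`, `|⟪v, ξ_k⟫| ≤ ‖v‖`, and
`|⟪v, ξ_l⟫| ≤ η ‖v‖` for `l < k`, so `|⟪v, ξ⟫| ≤ (1 + N η) ‖v‖ / √N ≤ 2 ‖v‖ / √N`.
-/

open scoped ComplexOrder InnerProductSpace

namespace Vale.Agent.P070

variable {H : Type*} [NormedAddCommGroup H] [InnerProductSpace ℂ H] [CompleteSpace H]

theorem spread_perp (R E : Submodule ℂ H) (hR : ¬ FiniteDimensional ℂ R)
    (hE : FiniteDimensional ℂ E) : ∃ ζ ∈ R, ‖ζ‖ = 1 ∧ ∀ v ∈ E, ⟪v, ζ⟫_ℂ = 0 := by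
  have : FiniteDimensional ℂ E := hE
  let Φ : R →ₗ[ℂ] E := (E.orthogonalProjectionOnto : H →ₗ[ℂ] E) ∘ₗ R.subtype
  have hninj : ¬ Function.Injective Φ := by
    intro hinj
    exact hR (Module.Finite.of_injective Φ hinj)
  rw [← LinearMap.ker_eq_bot, Submodule.eq_bot_iff] at hninj
  push Not at hninj
  obtain ⟨z, hz, hz0⟩ := hninj
  have hΦ : E.orthogonalProjectionOnto (z : H) = 0 := hz
  have hzE : (z : H) ∈ Eᗮ := Submodule.orthogonalProjectionOnto_eq_zero_iff.1 hΦ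
  have hzn : (z : H) ≠ 0 := fun h => hz0 (Subtype.ext h)
  have hzn' : ‖(z : H)‖ ≠ 0 := norm_ne_zero_iff.2 hzn
  refine ⟨((‖(z : H)‖⁻¹ : ℝ) : ℂ) • (z : H), R.smul_mem _ z.2, ?_, ?_⟩
  · rw [norm_smul, Complex.norm_real, norm_inv, norm_norm, inv_mul_cancel₀ hzn']
  · intro v hv
    rw [inner_smul_right, (Submodule.mem_orthogonal E _).1 hzE v hv, mul_zero]

theorem spread_tail {J : Type*} (V : J → Submodule ℂ H)
    (horth : ∀ i j, i ≠ j → ∀ v ∈ V i, ∀ w ∈ V j, ⟪v, w⟫_ℂ = 0)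
    (hspan : (⨆ j, V j).topologicalClosure = ⊤) (ζ : H) {δ : ℝ} (hδ : 0 < δ) :
    ∃ S : Finset J, ∀ j, j ∉ S → ∀ v ∈ V j, ‖⟪v, ζ⟫_ℂ‖ ≤ δ * ‖v‖ := by
  have h1 : ζ ∈ (⨆ j, V j).topologicalClosure := by rw [hspan]; trivial
  have h2 : ζ ∈ closure ((⨆ j, V j : Submodule ℂ H) : Set H) := h1
  obtain ⟨y, hy, hyd⟩ := Metric.mem_closure_iff.1 h2 δ hδ
  obtain ⟨S, hS⟩ := (Submodule.mem_iSup_iff_exists_finset).1 hy
  refine ⟨S, fun j hj v hv => ?_⟩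
  have h3 : (⨆ i ∈ S, V i) ≤ (Submodule.span ℂ {v})ᗮ := by
    refine iSup₂_le fun i hi x hx => ?_
    rw [Submodule.mem_orthogonal_singleton_iff_inner_right]
    exact horth j i (fun h => hj (h ▸ hi)) v hv x hx
  have h4 : ⟪v, y⟫_ℂ = 0 := by
    rw [← Submodule.mem_orthogonal_singleton_iff_inner_right]
    exact h3 hS
  have h5 : ⟪v, ζ⟫_ℂ = ⟪v, ζ - y⟫_ℂ := by rw [inner_sub_right, h4, sub_zero]
  rw [h5]
  refine (norm_inner_le_norm _ _).trans ?_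
  rw [mul_comm]
  refine mul_le_mul_of_nonneg_right ?_ (norm_nonneg _)
  rw [← dist_eq_norm]
  exact hyd.le

theorem spread_step {J : Type*} (V : J → Submodule ℂ H)
    (horth : ∀ i j, i ≠ j → ∀ v ∈ V i, ∀ w ∈ V j, ⟪v, w⟫_ℂ = 0)
    (hfin : ∀ j, FiniteDimensional ℂ (V j)) (hspan : (⨆ j, V j).topologicalClosure = ⊤)
    (R : Submodule ℂ H) (hR : ¬ FiniteDimensional ℂ R) {δ : ℝ} (hδ : 0 < δ) (n : ℕ) :
    ∃ (w : H) (S : Finset J), w ∈ R ∧ ‖w‖ ^ 2 = n ∧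
      (∀ j, ∀ v ∈ V j, ‖⟪v, w⟫_ℂ‖ ≤ (1 + n * δ) * ‖v‖) ∧
      (∀ j, j ∉ S → ∀ v ∈ V j, ‖⟪v, w⟫_ℂ‖ ≤ n * δ * ‖v‖) := by
  classical
  induction n with
  | zero =>
    refine ⟨0, ∅, R.zero_mem, by simp, ?_, ?_⟩
    · intro j v _
      simp
    · intro j _ v _
      simp
  | succ n ih =>
    obtain ⟨w, S, hwR, hwn, hall, htail⟩ := ih
    have hfinS : FiniteDimensional ℂ (⨆ j ∈ S, V j : Submodule ℂ H) := by
      have := fun j => hfin j
      rw [← Finset.sup_eq_iSup]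
      exact Submodule.finite_finset_sup S V
    have hfinE : FiniteDimensional ℂ
        ((Submodule.span ℂ {w} ⊔ ⨆ j ∈ S, V j : Submodule ℂ H)) := inferInstance
    obtain ⟨ζ, hζR, hζ1, hζ⟩ := spread_perp R _ hR hfinE
    have hwζ : ⟪w, ζ⟫_ℂ = 0 :=
      hζ w (Submodule.mem_sup_left (Submodule.mem_span_singleton_self w))
    have hSζ : ∀ j ∈ S, ∀ v ∈ V j, ⟪v, ζ⟫_ℂ = 0 := fun j hj v hv =>
      hζ v (Submodule.mem_sup_right (Submodule.mem_iSup_of_mem j (Submodule.mem_iSup_of_mem hj hv)))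
    obtain ⟨S', hS'⟩ := spread_tail V horth hspan ζ hδ
    refine ⟨w + ζ, S ∪ S', R.add_mem hwR hζR, ?_, ?_, ?_⟩
    · have h := norm_add_sq (𝕜 := ℂ) w ζ
      rw [hwζ, hwn, hζ1] at h
      rw [h]
      push_cast
      simp
    · intro j v hv
      rw [inner_add_right]
      push_cast
      have hvn := norm_nonneg v
      by_cases hj : j ∈ S
      · rw [hSζ j hj v hv, add_zero]
        refine (hall j v hv).trans ?_
        nlinarith
      · refine (norm_add_le _ _).trans ?_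
        have h1 := htail j hj v hv
        have h2 : ‖⟪v, ζ⟫_ℂ‖ ≤ ‖v‖ := by
          have := norm_inner_le_norm (𝕜 := ℂ) v ζ
          rwa [hζ1, mul_one] at this
        nlinarith
    · intro j hj v hv
      rw [Finset.mem_union, not_or] at hj
      rw [inner_add_right]
      push_cast
      refine (norm_add_le _ _).trans ?_
      have h1 := htail j hj.1 v hv
      have h2 := hS' j hj.2 v hv
      linarith

theorem spread {J : Type*} (V : J → Submodule ℂ H)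
    (horth : ∀ i j, i ≠ j → ∀ v ∈ V i, ∀ w ∈ V j, ⟪v, w⟫_ℂ = 0)
    (hfin : ∀ j, FiniteDimensional ℂ (V j)) (hspan : (⨆ j, V j).topologicalClosure = ⊤)
    (R : Submodule ℂ H) (hR : ¬ FiniteDimensional ℂ R) {ε : ℝ} (hε : 0 < ε) :
    ∃ ξ ∈ R, ‖ξ‖ = 1 ∧ ∀ j, ∀ v ∈ V j, ‖⟪v, ξ⟫_ℂ‖ ^ 2 ≤ ε * ‖v‖ ^ 2 := by
  obtain ⟨k, hk⟩ := exists_nat_ge (4 / ε)
  have hk0 : (0 : ℝ) < k := lt_of_lt_of_le (by positivity) hk
  obtain ⟨w, S, hwR, hwn, hall, -⟩ :=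
    spread_step V horth hfin hspan R hR (δ := 1 / k) (by positivity) k
  have hw0 : ‖w‖ ≠ 0 := by
    intro h0
    rw [h0] at hwn
    norm_num at hwn
    rw [← hwn] at hk0
    simp at hk0
  have h2 : (1 : ℝ) + k * (1 / k) = 2 := by
    field_simp
    norm_num
  rw [h2] at hall
  refine ⟨((‖w‖⁻¹ : ℝ) : ℂ) • w, R.smul_mem _ hwR, ?_, ?_⟩
  · rw [norm_smul, Complex.norm_real, norm_inv, norm_norm, inv_mul_cancel₀ hw0]
  · intro j v hv
    have h1 := hall j v hv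
    rw [inner_smul_right, norm_mul, Complex.norm_real, norm_inv, norm_norm, mul_pow, inv_pow, hwn]
    have h3 : ‖⟪v, w⟫_ℂ‖ ^ 2 ≤ 4 * ‖v‖ ^ 2 := by
      have := norm_nonneg (⟪v, w⟫_ℂ)
      nlinarith
    have h4 : 4 ≤ ε * k := by
      rw [div_le_iff₀ hε] at hk
      linarith
    rw [inv_mul_le_iff₀ hk0]
    refine h3.trans ?_
    have := sq_nonneg ‖v‖
    nlinarith

end Vale.Agent.P070
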