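import Vale.Agent.P070.Nested
import Vale.Agent.P070.Cap
import Vale.Agent.P070.Cover
import Vale.Agent.P070.Spread

/-!
# P070, module ATOMIC (helper75): the recursion for Theorem 1
-/

open scoped ComplexOrder InnerProductSpace

namespace Vale.Agent.P070

universe u
variable {A : Type u} [NonUnitalCStarAlgebra A]
variable {H : Type u} [NormedAddCommGroup H] [InnerProductSpace ℂ H] [CompleteSpace H]

/-- the data of a cap -/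
structure CapData (π : A →⋆ₙₐ[ℂ] (H →L[ℂ] H)) where
  f : A
  g : A
  hf : IsSelfAdjoint f
  hg : IsSelfAdjoint g
  h0 : 0 ≤ π f
  h1 : π f ≤ 1
  hfg : f * g = g
  hg0 : π g ≠ 0

theorem exists_cap {π : A →⋆ₙₐ[ℂ] (H →L[ℂ] H)} (hπ : IsIrred π) : Nonempty (CapData π) := by
  obtain ⟨a, ha⟩ := hπ.ne_zero
  obtain ⟨η, hη⟩ : ∃ η, π a η ≠ 0 := by
    by_contra hcon
    push Not at hcon
    exact ha (ContinuousLinearMap.ext fun x => by simpa using hcon x)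
  have hη0 : η ≠ 0 := by
    rintro rfl
    exact hη (map_zero _)
  have hpos : 0 < ‖η‖ := norm_pos_iff.mpr hη0
  set ζ : H := ((‖η‖⁻¹ : ℝ) : ℂ) • η with hζ
  have hζ1 : ‖ζ‖ = 1 := by
    rw [hζ, norm_smul, Complex.norm_real, Real.norm_eq_abs, abs_of_pos (inv_pos.mpr hpos)]
    exact inv_mul_cancel₀ hpos.ne'
  have haζ : π a ζ ≠ 0 := by
    rw [hζ, map_smul]
    exact smul_ne_zero (by exact_mod_cast (inv_pos.mpr hpos).ne') hη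
  set r : ℝ := ‖π a ζ‖ ^ 2 with hr
  have hrpos : 0 < r := by
    have := norm_pos_iff.mpr haζ
    positivity
  have hin : r ≤ (⟪ζ, π (star a * a) ζ⟫_ℂ).re := by
    rw [map_mul, map_star, ContinuousLinearMap.mul_apply, ContinuousLinearMap.star_eq_adjoint,
      ContinuousLinearMap.adjoint_inner_right, inner_self_eq_norm_sq_to_K]
    apply le_of_eq
    have h7 : (((‖π a ζ‖ : ℝ) : ℂ) ^ 2).re = ‖π a ζ‖ ^ 2 := by
      rw [← Complex.ofReal_pow, Complex.ofReal_re]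
    exact h7.symm
  obtain ⟨f, g, hf, hg, h0, h1, hfg, -, hg0, -⟩ := cut' π (star a * a)
    (IsSelfAdjoint.star_mul_self a) (r₁ := r / 3) (r₂ := r / 2) (r₃ := r) (by positivity)
    (by linarith) (by linarith) hζ1 hin
  exact ⟨⟨f, g, hf, hg, h0, h1, hfg, hg0⟩⟩

theorem atomic_step {π : A →⋆ₙₐ[ℂ] (H →L[ℂ] H)} (hπ : IsIrred π)
    (hnf : ∀ a, FiniteDimensional ℂ (LinearMap.range (π a : H →ₗ[ℂ] H)) → π a = 0)
    (D : StarSubalgebra ℂ (H →L[ℂ] H)) (hcl : IsClosed (D : Set (H →L[ℂ] H)))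
    (hcomm : ∀ x ∈ D, ∀ y ∈ D, x * y = y * x)
    (hmul : ∀ x ∈ D, ∀ a, ∃ b, π b = x * π a)
    (hspan : (⨆ χ : (↥(D : Set (H →L[ℂ] H)) → ℂ),
      eig (D : Set (H →L[ℂ] H)) χ).topologicalClosure = ⊤)
    (hfin : ∀ χ : (↥(D : Set (H →L[ℂ] H)) → ℂ),
      FiniteDimensional ℂ (eig (D : Set (H →L[ℂ] H)) χ))
    (c : CapData π) {ε : ℝ} (hε : 0 < ε) (hε1 : 2 * ε ≤ 1) :
    ∃ c' : CapData π, c.f * c'.f = c'.f ∧ ∀ ζ : H, ‖ζ‖ = 1 → π c'.f ζ = ζ →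
      ∀ χ : (↥(D : Set (H →L[ℂ] H)) → ℂ), ∀ v ∈ eig (D : Set (H →L[ℂ] H)) χ,
        ‖⟪v, ζ⟫_ℂ‖ ^ 2 ≤ 16 * ε * ‖v‖ ^ 2 := by
  obtain ⟨ξ, hξR, hξ1, hsmall⟩ := spread (fun χ => eig (D : Set (H →L[ℂ] H)) χ)
    (fun χ χ' hne v hv w hw => eig_orth (D := (D : Set (H →L[ℂ] H)))
      (fun d hd => star_mem hd) hcomm hne hv hw) hfin hspan
    (LinearMap.range (π c.g : H →ₗ[ℂ] H)) (fun h => c.hg0 (hnf _ h)) hε
  obtain ⟨F, hF1, hF2⟩ := cover D hcl hcomm hspan hξ1 hε hsmall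
  obtain ⟨η, hη⟩ := hξR
  obtain ⟨f', g', hf', hg', h0, h1, hff, hfg, hg0, hcap⟩ := cap hπ c.f c.g c.hg c.hfg hξ1
    ⟨η, hη.symm⟩ F (δ := 2 * ε) (by positivity) hε1
    (fun x hx => ⟨(hF1 x hx).2.1, (hF1 x hx).2.2.1, hmul x (hF1 x hx).1, (hF1 x hx).2.2.2⟩)
  refine ⟨⟨f', g', hf', hg', h0, h1, hfg, hg0⟩, hff, ?_⟩
  intro ζ hζ hfix χ v hv
  obtain ⟨x, hxF, hx⟩ := hF2 χ v hv
  have h2 := hcap ζ hζ hfix x hxF
  calc ‖⟪v, ζ⟫_ℂ‖ ^ 2 ≤ 2 * ‖v‖ ^ 2 * (⟪ζ, x ζ⟫_ℂ).re := hx ζ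
    _ ≤ 2 * ‖v‖ ^ 2 * (4 * (2 * ε)) := by gcongr
    _ = 16 * ε * ‖v‖ ^ 2 := by ring

/-- Under (N), an atomic commutative algebra of multipliers with finite-dimensional joint
eigenspaces forces a nonzero finite rank operator in `π(A)`. -/
theorem atomic_finite_rank (hN : PropertyN A) {π : A →⋆ₙₐ[ℂ] (H →L[ℂ] H)} (hπ : IsIrred π)
    (D : StarSubalgebra ℂ (H →L[ℂ] H)) (hcl : IsClosed (D : Set (H →L[ℂ] H)))
    (hcomm : ∀ x ∈ D, ∀ y ∈ D, x * y = y * x)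
    (hmul : ∀ x ∈ D, ∀ a, ∃ b, π b = x * π a)
    (hspan : (⨆ χ : (↥(D : Set (H →L[ℂ] H)) → ℂ),
      eig (D : Set (H →L[ℂ] H)) χ).topologicalClosure = ⊤)
    (hfin : ∀ χ : (↥(D : Set (H →L[ℂ] H)) → ℂ),
      FiniteDimensional ℂ (eig (D : Set (H →L[ℂ] H)) χ)) :
    ∃ a, π a ≠ 0 ∧ FiniteDimensional ℂ (LinearMap.range (π a : H →ₗ[ℂ] H)) := by
  by_contra hcon
  push Not at hcon
  have hnf : ∀ a, FiniteDimensional ℂ (LinearMap.range (π a : H →ₗ[ℂ] H)) → π a = 0 := by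
    intro a ha
    by_contra h
    exact hcon a h ha
  obtain ⟨c0⟩ := exists_cap hπ
  have step : ∀ (n : ℕ) (c : CapData π), ∃ c' : CapData π, c.f * c'.f = c'.f ∧
      ∀ ζ : H, ‖ζ‖ = 1 → π c'.f ζ = ζ →
      ∀ χ : (↥(D : Set (H →L[ℂ] H)) → ℂ), ∀ v ∈ eig (D : Set (H →L[ℂ] H)) χ,
        ‖⟪v, ζ⟫_ℂ‖ ^ 2 ≤ 16 * (1 / (2 * ((n : ℝ) + 1))) * ‖v‖ ^ 2 := fun n c =>
    atomic_step hπ hnf D hcl hcomm hmul hspan hfin c (by positivity) (by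
      have : (0 : ℝ) ≤ n := Nat.cast_nonneg n
      rw [mul_one_div, mul_comm (2 : ℝ), div_le_one (by positivity)]
      linarith)
  choose nxt hn1 hn2 using step
  let seq : ℕ → CapData π := fun n => Nat.rec c0 (fun n c => nxt n c) n
  have hseq : ∀ n, seq (n + 1) = nxt n (seq n) := fun n => rfl
  obtain ⟨ζ, hζ1, hζ⟩ := nested hN hπ (fun n => (seq n).f) (fun n => (seq n).g)
    (fun n => ⟨(seq n).hf, (seq n).h0, (seq n).h1⟩)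
    (fun n => by
      show (seq n).f * (seq (n + 1)).f = (seq (n + 1)).f
      rw [hseq]; exact hn1 n (seq n))
    (fun n => ⟨(seq n).hfg, (seq n).hg0⟩)
  have hzero : ∀ χ : (↥(D : Set (H →L[ℂ] H)) → ℂ), ∀ v ∈ eig (D : Set (H →L[ℂ] H)) χ,
      ⟪v, ζ⟫_ℂ = 0 := by
    intro χ v hv
    have hb : ∀ n : ℕ, ‖⟪v, ζ⟫_ℂ‖ ^ 2 ≤ (8 * ‖v‖ ^ 2) * (1 / ((n : ℝ) + 1)) := by
      intro n
      have h1 := hn2 n (seq n) ζ hζ1 (by rw [← hseq]; exact hζ (n + 1)) χ v hv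
      refine h1.trans (le_of_eq ?_)
      have : ((n : ℝ) + 1) ≠ 0 := by positivity
      field_simp
      ring
    have hlim : Filter.Tendsto (fun n : ℕ => (8 * ‖v‖ ^ 2) * (1 / ((n : ℝ) + 1)))
        Filter.atTop (nhds ((8 * ‖v‖ ^ 2) * 0)) :=
      tendsto_one_div_add_atTop_nhds_zero_nat.const_mul _
    rw [mul_zero] at hlim
    have h2 : ‖⟪v, ζ⟫_ℂ‖ ^ 2 ≤ 0 := ge_of_tendsto' hlim hb
    have h3 := norm_nonneg (⟪v, ζ⟫_ℂ)
    have h4 : ‖⟪v, ζ⟫_ℂ‖ = 0 := by nlinarith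
    exact norm_eq_zero.mp h4
  have hmem : ζ ∈ (⨆ χ : (↥(D : Set (H →L[ℂ] H)) → ℂ), eig (D : Set (H →L[ℂ] H)) χ)ᗮ := by
    rw [Submodule.mem_orthogonal]
    intro u hu
    induction hu using Submodule.iSup_induction' with
    | mem i x hx => exact hzero i x hx
    | zero => exact inner_zero_left _
    | add x y _ _ hx hy => rw [inner_add_left, hx, hy, add_zero]
  rw [Submodule.topologicalClosure_eq_top_iff.mp hspan, Submodule.mem_bot] at hmem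
  rw [hmem, norm_zero] at hζ1
  exact zero_ne_one hζ1

end Vale.Agent.P070
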