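import Vale.Agent.P070.Big

/-!
# P070, module ATOMICC (helper6): the recursion with joint eigenspaces of density `< 2^ℵ₀`
-/

open scoped ComplexOrder InnerProductSpace

namespace Vale.Agent.P070

universe u
variable {A : Type u} [NonUnitalCStarAlgebra A]
variable {H : Type u} [NormedAddCommGroup H] [InnerProductSpace ℂ H] [CompleteSpace H]

theorem atomic_step' (hN : PropertyN A) {π : A →⋆ₙₐ[ℂ] (H →L[ℂ] H)} (hπ : IsIrred π)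
    (hnf : ∀ a, FiniteDimensional ℂ (LinearMap.range (π a : H →ₗ[ℂ] H)) → π a = 0)
    (D : StarSubalgebra ℂ (H →L[ℂ] H)) (hcl : IsClosed (D : Set (H →L[ℂ] H)))
    (hcomm : ∀ x ∈ D, ∀ y ∈ D, x * y = y * x)
    (hmul : ∀ x ∈ D, ∀ a, ∃ b, π b = x * π a)
    (hspan : (⨆ χ : (↥(D : Set (H →L[ℂ] H)) → ℂ),
      eig (D : Set (H →L[ℂ] H)) χ).topologicalClosure = ⊤)
    (hsm : ∀ χ : (↥(D : Set (H →L[ℂ] H)) → ℂ), SmallDim (eig (D : Set (H →L[ℂ] H)) χ))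
    (c : CapData π) {ε : ℝ} (hε : 0 < ε) (hε1 : 2 * ε ≤ 1) :
    ∃ c' : CapData π, c.f * c'.f = c'.f ∧ ∀ ζ : H, ‖ζ‖ = 1 → π c'.f ζ = ζ →
      ∀ χ : (↥(D : Set (H →L[ℂ] H)) → ℂ), ∀ v ∈ eig (D : Set (H →L[ℂ] H)) χ,
        ‖⟪v, ζ⟫_ℂ‖ ^ 2 ≤ 16 * ε * ‖v‖ ^ 2 := by
  obtain ⟨ξ, hξR, hξ1, hsmall⟩ := spread' (fun χ => eig (D : Set (H →L[ℂ] H)) χ)
    (fun χ χ' hne v hv w hw => eig_orth (D := (D : Set (H →L[ℂ] H)))
      (fun d hd => star_mem hd) hcomm hne hv hw) hsm hspan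
    (LinearMap.range (π c.g : H →ₗ[ℂ] H)) (big_range hN hπ hnf c.g c.hg c.hg0) hε
  obtain ⟨F, hF1, hF2⟩ := cover D hcl hcomm hspan hξ1 hε hsmall
  obtain ⟨η, hη⟩ := hξR
  obtain ⟨f', g', hf', hg', h0, h1, hff, hfg, hg0, hcap⟩ := cap hπ c.f c.g c.hg c.hfg hξ1
    ⟨η, hη.symm⟩ F (δ := 2 * ε) (by positivity) hε1
    (fun x hx => ⟨(hF1 x hx).2.1, (hF1 x hx).2.2.1, hmul x (hF1 x hx).1, (hF1 x hx).2.2.2⟩)
  refine ⟨⟨f', g', hf', hg', h0, h1, hfg, hg0⟩, hff, ?_⟩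
  intro ζ hζ hfix χ v hv
  obtain ⟨x, hxF, hx⟩ := hF2 χ v hv
  have h2 := hcap ζ hζ hfix x hxF
  calc ‖⟪v, ζ⟫_ℂ‖ ^ 2 ≤ 2 * ‖v‖ ^ 2 * (⟪ζ, x ζ⟫_ℂ).re := hx ζ
    _ ≤ 2 * ‖v‖ ^ 2 * (4 * (2 * ε)) := by gcongr
    _ = 16 * ε * ‖v‖ ^ 2 := by ring

/-- Under (N), an atomic commutative algebra of multipliers with joint eigenspaces of density
`< 2^ℵ₀` forces a nonzero finite rank operator in `π(A)`. -/
theorem atomic_finite_rank' (hN : PropertyN A) {π : A →⋆ₙₐ[ℂ] (H →L[ℂ] H)} (hπ : IsIrred π)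
    (D : StarSubalgebra ℂ (H →L[ℂ] H)) (hcl : IsClosed (D : Set (H →L[ℂ] H)))
    (hcomm : ∀ x ∈ D, ∀ y ∈ D, x * y = y * x)
    (hmul : ∀ x ∈ D, ∀ a, ∃ b, π b = x * π a)
    (hspan : (⨆ χ : (↥(D : Set (H →L[ℂ] H)) → ℂ),
      eig (D : Set (H →L[ℂ] H)) χ).topologicalClosure = ⊤)
    (hsm : ∀ χ : (↥(D : Set (H →L[ℂ] H)) → ℂ), SmallDim (eig (D : Set (H →L[ℂ] H)) χ)) :
    ∃ a, π a ≠ 0 ∧ FiniteDimensional ℂ (LinearMap.range (π a : H →ₗ[ℂ] H)) := by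
  by_contra hcon
  push Not at hcon
  have hnf : ∀ a, FiniteDimensional ℂ (LinearMap.range (π a : H →ₗ[ℂ] H)) → π a = 0 := by
    intro a ha
    by_contra h
    exact hcon a h ha
  obtain ⟨c0⟩ := exists_cap hπ
  have step : ∀ (n : ℕ) (c : CapData π), ∃ c' : CapData π, c.f * c'.f = c'.f ∧
      ∀ ζ : H, ‖ζ‖ = 1 → π c'.f ζ = ζ →
      ∀ χ : (↥(D : Set (H →L[ℂ] H)) → ℂ), ∀ v ∈ eig (D : Set (H →L[ℂ] H)) χ,
        ‖⟪v, ζ⟫_ℂ‖ ^ 2 ≤ 16 * (1 / (2 * ((n : ℝ) + 1))) * ‖v‖ ^ 2 := fun n c =>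
    atomic_step' hN hπ hnf D hcl hcomm hmul hspan hsm c (by positivity) (by
      have : (0 : ℝ) ≤ n := Nat.cast_nonneg n
      rw [mul_one_div, mul_comm (2 : ℝ), div_le_one (by positivity)]
      linarith)
  choose nxt hn1 hn2 using step
  let seq : ℕ → CapData π := fun n => Nat.rec c0 (fun n c => nxt n c) n
  have hseq : ∀ n, seq (n + 1) = nxt n (seq n) := fun n => rfl
  obtain ⟨ζ, hζ1, hζ⟩ := nested hN hπ (fun n => (seq n).f) (fun n => (seq n).g)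
    (fun n => ⟨(seq n).hf, (seq n).h0, (seq n).h1⟩)
    (fun n => by
      show (seq n).f * (seq (n + 1)).f = (seq (n + 1)).f
      rw [hseq]; exact hn1 n (seq n))
    (fun n => ⟨(seq n).hfg, (seq n).hg0⟩)
  have hzero : ∀ χ : (↥(D : Set (H →L[ℂ] H)) → ℂ), ∀ v ∈ eig (D : Set (H →L[ℂ] H)) χ,
      ⟪v, ζ⟫_ℂ = 0 := by
    intro χ v hv
    have hb : ∀ n : ℕ, ‖⟪v, ζ⟫_ℂ‖ ^ 2 ≤ (8 * ‖v‖ ^ 2) * (1 / ((n : ℝ) + 1)) := by
      intro n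
      have h1 := hn2 n (seq n) ζ hζ1 (by rw [← hseq]; exact hζ (n + 1)) χ v hv
      refine h1.trans (le_of_eq ?_)
      have : ((n : ℝ) + 1) ≠ 0 := by positivity
      field_simp
      ring
    have hlim : Filter.Tendsto (fun n : ℕ => (8 * ‖v‖ ^ 2) * (1 / ((n : ℝ) + 1)))
        Filter.atTop (nhds ((8 * ‖v‖ ^ 2) * 0)) :=
      tendsto_one_div_add_atTop_nhds_zero_nat.const_mul _
    rw [mul_zero] at hlim
    have h2 : ‖⟪v, ζ⟫_ℂ‖ ^ 2 ≤ 0 := ge_of_tendsto' hlim hb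
    have h3 := norm_nonneg (⟪v, ζ⟫_ℂ)
    have h4 : ‖⟪v, ζ⟫_ℂ‖ = 0 := by nlinarith
    exact norm_eq_zero.mp h4
  have hmem : ζ ∈ (⨆ χ : (↥(D : Set (H →L[ℂ] H)) → ℂ), eig (D : Set (H →L[ℂ] H)) χ)ᗮ := by
    rw [Submodule.mem_orthogonal]
    intro u hu
    induction hu using Submodule.iSup_induction' with
    | mem i x hx => exact hzero i x hx
    | zero => exact inner_zero_left _
    | add x y _ _ hx hy => rw [inner_add_left, hx, hy, add_zero]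
  rw [Submodule.topologicalClosure_eq_top_iff.mp hspan, Submodule.mem_bot] at hmem
  rw [hmem, norm_zero] at hζ1
  exact zero_ne_one hζ1

end Vale.Agent.P070
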