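import Vale.Agent.P070.Defs
import Vale.Agent.P070.SpreadOrth

/-!
# P070, module SEP: vectors with small atoms when the eigenspaces have density `< 𝔠`
-/

open scoped ComplexOrder InnerProductSpace Cardinal

namespace Vale.Agent.P070

variable {H : Type*} [NormedAddCommGroup H] [InnerProductSpace ℂ H] [CompleteSpace H]

/-- `V` has density character smaller than the continuum. -/
def SmallDim {H : Type*} [NormedAddCommGroup H] [InnerProductSpace ℂ H]
    (V : Submodule ℂ H) : Prop :=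
  ∃ s : Set H, Cardinal.mk s < Cardinal.continuum ∧ (V : Set H) ⊆ closure s

/-- `R` contains a uniformly separated family of continuum many vectors. -/
def Big {H : Type*} [NormedAddCommGroup H] [InnerProductSpace ℂ H]
    (R : Submodule ℂ H) : Prop :=
  ∃ (e : (ℕ → Bool) → H) (c : ℝ), 0 < c ∧ (∀ p, e p ∈ R) ∧ ∀ p q, p ≠ q → c ≤ ‖e p - e q‖

omit [CompleteSpace H] in
theorem SEP_mono {V W : Submodule ℂ H} (h : V ≤ W) (hW : SmallDim W) : SmallDim V := by
  obtain ⟨s, hs, hc⟩ := hW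
  exact ⟨s, hs, fun x hx => hc (h hx)⟩

omit [CompleteSpace H] in
theorem SEP_span (x : H) : SmallDim (Submodule.span ℂ {x}) := by
  obtain ⟨t, htc, htd⟩ := TopologicalSpace.exists_countable_dense ℂ
  refine ⟨(fun c : ℂ => c • x) '' t, ?_, ?_⟩
  · exact lt_of_le_of_lt (Set.Countable.le_aleph0 (htc.image _)) Cardinal.aleph0_lt_continuum
  · intro y hy
    obtain ⟨c, rfl⟩ := Submodule.mem_span_singleton.1 hy
    have hcont : Continuous fun c : ℂ => c • x := by fun_prop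
    exact image_closure_subset_closure_image hcont ⟨c, by rw [htd.closure_eq]; trivial, rfl⟩

omit [CompleteSpace H] in
theorem SEP_sup {V W : Submodule ℂ H} (hV : SmallDim V) (hW : SmallDim W) :
    SmallDim (V ⊔ W) := by
  obtain ⟨s, hs, hsc⟩ := hV
  obtain ⟨t, ht, htc⟩ := hW
  refine ⟨(fun z : H × H => z.1 + z.2) '' (s ×ˢ t), ?_, ?_⟩
  · refine lt_of_le_of_lt Cardinal.mk_image_le ?_
    rw [Cardinal.mk_setProd]
    exact Cardinal.mul_lt_of_lt Cardinal.aleph0_le_continuum hs ht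
  · intro y hy
    obtain ⟨v, hv, w, hw, rfl⟩ := Submodule.mem_sup.1 hy
    have hcont : Continuous fun z : H × H => z.1 + z.2 := continuous_add
    refine image_closure_subset_closure_image hcont ⟨(v, w), ?_, rfl⟩
    rw [closure_prod_eq]
    exact ⟨hsc hv, htc hw⟩

omit [CompleteSpace H] in
theorem SEP_bot : SmallDim (⊥ : Submodule ℂ H) := by
  have := SEP_span (0 : H)
  rwa [Submodule.span_zero_singleton] at this

omit [CompleteSpace H] in
theorem SEP_finset {J : Type*} (V : J → Submodule ℂ H) (h : ∀ j, SmallDim (V j))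
    (S : Finset J) : SmallDim (⨆ j ∈ S, V j) := by
  classical
  induction S using Finset.induction_on with
  | empty => simpa using SEP_bot
  | insert a S _ ih =>
    rw [Finset.iSup_insert]
    exact SEP_sup (h a) ih

omit [CompleteSpace H] in
theorem SEP_closure {V : Submodule ℂ H} (h : SmallDim V) : SmallDim V.topologicalClosure := by
  obtain ⟨s, hs, hsc⟩ := h
  refine ⟨s, hs, ?_⟩
  rw [Submodule.topologicalClosure_coe]
  exact closure_minimal hsc isClosed_closure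

theorem SEP_vector {R W : Submodule ℂ H} (hR : Big R) (hW : SmallDim W) {η : ℝ} (hη : 0 < η) :
    ∃ y ∈ R, ‖y‖ = 1 ∧ ∀ w ∈ W, ‖⟪w, y⟫_ℂ‖ ≤ η * ‖w‖ := by
  obtain ⟨e, c, hc, heR, hsep⟩ := hR
  set K := W.topologicalClosure with hK
  have hcl : IsClosed (K : Set H) := W.isClosed_topologicalClosure
  have : CompleteSpace K := hcl.completeSpace_coe
  obtain ⟨s, hs, hsc⟩ := SEP_closure hW
  have hnear : ∀ p, ∃ t ∈ s, ‖K.starProjection (e p) - t‖ < η * c / 2 := by
    intro p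
    have h1 : K.starProjection (e p) ∈ closure s := hsc (K.starProjection_apply_mem (e p))
    rw [Metric.mem_closure_iff] at h1
    obtain ⟨t, ht, hd⟩ := h1 (η * c / 2) (by positivity)
    exact ⟨t, ht, by rwa [dist_eq_norm] at hd⟩
  choose t hts htn using hnear
  have hninj : ¬ Function.Injective fun p => (⟨t p, hts p⟩ : s) := by
    intro hinj
    have h1 := Cardinal.lift_mk_le_lift_mk_of_injective hinj
    have h2 : Cardinal.mk (ℕ → Bool) = Cardinal.continuum := by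
      rw [← Cardinal.two_power_aleph0]
      simp
    rw [h2, Cardinal.lift_continuum] at h1
    have h3 : Cardinal.lift.{0} (Cardinal.mk s) < Cardinal.continuum := by
      simpa using hs
    exact absurd h1 (not_le.2 h3)
  obtain ⟨p, q, hpq, hne⟩ : ∃ p q, t p = t q ∧ p ≠ q := by
    by_contra hcon
    push Not at hcon
    exact hninj fun p q hpq => hcon p q (congrArg Subtype.val hpq)
  have hd := hsep p q hne
  have hdpos : 0 < ‖e p - e q‖ := lt_of_lt_of_le hc hd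
  refine ⟨((‖e p - e q‖⁻¹ : ℝ) : ℂ) • (e p - e q),
    R.smul_mem _ (R.sub_mem (heR p) (heR q)), ?_, ?_⟩
  · rw [norm_smul, Complex.norm_real, Real.norm_of_nonneg (by positivity)]
    exact inv_mul_cancel₀ hdpos.ne'
  · intro w hw
    have hwK : w ∈ K := W.le_topologicalClosure hw
    have h1 : ‖K.starProjection (e p - e q)‖ ≤ η * c := by
      rw [map_sub]
      calc ‖K.starProjection (e p) - K.starProjection (e q)‖
          = ‖(K.starProjection (e p) - t p) - (K.starProjection (e q) - t q)‖ := by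
            rw [hpq]; congr 1; abel
        _ ≤ _ := norm_sub_le _ _
        _ ≤ η * c / 2 + η * c / 2 := add_le_add (htn p).le (htn q).le
        _ = η * c := by ring
    have h2 : ⟪w, e p - e q⟫_ℂ = ⟪w, K.starProjection (e p - e q)⟫_ℂ := by
      rw [← Submodule.inner_starProjection_left_eq_right,
        Submodule.starProjection_eq_self_iff.2 hwK]
    rw [inner_smul_right, norm_mul, Complex.norm_real, Real.norm_of_nonneg (by positivity), h2]
    calc ‖e p - e q‖⁻¹ * ‖⟪w, K.starProjection (e p - e q)⟫_ℂ‖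
        ≤ ‖e p - e q‖⁻¹ * (‖w‖ * (η * c)) := by
          gcongr
          exact (norm_inner_le_norm _ _).trans (by gcongr)
      _ ≤ ‖e p - e q‖⁻¹ * (‖w‖ * (η * ‖e p - e q‖)) := by gcongr
      _ = η * ‖w‖ := by field_simp

omit [CompleteSpace H] in
/-- approximate a vector by a finite sum -/
theorem SEP_tail {J : Type*} (V : J → Submodule ℂ H)
    (horth : ∀ i j, i ≠ j → ∀ v ∈ V i, ∀ w ∈ V j, ⟪v, w⟫_ℂ = 0)
    (hspan : (⨆ j, V j).topologicalClosure = ⊤) (x : H) {η : ℝ} (hη : 0 < η) :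
    ∃ S : Finset J, ∀ j, j ∉ S → ∀ v ∈ V j, ‖⟪v, x⟫_ℂ‖ ≤ η * ‖v‖ := by
  classical
  have hx : x ∈ (⨆ j, V j).topologicalClosure := by rw [hspan]; trivial
  rw [← SetLike.mem_coe, Submodule.topologicalClosure_coe, Metric.mem_closure_iff] at hx
  obtain ⟨y, hy, hd⟩ := hx η hη
  obtain ⟨S, hS⟩ := Submodule.exists_finset_of_mem_iSup V hy
  refine ⟨S, fun j hj v hv => ?_⟩
  have hvy : ⟪v, y⟫_ℂ = 0 := by
    have hle : (⨆ i ∈ S, V i) ≤ (Submodule.span ℂ {v})ᗮ := by
      refine iSup₂_le fun i hi w hw => ?_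
      rw [Submodule.mem_orthogonal_singleton_iff_inner_right]
      refine horth j i ?_ v hv w hw
      rintro rfl
      exact hj hi
    exact (Submodule.mem_orthogonal_singleton_iff_inner_right).1 (hle hS)
  have h1 : ⟪v, x⟫_ℂ = ⟪v, x - y⟫_ℂ := by rw [inner_sub_right, hvy, sub_zero]
  rw [h1]
  have h2 : ‖x - y‖ ≤ η := by rw [← dist_eq_norm]; exact hd.le
  calc _ ≤ ‖v‖ * ‖x - y‖ := norm_inner_le_norm _ _
    _ ≤ ‖v‖ * η := by gcongr
    _ = η * ‖v‖ := mul_comm _ _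

theorem SEP_rec {J : Type*} (V : J → Submodule ℂ H)
    (horth : ∀ i j, i ≠ j → ∀ v ∈ V i, ∀ w ∈ V j, ⟪v, w⟫_ℂ = 0)
    (hsm : ∀ j, SmallDim (V j)) (hspan : (⨆ j, V j).topologicalClosure = ⊤)
    (R : Submodule ℂ H) (hR : Big R) (N : ℕ) :
    ∀ η : ℝ, 0 < η → η ≤ 1 → ∃ x ∈ R, N * (1 - η) ≤ ‖x‖ ^ 2 ∧
      ∀ j, ∀ v ∈ V j, ‖⟪v, x⟫_ℂ‖ ≤ (1 + η) * ‖v‖ := by
  induction N with
  | zero =>
    intro η hη _
    refine ⟨0, R.zero_mem, by simp, fun j v _ => ?_⟩
    rw [inner_zero_right, norm_zero]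
    positivity
  | succ N ih =>
    intro η hη hη1
    obtain ⟨x, hxR, hx1, hx2⟩ := ih (η / 2) (by positivity) (by linarith)
    obtain ⟨S, hS⟩ := SEP_tail V horth hspan x (show 0 < η / 2 by positivity)
    have hW : SmallDim ((⨆ j ∈ S, V j) ⊔ Submodule.span ℂ {x}) :=
      SEP_sup (SEP_finset V hsm S) (SEP_span x)
    have hη' : 0 < η / (4 * (‖x‖ ^ 2 + 1)) := by positivity
    obtain ⟨y, hyR, hy1, hy2⟩ := SEP_vector hR hW hη'
    have hle1 : η / (4 * (‖x‖ ^ 2 + 1)) ≤ η / 2 := by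
      apply div_le_div_of_nonneg_left hη.le (by norm_num)
      nlinarith [sq_nonneg ‖x‖]
    refine ⟨x + y, R.add_mem hxR hyR, ?_, fun j v hv => ?_⟩
    · have hxy : ‖⟪x, y⟫_ℂ‖ ≤ η / 4 := by
        refine (hy2 x (Submodule.mem_sup_right (Submodule.mem_span_singleton_self x))).trans ?_
        rw [div_mul_eq_mul_div, div_le_div_iff₀ (by positivity) (by norm_num)]
        have : ‖x‖ ≤ ‖x‖ ^ 2 + 1 := by nlinarith [sq_nonneg (‖x‖ - 1)]
        nlinarith
      have h1 : -(η / 4) ≤ (⟪x, y⟫_ℂ).re := by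
        have := (abs_le.1 (Complex.abs_re_le_norm ⟪x, y⟫_ℂ)).1
        linarith
      rw [@norm_add_sq ℂ, hy1]
      simp only [RCLike.re_eq_complex_re]
      push_cast
      nlinarith
    · rw [inner_add_right]
      by_cases hj : j ∈ S
      · have hvW : v ∈ (⨆ j ∈ S, V j) ⊔ Submodule.span ℂ {x} :=
          Submodule.mem_sup_left (Submodule.mem_iSup_of_mem j (Submodule.mem_iSup_of_mem hj hv))
        calc _ ≤ ‖⟪v, x⟫_ℂ‖ + ‖⟪v, y⟫_ℂ‖ := norm_add_le _ _
          _ ≤ (1 + η / 2) * ‖v‖ + (η / 2) * ‖v‖ := by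
              refine add_le_add (hx2 j v hv) ((hy2 v hvW).trans ?_)
              gcongr
          _ = (1 + η) * ‖v‖ := by ring
      · calc _ ≤ ‖⟪v, x⟫_ℂ‖ + ‖⟪v, y⟫_ℂ‖ := norm_add_le _ _
          _ ≤ (η / 2) * ‖v‖ + ‖v‖ * 1 := by
              refine add_le_add (hS j hj v hv) ?_
              rw [← hy1]
              exact norm_inner_le_norm _ _
          _ ≤ (1 + η) * ‖v‖ := by nlinarith [norm_nonneg v]

theorem spread' {J : Type*} (V : J → Submodule ℂ H)
    (horth : ∀ i j, i ≠ j → ∀ v ∈ V i, ∀ w ∈ V j, ⟪v, w⟫_ℂ = 0)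
    (hsm : ∀ j, SmallDim (V j)) (hspan : (⨆ j, V j).topologicalClosure = ⊤)
    (R : Submodule ℂ H) (hR : Big R) {ε : ℝ} (hε : 0 < ε) :
    ∃ ξ ∈ R, ‖ξ‖ = 1 ∧ ∀ j, ∀ v ∈ V j, ‖⟪v, ξ⟫_ℂ‖ ^ 2 ≤ ε * ‖v‖ ^ 2 := by
  obtain ⟨N, hN⟩ := exists_nat_gt (9 / (2 * ε))
  have hN0 : (0 : ℝ) < N := lt_trans (by positivity) hN
  obtain ⟨x, hxR, hx1, hx2⟩ := SEP_rec V horth hsm hspan R hR N (1 / 2) (by norm_num)
    (by norm_num)
  have hxpos : 0 < ‖x‖ := by
    by_contra hcon
    have h0 : ‖x‖ = 0 := le_antisymm (not_lt.1 hcon) (norm_nonneg _)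
    rw [h0] at hx1
    nlinarith
  refine ⟨((‖x‖⁻¹ : ℝ) : ℂ) • x, R.smul_mem _ hxR, ?_, fun j v hv => ?_⟩
  · rw [norm_smul, Complex.norm_real, Real.norm_of_nonneg (by positivity)]
    exact inv_mul_cancel₀ hxpos.ne'
  · rw [inner_smul_right, norm_mul, Complex.norm_real, Real.norm_of_nonneg (by positivity),
      mul_pow]
    have h1 : ‖⟪v, x⟫_ℂ‖ ^ 2 ≤ ((1 + 1 / 2) * ‖v‖) ^ 2 := by
      have := hx2 j v hv
      gcongr
    have h2 : 9 / (2 * ε) * (1 / 2) ≤ ‖x‖ ^ 2 := by nlinarith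
    have h3 : 9 / 4 ≤ ε * ‖x‖ ^ 2 := by
      have h4 : ε * (9 / (2 * ε) * (1 / 2)) = 9 / 4 := by field_simp; norm_num
      rw [← h4]
      gcongr
    rw [inv_pow, inv_mul_le_iff₀ (by positivity)]
    nlinarith [sq_nonneg ‖v‖]

end Vale.Agent.P070
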