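import Vale.Agent.P070.Tree
import Vale.Agent.P070.Sep

/-!
# P070, module BIG (helper6): without finite rank operators every nonzero `π(A)`-range contains
`2^ℵ₀` uniformly separated vectors
-/

open scoped ComplexOrder InnerProductSpace

namespace Vale.Agent.P070

universe u
variable {A : Type u} [NonUnitalCStarAlgebra A]
variable {H : Type u} [NormedAddCommGroup H] [InnerProductSpace ℂ H] [CompleteSpace H]

/-- the tree below a given cap -/
theorem BIG_tree (hN : PropertyN A) {π : A →⋆ₙₐ[ℂ] (H →L[ℂ] H)}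
    (hπ : IsIrred π)
    (hnf : ∀ a, FiniteDimensional ℂ (LinearMap.range (π a : H →ₗ[ℂ] H)) → π a = 0)
    (c0 : CapData π) :
    ∃ v : (ℕ → Bool) → H, (∀ x, π c0.f (v x) = v x) ∧ Orthonormal ℂ v := by
  choose nxt hn1 hn2 using split_step hπ hnf
  -- the tree along a branch
  let seq : (ℕ → Bool) → ℕ → CapData π := fun x n => Nat.rec c0 (fun n c => nxt c (x n)) n
  have hseq : ∀ x n, seq x (n + 1) = nxt (seq x n) (x n) := fun x n => rfl
  have hagree : ∀ (x y : ℕ → Bool) (n : ℕ), (∀ m < n, x m = y m) → seq x n = seq y n := by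
    intro x y n
    induction n with
    | zero => intro _; rfl
    | succ n ih =>
      intro h
      rw [hseq, hseq, ih (fun m hm => h m (by omega)), h n (by omega)]
  have hbranch : ∀ x : ℕ → Bool, ∃ ζ : H, ‖ζ‖ = 1 ∧ ∀ n, π (seq x n).f ζ = ζ := by
    intro x
    exact nested hN hπ (fun n => (seq x n).f) (fun n => (seq x n).g)
      (fun n => ⟨(seq x n).hf, (seq x n).h0, (seq x n).h1⟩)
      (fun n => by
        show (seq x n).f * (seq x (n + 1)).f = (seq x (n + 1)).f
        rw [hseq]; exact hn1 (seq x n) (x n))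
      (fun n => ⟨(seq x n).hfg, (seq x n).hg0⟩)
  choose v hv1 hv2 using hbranch
  refine ⟨v, fun x => hv2 x 0, hv1, ?_⟩
  -- orthogonality
  have key : ∀ x y : ℕ → Bool, ∀ n, (∀ m < n, x m = y m) → x n = true → y n = false →
      ⟪v x, v y⟫_ℂ = 0 := by
    intro x y n hag hx hy
    have e1 : seq x (n + 1) = nxt (seq x n) true := by rw [hseq, hx]
    have e2 : seq y (n + 1) = nxt (seq x n) false := by rw [hseq, hy, hagree x y n hag]
    have h1 := hv2 x (n + 1)
    have h2 := hv2 y (n + 1)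
    rw [← h1, ← h2, isSelfAdjoint_inner ((seq x (n + 1)).hf.map π),
      ← mul_apply_eq_comp, ← map_mul, e1, e2, hn2, map_zero]
    simp
  intro x y hxy
  have hex : ∃ n, x n ≠ y n := by
    by_contra hcon
    push Not at hcon
    exact hxy (funext hcon)
  classical
  have hmin : ∀ m < Nat.find hex, x m = y m := fun m hm => by
    have := Nat.find_min hex hm
    push Not at this
    exact this
  have hne := Nat.find_spec hex
  cases hx : x (Nat.find hex) with
  | true =>
    have hy : y (Nat.find hex) = false := by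
      cases hy : y (Nat.find hex) with
      | true => exact absurd (hx.trans hy.symm) hne
      | false => rfl
    exact key x y _ hmin hx hy
  | false =>
    have hy : y (Nat.find hex) = true := by
      cases hy : y (Nat.find hex) with
      | true => rfl
      | false => exact absurd (hx.trans hy.symm) hne
    have := key y x _ (fun m hm => (hmin m hm).symm) hy hx
    rw [← inner_conj_symm, this, map_zero]

theorem big_range (hN : PropertyN A) {π : A →⋆ₙₐ[ℂ] (H →L[ℂ] H)}
    (hπ : IsIrred π)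
    (hnf : ∀ a, FiniteDimensional ℂ (LinearMap.range (π a : H →ₗ[ℂ] H)) → π a = 0)
    (g : A) (hg : IsSelfAdjoint g) (hg0 : π g ≠ 0) :
    Big (LinearMap.range (π g : H →ₗ[ℂ] H)) := by
  obtain ⟨η, hη⟩ : ∃ η, π g η ≠ 0 := by
    by_contra hcon
    push Not at hcon
    exact hg0 (ContinuousLinearMap.ext fun x => by simpa using hcon x)
  have hη0 : η ≠ 0 := by
    rintro rfl
    exact hη (map_zero _)
  have hpos : 0 < ‖η‖ := norm_pos_iff.mpr hη0
  set ζ : H := ((‖η‖⁻¹ : ℝ) : ℂ) • η with hζ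
  have hζ1 : ‖ζ‖ = 1 := by
    rw [hζ, norm_smul, Complex.norm_real, Real.norm_eq_abs, abs_of_pos (inv_pos.mpr hpos)]
    exact inv_mul_cancel₀ hpos.ne'
  have haζ : π g ζ ≠ 0 := by
    rw [hζ, map_smul]
    exact smul_ne_zero (by exact_mod_cast (inv_pos.mpr hpos).ne') hη
  set r : ℝ := ‖π g ζ‖ ^ 2 with hr
  have hrpos : 0 < r := by
    have := norm_pos_iff.mpr haζ
    positivity
  have hgg : ∀ y : H, (⟪y, π (g * g) y⟫_ℂ).re = ‖π g y‖ ^ 2 := by
    intro y
    rw [map_mul, mul_apply_eq_comp, ← isSelfAdjoint_inner (hg.map π),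
      inner_self_eq_norm_sq_to_K]
    have h7 : (((‖π g y‖ : ℝ) : ℂ) ^ 2).re = ‖π g y‖ ^ 2 := by
      rw [← Complex.ofReal_pow, Complex.ofReal_re]
    exact h7
  have hsa : IsSelfAdjoint (g * g) := by
    rw [IsSelfAdjoint, star_mul, hg.star_eq]
  obtain ⟨f', g', hf, hg', h0, h1, hfg, -, hg0', hlow⟩ := cut' π (g * g)
    hsa (r₁ := r / 3) (r₂ := r / 2) (r₃ := r) (by positivity)
    (by linarith) (by linarith) hζ1 (hgg ζ).ge
  obtain ⟨v, hv1, hv2, hv3⟩ := BIG_tree hN hπ hnf ⟨f', g', hf, hg', h0, h1, hfg, hg0'⟩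
  refine ⟨fun x => π g (v x), Real.sqrt (r / 3), Real.sqrt_pos.2 (by positivity),
    fun x => ⟨v x, rfl⟩, fun x y hxy => ?_⟩
  have h2 : ‖v x - v y‖ ^ 2 = 2 := by
    rw [@norm_sub_sq ℂ, hv3 hxy, hv2 x, hv2 y]
    norm_num
  have h3 : π f' (v x - v y) = v x - v y := by
    rw [map_sub]
    have e1 : π f' (v x) = v x := hv1 x
    have e2 : π f' (v y) = v y := hv1 y
    rw [e1, e2]
  have h4 := hlow (v x - v y)
  rw [h3, hgg, h2] at h4
  rw [← map_sub]
  apply Real.sqrt_le_iff.2 ⟨norm_nonneg _, _⟩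
  linarith

end Vale.Agent.P070
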