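import Mathlib

open scoped ComplexOrder InnerProductSpace

namespace Vale.Agent.P070

variable {H : Type*} [NormedAddCommGroup H] [InnerProductSpace ℂ H] [CompleteSpace H]

theorem cap_sqrt {T : H →L[ℂ] H} (h0 : 0 ≤ T) (h1 : T ≤ 1) (ζ : H) :
    ‖T ζ‖ ^ 2 ≤ (⟪ζ, T ζ⟫_ℂ).re ∧ (⟪ζ, T ζ⟫_ℂ).re ≤ ‖ζ‖ ^ 2 := by
  obtain ⟨S, hS⟩ : ∃ S : H →L[ℂ] H, S = CFC.sqrt T := ⟨_, rfl⟩
  have hS0 : 0 ≤ S := hS ▸ CFC.sqrt_nonneg T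
  have hSS : S * S = T := by rw [hS]; exact CFC.sqrt_mul_sqrt_self T h0
  have hsa : star S = S := (IsSelfAdjoint.of_nonneg hS0).star_eq
  have hT1 : ‖T‖ ≤ 1 := (CStarAlgebra.norm_le_one_iff_of_nonneg T h0).mpr h1
  have hS1 : ‖S‖ ≤ 1 := by
    have h2 : ‖S‖ * ‖S‖ = ‖T‖ := by
      rw [← hSS, ← CStarRing.norm_star_mul_self, hsa]
    by_contra hcon
    push Not at hcon
    nlinarith [norm_nonneg S]
  have hle : ∀ v : H, ‖S v‖ ≤ ‖v‖ := fun v => by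
    refine (S.le_opNorm v).trans ?_
    exact mul_le_of_le_one_left (norm_nonneg _) hS1
  have hT : T ζ = S (S ζ) := by rw [← hSS]; rfl
  have hin : (⟪ζ, T ζ⟫_ℂ).re = ‖S ζ‖ ^ 2 := by
    have h3 : ⟪ζ, T ζ⟫_ℂ = ⟪S ζ, S ζ⟫_ℂ := by
      rw [hT]
      have := ContinuousLinearMap.adjoint_inner_right S ζ (S ζ)
      rw [← ContinuousLinearMap.star_eq_adjoint, hsa] at this
      exact this
    rw [h3, inner_self_eq_norm_sq_to_K]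
    norm_cast
  rw [hin, hT]
  exact ⟨pow_le_pow_left₀ (norm_nonneg _) (hle _) 2, pow_le_pow_left₀ (norm_nonneg _) (hle _) 2⟩

/-- CAPH -/
theorem cap_near {T : H →L[ℂ] H} (h0 : 0 ≤ T) (h1 : T ≤ 1) (ζ : H) :
    ‖T ζ‖ ^ 2 ≤ (⟪ζ, T ζ⟫_ℂ).re ∧ (⟪ζ, T ζ⟫_ℂ).re ≤ ‖ζ‖ ^ 2 ∧
      ‖T ζ - ζ‖ ^ 2 ≤ ‖ζ‖ ^ 2 - (⟪ζ, T ζ⟫_ℂ).re ∧ ‖T ζ‖ ≤ ‖ζ‖ := by
  obtain ⟨a, b⟩ := cap_sqrt h0 h1 ζ
  obtain ⟨c, -⟩ := cap_sqrt (T := 1 - T) (sub_nonneg.mpr h1) (sub_le_self _ h0) ζ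
  refine ⟨a, b, ?_, ?_⟩
  · have e1 : (1 - T) ζ = -(T ζ - ζ) := by
      rw [sub_apply, neg_sub]
      rfl
    rw [e1, norm_neg, inner_neg_right, inner_sub_right, inner_self_eq_norm_sq_to_K] at c
    refine c.trans (le_of_eq ?_)
    rw [Complex.neg_re, Complex.sub_re, neg_sub]
    norm_cast
  · exact (pow_le_pow_iff_left₀ (norm_nonneg _) (norm_nonneg _) two_ne_zero).mp (a.trans b)

/-- CAPH -/
theorem cap_diff {x : H →L[ℂ] H} (h0 : 0 ≤ x) (h1 : x ≤ 1) {v w : H} (hv : ‖v‖ ≤ 1)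
    (hw : ‖w‖ ≤ 1) : (⟪v, x v⟫_ℂ).re ≤ (⟪w, x w⟫_ℂ).re + 2 * ‖v - w‖ := by
  have hle : ∀ u : H, ‖x u‖ ≤ ‖u‖ := fun u => (cap_near h0 h1 u).2.2.2
  have e : ⟪v, x v⟫_ℂ = ⟪w, x w⟫_ℂ + (⟪v - w, x v⟫_ℂ + ⟪w, x (v - w)⟫_ℂ) := by
    rw [map_sub, inner_sub_left, inner_sub_right]
    ring
  have b1 : (⟪v - w, x v⟫_ℂ).re ≤ ‖v - w‖ := by
    refine (Complex.re_le_norm _).trans ((norm_inner_le_norm _ _).trans ?_)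
    exact mul_le_of_le_one_right (norm_nonneg _) ((hle v).trans hv)
  have b2 : (⟪w, x (v - w)⟫_ℂ).re ≤ ‖v - w‖ := by
    refine (Complex.re_le_norm _).trans ((norm_inner_le_norm _ _).trans ?_)
    calc ‖w‖ * ‖x (v - w)‖ ≤ 1 * ‖v - w‖ :=
          mul_le_mul hw (hle _) (norm_nonneg _) zero_le_one
      _ = ‖v - w‖ := one_mul _
  rw [e, Complex.add_re, Complex.add_re]
  linarith

end Vale.Agent.P070
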