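import Vale.Agent.P070.Defs

/-!
# P070, module NONDEG: vector functionals are quasi-states; irreducible representations are
nondegenerate

`nondeg`: the closed span `K` of all `π a x` is invariant and nonzero, so `K = ⊤`; for
`ξ ∈ K` and an approximate unit `e` (Mathlib: `CStarAlgebra.approximateUnit`,
`CStarAlgebra.increasingApproximateUnit`), `π e ξ → ξ`.
`orbit_dense`: the closure of `{π a ξ}` is invariant and contains `ξ ≠ 0` (by `nondeg`).
-/

open scoped ComplexOrder InnerProductSpace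

namespace Vale.Agent.P070

variable {A : Type*} [NonUnitalCStarAlgebra A]
variable {H : Type*} [NormedAddCommGroup H] [InnerProductSpace ℂ H] [CompleteSpace H]

theorem vec_mem (π : A →⋆ₙₐ[ℂ] (H →L[ℂ] H)) {ξ : H} (hξ : ‖ξ‖ ≤ 1) : vec π ξ ∈ Q A := by
  refine ⟨fun a => ?_, fun a => ?_⟩
  · rw [vec_apply, map_mul, map_star, ContinuousLinearMap.star_eq_adjoint,
      mul_apply_eq_comp, ContinuousLinearMap.adjoint_inner_right,
      inner_self_eq_norm_sq_to_K]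
    have h : (0 : ℂ) ≤ ((‖π a ξ‖ ^ 2 : ℝ) : ℂ) := Complex.zero_le_real.2 (by positivity)
    simp
  · rw [vec_apply]
    calc ‖⟪ξ, π a ξ⟫_ℂ‖ ≤ ‖ξ‖ * ‖π a ξ‖ := norm_inner_le_norm _ _
      _ ≤ 1 * (‖a‖ * 1) := by
          refine mul_le_mul hξ ?_ (norm_nonneg _) zero_le_one
          refine ((π a).le_opNorm ξ).trans ?_
          exact mul_le_mul (NonUnitalStarAlgHom.norm_apply_le π a) hξ (norm_nonneg _) (norm_nonneg _)
      _ = ‖a‖ := by ring

theorem NONDEG_closure {π : A →⋆ₙₐ[ℂ] (H →L[ℂ] H)} (K : Submodule ℂ H)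
    (h : ∀ a, ∀ x ∈ K, π a x ∈ K) :
    ∀ a, ∀ x ∈ K.topologicalClosure, π a x ∈ K.topologicalClosure := by
  intro a x hx
  rw [← SetLike.mem_coe, Submodule.topologicalClosure_coe] at hx ⊢
  exact map_mem_closure (π a).continuous hx fun y hy => h a y hy

/-- the span of all `π a x` -/
def NONDEG_K (π : A →⋆ₙₐ[ℂ] (H →L[ℂ] H)) : Submodule ℂ H :=
  Submodule.span ℂ {y | ∃ a x, y = π a x}

theorem NONDEG_inv (π : A →⋆ₙₐ[ℂ] (H →L[ℂ] H)) :
    ∀ a, ∀ x ∈ NONDEG_K π, π a x ∈ NONDEG_K π := fun a x _ =>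
  Submodule.subset_span ⟨a, x, rfl⟩

theorem NONDEG_top {π : A →⋆ₙₐ[ℂ] (H →L[ℂ] H)} (hπ : IsIrred π) :
    (NONDEG_K π).topologicalClosure = ⊤ := by
  rcases hπ.irred _ (NONDEG_K π).isClosed_topologicalClosure
    (NONDEG_closure _ (NONDEG_inv π)) with h | h
  · exfalso
    obtain ⟨a, ha⟩ := hπ.ne_zero
    refine ha ?_
    ext x
    have hm : π a x ∈ (NONDEG_K π).topologicalClosure :=
      Submodule.le_topologicalClosure _ (Submodule.subset_span ⟨a, x, rfl⟩)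
    rw [h, Submodule.mem_bot] at hm
    rw [hm]
    rfl
  · exact h

theorem nondeg {π : A →⋆ₙₐ[ℂ] (H →L[ℂ] H)} (hπ : IsIrred π) (ξ : H) {ε : ℝ} (hε : 0 < ε) :
    ∃ e : A, IsSelfAdjoint e ∧ ‖e‖ ≤ 1 ∧ ‖π e ξ - ξ‖ < ε := by
  let _ := CStarAlgebra.spectralOrder A
  have _ := CStarAlgebra.spectralOrderedRing A
  have hl := CStarAlgebra.increasingApproximateUnit (A := A)
  have hspan : ∀ η ∈ NONDEG_K π,
      Filter.Tendsto (fun e => π e η) (CStarAlgebra.approximateUnit A) (nhds η) := by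
    intro η hη
    unfold NONDEG_K at hη
    induction hη using Submodule.span_induction with
    | mem y hy =>
      obtain ⟨a, x, rfl⟩ := hy
      have hc : Continuous fun b : A => π b x := by
        refine continuous_iff_continuousAt.2 fun b => ?_
        have hc1 : Continuous π := AddMonoidHomClass.continuous_of_bound π 1 fun b => by
          rw [one_mul]
          exact NonUnitalStarAlgHom.norm_apply_le π b
        exact ((ContinuousLinearMap.apply ℂ H x).continuous.comp hc1).continuousAt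
      have h2 : Filter.Tendsto (fun e => π (e * a) x) (CStarAlgebra.approximateUnit A)
          (nhds (π a x)) := (hc.tendsto a).comp (hl.tendsto_mul_right a)
      refine h2.congr fun e => ?_
      rw [map_mul]
      rfl
    | zero =>
      simp only [map_zero]
      exact tendsto_const_nhds
    | add x y _ _ hx hy =>
      simp only [map_add]
      exact hx.add hy
    | smul c x _ hx =>
      simp only [map_smul]
      exact hx.const_smul c
  have hmem : ξ ∈ (NONDEG_K π).topologicalClosure := by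
    rw [NONDEG_top hπ]
    trivial
  rw [← SetLike.mem_coe, Submodule.topologicalClosure_coe, Metric.mem_closure_iff] at hmem
  obtain ⟨η, hη, hd⟩ := hmem (ε / 3) (by linarith)
  have h1 : ∀ᶠ e in CStarAlgebra.approximateUnit A, ‖π e η - η‖ < ε / 3 := by
    have := (Metric.tendsto_nhds.1 (hspan η hη)) (ε / 3) (by linarith)
    filter_upwards [this] with e he
    rwa [dist_eq_norm] at he
  have h2 := hl.eventually_nonneg
  have h3 := hl.eventually_norm
  have _ := hl.neBot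
  obtain ⟨e, ⟨he1, he2⟩, he3⟩ := ((h1.and h2).and h3).exists
  refine ⟨e, he2.isSelfAdjoint, he3, ?_⟩
  have hd' : ‖ξ - η‖ < ε / 3 := by rwa [dist_eq_norm] at hd
  have h4 : ‖π e (ξ - η)‖ ≤ ‖ξ - η‖ := by
    refine ((π e).le_opNorm _).trans ?_
    have h5 := (NonUnitalStarAlgHom.norm_apply_le π e).trans he3
    exact mul_le_of_le_one_left (norm_nonneg _) h5
  have e1 : π e ξ - ξ = π e (ξ - η) + (π e η - η) - (ξ - η) := by
    rw [map_sub]
    abel
  rw [e1]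
  calc ‖π e (ξ - η) + (π e η - η) - (ξ - η)‖
      ≤ ‖π e (ξ - η) + (π e η - η)‖ + ‖ξ - η‖ := norm_sub_le _ _
    _ ≤ ‖π e (ξ - η)‖ + ‖π e η - η‖ + ‖ξ - η‖ := by gcongr; exact norm_add_le _ _
    _ < ε := by linarith

/-- every nonzero vector is cyclic -/
theorem orbit_dense {π : A →⋆ₙₐ[ℂ] (H →L[ℂ] H)} (hπ : IsIrred π) {ξ : H} (hξ : ξ ≠ 0)
    (η : H) {ε : ℝ} (hε : 0 < ε) : ∃ a : A, ‖π a ξ - η‖ < ε := by
  let K : Submodule ℂ H :=
    { carrier := {y | ∃ a, y = π a ξ}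
      add_mem' := by
        rintro x y ⟨a, rfl⟩ ⟨b, rfl⟩
        exact ⟨a + b, by rw [map_add]; rfl⟩
      zero_mem' := ⟨0, by rw [map_zero]; rfl⟩
      smul_mem' := by
        rintro c x ⟨a, rfl⟩
        exact ⟨c • a, by rw [map_smul]; rfl⟩ }
  have hinv : ∀ a, ∀ x ∈ K, π a x ∈ K := by
    rintro a x ⟨b, rfl⟩
    exact ⟨a * b, by rw [map_mul]; rfl⟩
  have hcl : ∀ y : H, y ∈ K.topologicalClosure ↔ ∀ ε > 0, ∃ a : A, ‖π a ξ - y‖ < ε := by
    intro y
    rw [← SetLike.mem_coe, Submodule.topologicalClosure_coe, Metric.mem_closure_iff]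
    constructor
    · intro h ε hε
      obtain ⟨z, ⟨a, rfl⟩, hz⟩ := h ε hε
      exact ⟨a, by rwa [dist_comm, dist_eq_norm] at hz⟩
    · intro h ε hε
      obtain ⟨a, ha⟩ := h ε hε
      exact ⟨π a ξ, ⟨a, rfl⟩, by rwa [dist_comm, dist_eq_norm]⟩
  rcases hπ.irred _ K.isClosed_topologicalClosure (NONDEG_closure _ hinv) with h | h
  · exfalso
    refine hξ ?_
    have hm : ξ ∈ K.topologicalClosure := by
      rw [hcl]
      intro ε hε
      obtain ⟨e, _, _, he⟩ := nondeg hπ ξ hε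
      exact ⟨e, he⟩
    rwa [h, Submodule.mem_bot] at hm
  · have hm : η ∈ K.topologicalClosure := by
      rw [h]
      trivial
    exact (hcl η).1 hm ε hε

/-- `‖vec π ξ‖ = ‖ξ‖²` for irreducible `π`. -/
theorem vec_norm {π : A →⋆ₙₐ[ℂ] (H →L[ℂ] H)} (hπ : IsIrred π) (ξ : H) {ε : ℝ} (hε : 0 < ε) :
    ∃ e : A, ‖e‖ ≤ 1 ∧ ‖ξ‖ ^ 2 - ε < (vec π ξ e).re := by
  obtain ⟨e, _, he, h⟩ := nondeg hπ ξ (ε := ε / (‖ξ‖ + 1)) (by positivity)
  refine ⟨e, he, ?_⟩
  rw [vec_apply]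
  have e1 : ⟪ξ, π e ξ⟫_ℂ = ⟪ξ, ξ⟫_ℂ + ⟪ξ, π e ξ - ξ⟫_ℂ := by
    rw [inner_sub_right]
    ring
  have h1 : (⟪ξ, ξ⟫_ℂ).re = ‖ξ‖ ^ 2 := by
    have := inner_self_eq_norm_sq (𝕜 := ℂ) ξ
    simpa using this
  have h2 : |(⟪ξ, π e ξ - ξ⟫_ℂ).re| ≤ ‖ξ‖ * ‖π e ξ - ξ‖ :=
    (Complex.abs_re_le_norm _).trans (norm_inner_le_norm _ _)
  have h3 := (abs_le.1 h2).1
  have h4 : ‖ξ‖ * ‖π e ξ - ξ‖ ≤ ‖ξ‖ * (ε / (‖ξ‖ + 1)) := mul_le_mul_of_nonneg_left h.le (norm_nonneg _)
  have h5 : ‖ξ‖ * (ε / (‖ξ‖ + 1)) < ε := by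
    rw [mul_div_assoc', div_lt_iff₀ (by positivity)]
    nlinarith
  rw [e1, Complex.add_re, h1]
  linarith

end Vale.Agent.P070
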