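import Vale.Agent.P070.Slice
import Vale.Agent.P070.Cut
import Vale.Agent.P070.VecExt
import Vale.Agent.P070.Nondeg
import Vale.Agent.P070.CapH

/-!
# P070, modules CAPH (two Hilbert space inequalities) and CAPA (slice and cut)
-/

open scoped ComplexOrder InnerProductSpace

namespace Vale.Agent.P070

universe u
variable {A : Type u} [NonUnitalCStarAlgebra A]
variable {H : Type u} [NormedAddCommGroup H] [InnerProductSpace ℂ H] [CompleteSpace H]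

theorem CAPA_convQ : Convex ℝ (Q A) := by
  intro φ hφ ψ hψ s t hs ht hst
  refine ⟨fun a => ?_, fun a => ?_⟩
  · have h1 := hφ.1 a
    have h2 := hψ.1 a
    have e : (s • φ + t • ψ) (star a * a) = (s : ℂ) * φ (star a * a) + (t : ℂ) * ψ (star a * a) := by
      change s • φ (star a * a) + t • ψ (star a * a) = _
      rw [Complex.real_smul, Complex.real_smul]
    rw [e]
    have hs' : (0 : ℂ) ≤ s := by exact_mod_cast hs
    have ht' : (0 : ℂ) ≤ t := by exact_mod_cast ht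
    exact add_nonneg (mul_nonneg hs' h1) (mul_nonneg ht' h2)
  · have h1 := hφ.2 a
    have h2 := hψ.2 a
    have e : (s • φ + t • ψ) a = (s : ℂ) * φ a + (t : ℂ) * ψ a := by
      change s • φ a + t • ψ a = _
      rw [Complex.real_smul, Complex.real_smul]
    rw [e]
    calc ‖(s : ℂ) * φ a + (t : ℂ) * ψ a‖ ≤ ‖(s : ℂ) * φ a‖ + ‖(t : ℂ) * ψ a‖ := norm_add_le _ _
      _ = s * ‖φ a‖ + t * ‖ψ a‖ := by
          rw [norm_mul, norm_mul, Complex.norm_real, Complex.norm_real, Real.norm_eq_abs,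
            Real.norm_eq_abs, abs_of_nonneg hs, abs_of_nonneg ht]
      _ ≤ s * ‖a‖ + t * ‖a‖ := by gcongr
      _ = ‖a‖ := by rw [← add_mul, hst, one_mul]

theorem CAPA_scale (π : A →⋆ₙₐ[ℂ] (H →L[ℂ] H)) (w : H) (r : ℝ) (x : A) :
    (vec π ((r : ℂ) • w) x).re = r ^ 2 * (⟪w, π x w⟫_ℂ).re := by
  rw [vec_apply, map_smul, inner_smul_left, inner_smul_right, Complex.conj_ofReal, ← mul_assoc,
    ← Complex.ofReal_mul, Complex.re_ofReal_mul]
  ring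

/-- CAPA: in `Q A` the closed convex sets `C₀ = {φ | (φ e).re ≤ 1 - 2 δ'}`,
`C_i = {φ | c ≤ (φ (y i)).re}` (intersected with `Q A`) do not contain `vec π ξ` (`vec_extreme`,
`slice`): `a`, `t < ⟪ξ, π a ξ⟫`, `0 ≤ t` because `0 ∈ C₀`; `cut'` for `k = a`, `ζ₀ = ξ`,
`t < r₁ < r₂ < r₃ = ⟪ξ, π a ξ⟫`; every normalised `π b ζ ≠ 0` gives a vector state outside all `C`. -/
theorem cap_a {π : A →⋆ₙₐ[ℂ] (H →L[ℂ] H)} (hπ : IsIrred π) {ξ : H} (hξ : ‖ξ‖ = 1) (e : A)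
    {ι : Type} [Finite ι] (y : ι → A) {δ' c : ℝ} (hδ' : 0 < δ') (hδ1 : 2 * δ' ≤ 1)
    (he : 1 - 2 * δ' < (⟪ξ, π e ξ⟫_ℂ).re) (hy : ∀ i, (⟪ξ, π (y i) ξ⟫_ℂ).re < c) :
    ∃ b b₁ : A, IsSelfAdjoint b ∧ 0 ≤ π b ∧ π b ≤ 1 ∧ b * b₁ = b₁ ∧ π b₁ ≠ 0 ∧
      ∀ ζ : H, (1 - 2 * δ') * ‖π b ζ‖ ^ 2 ≤ (⟪π b ζ, π e (π b ζ)⟫_ℂ).re ∧
        ∀ i, (⟪π b ζ, π (y i) (π b ζ)⟫_ℂ).re ≤ c * ‖π b ζ‖ ^ 2 := by
  let C : Option ι → Set (WeakDual ℂ A) := fun o => match o with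
    | none => {φ | φ ∈ Q A ∧ (φ e).re ≤ 1 - 2 * δ'}
    | some i => {φ | φ ∈ Q A ∧ c ≤ (φ (y i)).re}
  have hcont : ∀ x : A, Continuous fun φ : WeakDual ℂ A => (φ x).re := fun x =>
    Complex.continuous_re.comp (WeakDual.eval_continuous x)
  have hlin : ∀ (x : A) (φ ψ : WeakDual ℂ A) (s t : ℝ),
      ((s • φ + t • ψ) x).re = s * (φ x).re + t * (ψ x).re := by
    intro x φ ψ s t
    have e : (s • φ + t • ψ) x = (s : ℂ) * φ x + (t : ℂ) * ψ x := by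
      change s • φ x + t • ψ x = _
      rw [Complex.real_smul, Complex.real_smul]
    rw [e, Complex.add_re, Complex.re_ofReal_mul, Complex.re_ofReal_mul]
  have hQc : IsClosed (Q A) := Q_isCompact.isClosed
  have hconv : ∀ o, Convex ℝ (C o) := by
    rintro (_ | i) φ ⟨h1, h2⟩ ψ ⟨h3, h4⟩ s t hs ht hst
    · refine ⟨CAPA_convQ h1 h3 hs ht hst, ?_⟩
      rw [hlin]
      calc s * (φ e).re + t * (ψ e).re ≤ s * (1 - 2 * δ') + t * (1 - 2 * δ') := by gcongr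
        _ = 1 - 2 * δ' := by rw [← add_mul, hst, one_mul]
    · refine ⟨CAPA_convQ h1 h3 hs ht hst, ?_⟩
      rw [hlin]
      calc c = s * c + t * c := by rw [← add_mul, hst, one_mul]
        _ ≤ s * (φ (y i)).re + t * (ψ (y i)).re := by gcongr
  have hcl : ∀ o, IsClosed (C o) := by
    rintro (_ | i)
    · exact hQc.inter (isClosed_le (hcont e) continuous_const)
    · exact hQc.inter (isClosed_le continuous_const (hcont (y i)))
  have hsub : ∀ o, C o ⊆ Q A := by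
    rintro (_ | i) φ h
    · exact h.1
    · exact h.1
  have hn : ∀ o, vec π ξ ∉ C o := by
    rintro (_ | i) h
    · exact absurd h.2 (not_le.2 he)
    · exact absurd h.2 (not_le.2 (hy i))
  obtain ⟨a, ha, t, ht, hC⟩ := slice (vec_extreme hπ hξ) C hconv hcl hsub hn
  have h0t : 0 ≤ t := by
    have h := hC none 0 ⟨⟨fun a => le_refl (0 : ℂ), fun a => by
      change ‖(0 : ℂ)‖ ≤ ‖a‖
      rw [norm_zero]; exact norm_nonneg a⟩, by
      change (0 : ℂ).re ≤ 1 - 2 * δ'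
      rw [Complex.zero_re]; linarith⟩
    exact h
  rw [vec_apply] at ht
  obtain ⟨b, b₁, h1, h2, h3, h4, h5, h6, h7, h8⟩ := cut' π a ha
    (r₁ := t + ((⟪ξ, π a ξ⟫_ℂ).re - t) / 3) (r₂ := t + 2 * ((⟪ξ, π a ξ⟫_ℂ).re - t) / 3)
    (r₃ := (⟪ξ, π a ξ⟫_ℂ).re) (by linarith) (by linarith) (by linarith) hξ le_rfl
  refine ⟨b, b₁, h1, h3, h4, h5, h7, fun ζ => ?_⟩
  by_cases hw : π b ζ = 0
  · rw [hw]
    simp
  · have hw0 : 0 < ‖π b ζ‖ := norm_pos_iff.2 hw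
    set w := π b ζ with hwd
    have hr := h8 ζ
    rw [← hwd] at hr
    have hη : ‖((‖w‖⁻¹ : ℝ) : ℂ) • w‖ ≤ 1 := by
      rw [norm_smul, Complex.norm_real, Real.norm_eq_abs, abs_of_pos (inv_pos.2 hw0),
        inv_mul_cancel₀ hw0.ne']
    have hQ := vec_mem π hη
    have hgt : t < (vec π (((‖w‖⁻¹ : ℝ) : ℂ) • w) a).re := by
      rw [CAPA_scale]
      have h9 : (‖w‖⁻¹ : ℝ) ^ 2 * ((t + ((⟪ξ, π a ξ⟫_ℂ).re - t) / 3) * ‖w‖ ^ 2) ≤
          (‖w‖⁻¹ : ℝ) ^ 2 * (⟪w, π a w⟫_ℂ).re := mul_le_mul_of_nonneg_left hr (by positivity)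
      have h10 : (‖w‖⁻¹ : ℝ) ^ 2 * ((t + ((⟪ξ, π a ξ⟫_ℂ).re - t) / 3) * ‖w‖ ^ 2) =
          t + ((⟪ξ, π a ξ⟫_ℂ).re - t) / 3 := by
        field_simp
      rw [h10] at h9
      linarith
    have key : ∀ x : A, (⟪w, π x w⟫_ℂ).re = ‖w‖ ^ 2 * (vec π (((‖w‖⁻¹ : ℝ) : ℂ) • w) x).re := by
      intro x
      rw [CAPA_scale]
      field_simp
    refine ⟨?_, fun i => ?_⟩
    · rw [key e, mul_comm]
      refine mul_le_mul_of_nonneg_left ?_ (by positivity)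
      by_contra hcon
      exact absurd (hC none _ ⟨hQ, (not_le.1 hcon).le⟩) (not_le.2 hgt)
    · rw [key (y i), mul_comm c]
      refine mul_le_mul_of_nonneg_left ?_ (by positivity)
      by_contra hcon
      exact absurd (hC (some i) _ ⟨hQ, (not_le.1 hcon).le⟩) (not_le.2 hgt)

end Vale.Agent.P070
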