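import Vale.Agent.P070.RegDefs

/-!
# P070: characters of a commutative subalgebra (no uniqueness of the extension assumed)
-/

open scoped ComplexOrder InnerProductSpace

namespace Vale.Agent.P070

universe u
variable {A : Type u} [NonUnitalCStarAlgebra A]

/-- `χ` restricted to `D` is a character (a nonzero complex homomorphism) of `D`. -/
structure IsChar (D : NonUnitalStarSubalgebra ℂ A) (χ : A → ℂ) : Prop where
  add : ∀ x ∈ D, ∀ y ∈ D, χ (x + y) = χ x + χ y
  smul : ∀ (c : ℂ), ∀ x ∈ D, χ (c • x) = c * χ x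
  mul : ∀ x ∈ D, ∀ y ∈ D, χ (x * y) = χ x * χ y
  ne : ∃ x ∈ D, χ x ≠ 0

theorem UniqueChar.isChar {D : NonUnitalStarSubalgebra ℂ A} {χ : A → ℂ} (h : UniqueChar D χ) :
    IsChar D χ := ⟨h.add, h.smul, h.mul, h.ne⟩

end Vale.Agent.P070
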