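import Vale.Agent.P070.CharDefs

/-!
# P070: a nonzero closed commutative subalgebra has a character
-/

open scoped ComplexOrder InnerProductSpace

namespace Vale.Agent.P070

universe u
variable {A : Type u} [NonUnitalCStarAlgebra A]

theorem exists_char (D : NonUnitalStarSubalgebra ℂ A) (hcl : IsClosed (D : Set A))
    (hcomm : ∀ x ∈ D, ∀ y ∈ D, x * y = y * x) (hne : ∃ x ∈ D, x ≠ 0) :
    ∃ χ : A → ℂ, IsChar D χ := by
  have _ : IsClosed (D : Set A) := hcl
  let _ : NonUnitalCommCStarAlgebra D :=
    { (inferInstance : NonUnitalCStarAlgebra D) with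
      mul_comm := fun x y => Subtype.ext (hcomm x x.2 y y.2) }
  obtain ⟨x, hx, hx0⟩ := hne
  let a : Unitization ℂ D := Unitization.inr (⟨x, hx⟩ : D)
  have ha : star a * a ≠ 0 := by
    rw [Ne, CStarRing.star_mul_self_eq_zero_iff]
    intro h
    apply hx0
    have := Unitization.inr_injective (R := ℂ) (h.trans (Unitization.inr_zero ℂ).symm)
    exact congrArg Subtype.val this
  obtain ⟨φ, hφ⟩ : ∃ φ : WeakDual.characterSpace ℂ (Unitization ℂ D), φ (star a * a) ≠ 0 := by
    by_contra hcon
    push Not at hcon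
    apply ha
    apply (gelfandTransform_isometry (Unitization ℂ D)).injective
    ext φ
    rw [map_zero]
    exact hcon φ
  classical
  refine ⟨fun b => if h : b ∈ D then φ (Unitization.inr (⟨b, h⟩ : D)) else 0, ?_, ?_, ?_, ?_⟩
  · intro b hb c hc
    rw [dif_pos hb, dif_pos hc, dif_pos (add_mem hb hc), ← map_add, ← Unitization.inr_add]
    rfl
  · intro r b hb
    rw [dif_pos hb, dif_pos (SMulMemClass.smul_mem r hb), ← smul_eq_mul, ← map_smul,
      ← Unitization.inr_smul]
    rfl
  · intro b hb c hc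
    rw [dif_pos hb, dif_pos hc, dif_pos (mul_mem hb hc), ← map_mul, ← Unitization.inr_mul]
    rfl
  · refine ⟨x, hx, ?_⟩
    rw [dif_pos hx]
    intro h
    apply hφ
    rw [map_mul]
    exact mul_eq_zero_of_right _ h

end Vale.Agent.P070
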