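import Mathlib

/-!
# P070 (Naimark's problem): definitions

`A` is a (possibly non-unital) C*-algebra.
-/

open scoped ComplexOrder InnerProductSpace

namespace Vale.Agent.P070

universe u

section
variable {A : Type*} [NonUnitalCStarAlgebra A]
variable {H : Type*} [NormedAddCommGroup H] [InnerProductSpace ℂ H] [CompleteSpace H]

/-- Topological irreducibility of a representation: `π ≠ 0` and the only closed
`π(A)`-invariant subspaces are `0` and `H`. -/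
structure IsIrred (π : A →⋆ₙₐ[ℂ] (H →L[ℂ] H)) : Prop where
  ne_zero : ∃ a, π a ≠ 0
  irred : ∀ K : Submodule ℂ H, IsClosed (K : Set H) → (∀ a, ∀ x ∈ K, π a x ∈ K) →
    K = ⊥ ∨ K = ⊤

end

/-- Property (N): `A ≠ 0` and any two irreducible representations of `A` are unitarily
equivalent. -/
def PropertyN (A : Type u) [NonUnitalCStarAlgebra A] : Prop :=
  Nontrivial A ∧
  ∀ (H₁ H₂ : Type u)
    [NormedAddCommGroup H₁] [InnerProductSpace ℂ H₁] [CompleteSpace H₁]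
    [NormedAddCommGroup H₂] [InnerProductSpace ℂ H₂] [CompleteSpace H₂]
    (π₁ : A →⋆ₙₐ[ℂ] (H₁ →L[ℂ] H₁)) (π₂ : A →⋆ₙₐ[ℂ] (H₂ →L[ℂ] H₂)),
    IsIrred π₁ → IsIrred π₂ → ∃ U : H₁ ≃ₗᵢ[ℂ] H₂, ∀ a x, U (π₁ a x) = π₂ a (U x)

/-- The joint eigenspace of a set `D` of operators for the eigenvalues `χ : D → ℂ`. -/
def eig {H : Type*} [NormedAddCommGroup H] [InnerProductSpace ℂ H]
    (D : Set (H →L[ℂ] H)) (χ : D → ℂ) : Submodule ℂ H where
  carrier := {ξ | ∀ d : D, (d : H →L[ℂ] H) ξ = χ d • ξ}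
  add_mem' := by
    intro a b ha hb d
    simp only [Set.mem_ofPred_eq] at ha hb
    rw [map_add, ha d, hb d, smul_add]
  zero_mem' := by intro d; simp
  smul_mem' := by
    intro c x hx d
    simp only [Set.mem_ofPred_eq] at hx
    rw [map_smul, hx d, smul_comm]

theorem mem_eig {H : Type*} [NormedAddCommGroup H] [InnerProductSpace ℂ H]
    {D : Set (H →L[ℂ] H)} {χ : D → ℂ} {ξ : H} :
    ξ ∈ eig D χ ↔ ∀ d : D, (d : H →L[ℂ] H) ξ = χ d • ξ := Iff.rfl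

/-- The quasi-state space of `A` (positive functionals of norm at most one), in the weak*
topology. -/
def Q (A : Type*) [NonUnitalCStarAlgebra A] : Set (WeakDual ℂ A) :=
  {φ | (∀ a, 0 ≤ φ (star a * a)) ∧ ∀ a, ‖φ a‖ ≤ ‖a‖}

section
variable {A : Type*} [NonUnitalCStarAlgebra A]
variable {H : Type*} [NormedAddCommGroup H] [InnerProductSpace ℂ H] [CompleteSpace H]

/-- the vector functional `a ↦ ⟪ξ, π(a) ξ⟫` -/
noncomputable def vec (π : A →⋆ₙₐ[ℂ] (H →L[ℂ] H)) (ξ : H) : WeakDual ℂ A :=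
  StrongDual.toWeakDual (LinearMap.mkContinuous
    { toFun := fun a => ⟪ξ, π a ξ⟫_ℂ
      map_add' := by intro a b; simp [inner_add_right]
      map_smul' := by intro c a; simp [inner_smul_right] } (‖ξ‖ * ‖ξ‖) (by
      intro a
      simp only [LinearMap.coe_mk, AddHom.coe_mk]
      calc ‖⟪ξ, π a ξ⟫_ℂ‖ ≤ ‖ξ‖ * ‖π a ξ‖ := norm_inner_le_norm _ _
        _ ≤ ‖ξ‖ * (‖π a‖ * ‖ξ‖) := by gcongr; exact (π a).le_opNorm ξ
        _ ≤ ‖ξ‖ * (‖a‖ * ‖ξ‖) := by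
            gcongr; exact NonUnitalStarAlgHom.norm_apply_le π a
        _ = ‖ξ‖ * ‖ξ‖ * ‖a‖ := by ring))

@[simp] theorem vec_apply (π : A →⋆ₙₐ[ℂ] (H →L[ℂ] H)) (ξ : H) (a : A) :
    vec π ξ a = ⟪ξ, π a ξ⟫_ℂ := rfl

end

/-- A cyclic representation implementing the functional `φ` (GNS data). -/
structure GNSData {A : Type u} [NonUnitalCStarAlgebra A] (φ : WeakDual ℂ A) where
  H : Type u
  [nacg : NormedAddCommGroup H]
  [ips : InnerProductSpace ℂ H]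
  [cs : CompleteSpace H]
  ρ : A →⋆ₙₐ[ℂ] (H →L[ℂ] H)
  ξ : H
  apply : ∀ a, φ a = ⟪ξ, ρ a ξ⟫_ℂ
  cyc : ∀ K : Submodule ℂ H, IsClosed (K : Set H) → (∀ a, ρ a ξ ∈ K) → K = ⊤
  norm_le : ‖ξ‖ ≤ 1

attribute [instance] GNSData.nacg GNSData.ips GNSData.cs

end Vale.Agent.P070
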