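import Vale.Agent.P070.Defs

/-!
# P070, module EXIST: enough quasi-states

For `a ≠ 0` there is `φ ∈ Q A` with `φ (star a * a) ≠ 0`.  Let `x = star a * a ≥ 0` in the
unitization `B = Unitization ℂ A` (a unital C*-algebra), `‖x‖ = ‖a‖² ≠ 0`.  A functional `ψ` of norm
one with `ψ (‖x‖ + x) = ‖ ‖x‖ + x ‖ = 2 ‖x‖` has `ψ 1 = 1`, `ψ x = ‖x‖`, hence is positive.
-/

open scoped ComplexOrder InnerProductSpace

namespace Vale.Agent.P070

universe u

theorem EXIST_real {B : Type*} [CStarAlgebra B] (ψ : B →L[ℂ] ℂ) (h1 : ψ 1 = 1)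
    (hn : ∀ b, ‖ψ b‖ ≤ ‖b‖) (y : B) (hy : IsSelfAdjoint y) : (ψ y).im = 0 := by
  obtain ⟨β, hβ⟩ : ∃ β, β = (ψ y).im := ⟨_, rfl⟩
  have key : ∀ t : ℝ, (β + t) ^ 2 ≤ ‖y‖ ^ 2 + t ^ 2 * ‖(1 : B)‖ := by
    intro t
    have e1 : ψ (y + ((t : ℂ) * Complex.I) • (1 : B)) = ψ y + (t : ℂ) * Complex.I := by
      rw [map_add, map_smul, h1, smul_eq_mul, mul_one]
    have e2 : (ψ (y + ((t : ℂ) * Complex.I) • (1 : B))).im = β + t := by
      rw [e1, hβ]
      simp
    have e3 : (β + t) ^ 2 ≤ ‖ψ (y + ((t : ℂ) * Complex.I) • (1 : B))‖ ^ 2 := by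
      rw [← e2, ← sq_abs]
      exact pow_le_pow_left₀ (abs_nonneg _) (Complex.abs_im_le_norm _) 2
    have e4 : ‖ψ (y + ((t : ℂ) * Complex.I) • (1 : B))‖ ^ 2 ≤
        ‖y + ((t : ℂ) * Complex.I) • (1 : B)‖ ^ 2 :=
      pow_le_pow_left₀ (norm_nonneg _) (hn _) 2
    have e5 : star (y + ((t : ℂ) * Complex.I) • (1 : B)) * (y + ((t : ℂ) * Complex.I) • (1 : B)) =
        y * y + ((t : ℂ) ^ 2) • (1 : B) := by
      have hc : star ((t : ℂ) * Complex.I) = -((t : ℂ) * Complex.I) := by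
        rw [star_mul', Complex.star_def, Complex.conj_ofReal, Complex.conj_I]
        ring
      have hc2 : (t : ℂ) ^ 2 = -(((t : ℂ) * Complex.I) * ((t : ℂ) * Complex.I)) := by
        have := Complex.I_mul_I
        linear_combination ((t : ℂ) ^ 2) * this
      rw [star_add, star_smul, star_one, hy.star_eq, hc, hc2]
      generalize (t : ℂ) * Complex.I = c
      rw [neg_smul, neg_smul, add_mul, mul_add, mul_add, neg_mul, neg_mul, smul_mul_assoc,
        smul_mul_assoc, mul_smul_comm, one_mul, one_mul, mul_one, smul_smul]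
      abel
    have e8 : ‖y + ((t : ℂ) * Complex.I) • (1 : B)‖ ^ 2 ≤ ‖y‖ ^ 2 + t ^ 2 * ‖(1 : B)‖ := by
      rw [sq, ← CStarRing.norm_star_mul_self, e5]
      refine (norm_add_le _ _).trans (add_le_add ?_ ?_)
      · rw [sq]
        exact norm_mul_le _ _
      · rw [norm_smul]
        simp
    linarith
  by_contra hne
  rw [← hβ] at hne
  have hβ0 : 0 < β ^ 2 := by positivity
  rcases subsingleton_or_nontrivial B with hB | hB
  · apply hne
    rw [hβ]
    have : y = 0 := Subsingleton.elim _ _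
    rw [this, map_zero, Complex.zero_im]
  · have h2 := key (‖y‖ ^ 2 / (2 * β) )
    rw [norm_one, mul_one] at h2
    have h3 : 2 * β * (‖y‖ ^ 2 / (2 * β)) = ‖y‖ ^ 2 := by
      field_simp
    nlinarith

theorem EXIST_pos {B : Type*} [CStarAlgebra B] (ψ : B →L[ℂ] ℂ) (h1 : ψ 1 = 1)
    (hn : ∀ b, ‖ψ b‖ ≤ ‖b‖) (b : B) : 0 ≤ ψ (star b * b) := by
  have hsa : IsSelfAdjoint (star b * b) := IsSelfAdjoint.star_mul_self b
  have him := EXIST_real ψ h1 hn _ hsa
  have hsp : SpectrumRestricts (star b * b) ContinuousMap.realToNNReal :=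
    SpectrumRestricts.nnreal_iff.2 spectrum_star_mul_self_nonneg
  have h2 := (SpectrumRestricts.nnreal_iff_nnnorm hsa le_rfl).1 hsp
  have h3 : ‖algebraMap ℝ B ‖star b * b‖ - star b * b‖ ≤ ‖star b * b‖ := by
    exact_mod_cast h2
  have h4 := (hn _).trans h3
  have h5 : ψ (algebraMap ℝ B ‖star b * b‖) = (‖star b * b‖ : ℂ) := by
    have : algebraMap ℝ B ‖star b * b‖ = ((‖star b * b‖ : ℝ) : ℂ) • (1 : B) := by
      rw [Algebra.algebraMap_eq_smul_one]
      exact (Complex.coe_smul _ _).symm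
    rw [this, map_smul, h1, smul_eq_mul, mul_one]
  rw [map_sub, h5] at h4
  have h6 := (Complex.abs_re_le_norm _).trans h4
  rw [Complex.sub_re, Complex.ofReal_re, abs_le] at h6
  rw [Complex.nonneg_iff]
  exact ⟨by linarith [h6.2], him.symm⟩

variable {A : Type u} [NonUnitalCStarAlgebra A]

theorem exists_Q_ne (a : A) (ha : a ≠ 0) : ∃ φ ∈ Q A, φ (star a * a) ≠ 0 := by
  obtain ⟨x, hx⟩ : ∃ x : Unitization ℂ A, x = star (a : Unitization ℂ A) * (a : Unitization ℂ A) :=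
    ⟨_, rfl⟩
  have hxa : x = ((star a * a : A) : Unitization ℂ A) := by
    rw [hx, Unitization.inr_mul, Unitization.inr_star]
  have hnx : ‖x‖ ≠ 0 := by
    rw [hx, CStarRing.norm_star_mul_self, Unitization.norm_inr]
    have : ‖a‖ ≠ 0 := norm_ne_zero_iff.2 ha
    positivity
  have hsa : IsSelfAdjoint x := by rw [hx]; exact IsSelfAdjoint.star_mul_self _
  have hmem : ‖x‖ ∈ spectrum ℝ x := by
    rcases CStarAlgebra.norm_or_neg_norm_mem_spectrum hsa with h | h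
    · exact h
    · exfalso
      have h2 : 0 ≤ -‖x‖ := by
        rw [hx] at h ⊢
        exact spectrum_star_mul_self_nonneg _ h
      exact hnx (le_antisymm (by linarith) (norm_nonneg _))
  obtain ⟨y, hy⟩ : ∃ y : Unitization ℂ A, y = algebraMap ℝ (Unitization ℂ A) ‖x‖ + x := ⟨_, rfl⟩
  have hmy : ‖x‖ + ‖x‖ ∈ spectrum ℝ y := by
    rw [hy]
    exact spectrum.add_mem_add_iff.2 hmem
  have hny : 2 * ‖x‖ ≤ ‖y‖ := by
    have := spectrum.norm_le_norm_of_mem hmy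
    rw [Real.norm_eq_abs] at this
    have h2 := le_abs_self (‖x‖ + ‖x‖)
    linarith
  obtain ⟨ψ, hψ1, hψy⟩ := exists_dual_vector'' ℂ y
  have hψn : ∀ b, ‖ψ b‖ ≤ ‖b‖ := fun b => by
    have := ψ.le_opNorm b
    have h2 : ‖ψ‖ * ‖b‖ ≤ 1 * ‖b‖ := mul_le_mul_of_nonneg_right hψ1 (norm_nonneg _)
    linarith
  have hψy2 : ψ y = (‖x‖ : ℂ) * ψ 1 + ψ x := by
    have : algebraMap ℝ (Unitization ℂ A) ‖x‖ = ((‖x‖ : ℝ) : ℂ) • (1 : Unitization ℂ A) := by
      rw [Algebra.algebraMap_eq_smul_one]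
      exact (Complex.coe_smul _ _).symm
    rw [hy, map_add, this, map_smul, smul_eq_mul]
  have hre : 2 * ‖x‖ ≤ ‖x‖ * (ψ 1).re + (ψ x).re := by
    have h2 := congrArg Complex.re (hψy2.symm.trans hψy)
    rw [Complex.add_re, Complex.re_ofReal_mul] at h2
    have h3 : ((‖y‖ : ℝ) : ℂ).re = ‖y‖ := Complex.ofReal_re _
    have h4 : ‖x‖ * (ψ 1).re + (ψ x).re = ‖y‖ := by
      rw [h2]
      exact h3
    linarith
  have hx0 : 0 < ‖x‖ := lt_of_le_of_ne (norm_nonneg _) (Ne.symm hnx)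
  have hr1 : (ψ 1).re ≤ 1 := by
    have h2 := (Complex.re_le_norm _).trans (hψn 1)
    rwa [norm_one] at h2
  have hrx : (ψ x).re ≤ ‖x‖ := (Complex.re_le_norm _).trans (hψn x)
  have hr1' : (ψ 1).re = 1 := by
    by_contra hne
    have h2 : (ψ 1).re < 1 := lt_of_le_of_ne hr1 hne
    nlinarith
  have hrx' : (ψ x).re = ‖x‖ := by
    rw [hr1'] at hre
    linarith
  have h1 : ψ 1 = 1 := by
    have h2 : ‖ψ 1‖ ≤ 1 := by
      have := hψn 1
      rwa [norm_one] at this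
    have h3 : (ψ 1).im = 0 := by
      have h4 : ‖ψ 1‖ ^ 2 = (ψ 1).re ^ 2 + (ψ 1).im ^ 2 := by
        rw [← Complex.normSq_eq_norm_sq, Complex.normSq_apply]
        ring
      have h5 : ‖ψ 1‖ ^ 2 ≤ 1 := pow_le_one₀ (norm_nonneg _) h2
      rw [hr1'] at h4
      have h6 : (ψ 1).im ^ 2 ≤ 0 := by linarith
      exact pow_eq_zero_iff (two_ne_zero) |>.1 (le_antisymm h6 (sq_nonneg _))
    apply Complex.ext
    · rw [hr1', Complex.one_re]
    · rw [h3, Complex.one_im]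
  let L : A →ₗ[ℂ] ℂ :=
    { toFun := fun b => ψ (b : Unitization ℂ A)
      map_add' := fun b c => by rw [Unitization.inr_add, map_add]
      map_smul' := fun c b => by rw [Unitization.inr_smul, map_smul]; rfl }
  have hL : ∀ b, ‖L b‖ ≤ 1 * ‖b‖ := fun b => by
    rw [one_mul, ← Unitization.norm_inr (𝕜 := ℂ) b]
    exact hψn _
  let φ : WeakDual ℂ A := StrongDual.toWeakDual (L.mkContinuous 1 hL)
  have hφ : ∀ b, φ b = ψ (b : Unitization ℂ A) := fun b => rfl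
  refine ⟨φ, ⟨fun b => ?_, fun b => ?_⟩, ?_⟩
  · rw [hφ, Unitization.inr_mul, Unitization.inr_star]
    exact EXIST_pos ψ h1 hψn _
  · have := hL b
    rw [one_mul] at this
    exact this
  · rw [hφ, ← hxa]
    intro h0
    rw [h0, Complex.zero_re] at hrx'
    exact hnx hrx'.symm

end Vale.Agent.P070
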