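import Vale.Agent.P070.CharDefs
import Vale.Agent.P070.Nondeg
import Vale.Agent.P070.Spread
import Vale.Agent.P070.Sep

/-!
# P070, module GEN: `A` generated by `D` and fewer than `2^ℵ₀` normalisers

`ξ₀ ≠ 0` is a joint eigenvector of `π(D)` with eigenvalues `χ`, and `A` is generated (as a
C*-algebra) by `D` and `N ⊆ normalizer D`, `#N < 2^ℵ₀`.  Then every orthonormal family in `H`
indexed by `ℕ → Bool` is impossible:
(a) `normalizer D` is closed under products and star.  For a normaliser `w`, `π w ξ₀` is a joint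
eigenvector of `D`, or `0`: `c = χ (w* w)`, `‖π w ξ₀‖² = c ‖ξ₀‖²`, and for `d ∈ D`
`d w (w* w) = (d (w w*)) w = (w w*) d w = w (w* d w)`, so `c π d (π w ξ₀) = χ (w* d w) π w ξ₀`.
(b) Let `W` = the set of all vectors `π n₁ ⋯ π n_k ξ₀`, `k ≥ 0`, `n_i ∈ N ∪ N*` (e.g. the range of a
function on `List (N × Bool)`; `Cardinal.mk_list_le_max`), so `#W < 2^ℵ₀`.  Its closed span `K` is
invariant under `π d` (by (a)), under `π n`, `π n*`; the set `{a | π a K ⊆ K ∧ π a* K ⊆ K}` is a closed
star subalgebra containing `D` and `N`, so it is everything (`hgen`), `K ≠ ⊥`, so `K = ⊤`.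
(c) If `v : (ℕ → Bool) → H` is orthonormal, for each `w ∈ W` the set `{t | ⟪v t, w⟫ ≠ 0}` is
countable (`Orthonormal.inner_products_summable`, `Summable.countable_support`), and the union over
`W` has cardinality `≤ #W * ℵ₀ < 2^ℵ₀ = #(ℕ → Bool)`; so some `v t` is orthogonal to `W`, hence `0`.
(`Cardinal.mk_iUnion_le_sum_mk` / `Cardinal.mk_biUnion_le`; watch the universes: `H : Type u`,
`ℕ → Bool : Type`; use `Cardinal.lift`.)
-/

open scoped ComplexOrder InnerProductSpace

namespace Vale.Agent.P070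

universe u
variable {A : Type u} [NonUnitalCStarAlgebra A]
variable {H : Type u} [NormedAddCommGroup H] [InnerProductSpace ℂ H] [CompleteSpace H]

omit [CompleteSpace H] in
theorem GEN_star (D : NonUnitalStarSubalgebra ℂ A) {w : A} (hw : w ∈ normalizer D) :
    star w ∈ normalizer D := by
  obtain ⟨h1, h2, h3, h4⟩ := hw
  exact ⟨by rwa [star_star], by rwa [star_star], by rwa [star_star], by rwa [star_star]⟩

theorem GEN_mul (D : NonUnitalStarSubalgebra ℂ A) {v w : A} (hv : v ∈ normalizer D)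
    (hw : w ∈ normalizer D) : v * w ∈ normalizer D := by
  obtain ⟨h1, h2, h3, h4⟩ := hv
  obtain ⟨g1, g2, g3, g4⟩ := hw
  refine ⟨?_, ?_, fun d hd => ?_, fun d hd => ?_⟩
  · have : star (v * w) * (v * w) = star w * (star v * v) * w := by
      rw [star_mul]; simp only [mul_assoc]
    rw [this]; exact g3 _ h1
  · have : (v * w) * star (v * w) = v * (w * star w) * star v := by
      rw [star_mul]; simp only [mul_assoc]
    rw [this]; exact h4 _ g2
  · have : star (v * w) * d * (v * w) = star w * (star v * d * v) * w := by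
      rw [star_mul]; simp only [mul_assoc]
    rw [this]; exact g3 _ (h3 d hd)
  · have : (v * w) * d * star (v * w) = v * (w * d * star w) * star v := by
      rw [star_mul]; simp only [mul_assoc]
    rw [this]; exact h4 _ (g4 d hd)

/-- a normaliser sends a joint eigenvector to a joint eigenvector or to zero -/
theorem GEN_eig {π : A →⋆ₙₐ[ℂ] (H →L[ℂ] H)} (D : NonUnitalStarSubalgebra ℂ A)
    (hcomm : ∀ x ∈ D, ∀ y ∈ D, x * y = y * x) {χ : A → ℂ} {ξ₀ : H}
    (heig : ∀ d ∈ D, π d ξ₀ = χ d • ξ₀) {w : A} (hw : w ∈ normalizer D) {d : A} (hd : d ∈ D) :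
    ∃ c : ℂ, π d (π w ξ₀) = c • π w ξ₀ := by
  obtain ⟨h1, h2, h3, h4⟩ := hw
  have hmul : ∀ a b : A, ∀ x : H, π (a * b) x = π a (π b x) := fun a b x => by
    rw [map_mul]; rfl
  by_cases hc : χ (star w * w) = 0
  · have hz : π w ξ₀ = 0 := by
      have h5 : ⟪π w ξ₀, π w ξ₀⟫_ℂ = 0 := by
        rw [← ContinuousLinearMap.adjoint_inner_right, ← ContinuousLinearMap.star_eq_adjoint,
          ← map_star, ← hmul, heig _ h1, hc, zero_smul, inner_zero_right]
      exact inner_self_eq_zero.1 h5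
    exact ⟨0, by rw [hz, map_zero, smul_zero]⟩
  · refine ⟨(χ (star w * w))⁻¹ * χ (star w * d * w), ?_⟩
    have h5 : χ (star w * w) • π d (π w ξ₀) = χ (star w * d * w) • π w ξ₀ := by
      have e1 : π (d * (w * (star w * w))) ξ₀ = χ (star w * w) • π d (π w ξ₀) := by
        rw [hmul, hmul, heig _ h1, map_smul, map_smul]
      have e2 : π (w * (star w * d * w)) ξ₀ = χ (star w * d * w) • π w ξ₀ := by
        rw [hmul, heig _ (h3 d hd), map_smul]
      rw [← e1, ← e2]
      have e3 : d * (w * (star w * w)) = w * (star w * d * w) := by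
        calc d * (w * (star w * w)) = (d * (w * star w)) * w := by simp only [mul_assoc]
          _ = ((w * star w) * d) * w := by rw [hcomm d hd _ h2]
          _ = w * (star w * d * w) := by simp only [mul_assoc]
      rw [e3]
    rw [mul_smul, ← h5, smul_smul, inv_mul_cancel₀ hc, one_smul]

/-- the vectors `π n₁ ⋯ π n_k ξ₀` -/
noncomputable def GEN_vec (π : A →⋆ₙₐ[ℂ] (H →L[ℂ] H)) (N : Set A) (ξ₀ : H) :
    List (N × Bool) → H
  | [] => ξ₀
  | (n, true) :: L => π (n : A) (GEN_vec π N ξ₀ L)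
  | (n, false) :: L => π (star (n : A)) (GEN_vec π N ξ₀ L)

theorem GEN_vec_form {π : A →⋆ₙₐ[ℂ] (H →L[ℂ] H)} (D : NonUnitalStarSubalgebra ℂ A)
    (N : Set A) (hNn : N ⊆ normalizer D) (ξ₀ : H) (L : List (N × Bool)) :
    GEN_vec π N ξ₀ L = ξ₀ ∨ ∃ w ∈ normalizer D, GEN_vec π N ξ₀ L = π w ξ₀ := by
  induction L with
  | nil => exact Or.inl rfl
  | cons p L ih =>
    obtain ⟨n, b⟩ := p
    right
    have hn := hNn n.2
    have key : ∀ m : A, m ∈ normalizer D →
        ∃ w ∈ normalizer D, π m (GEN_vec π N ξ₀ L) = π w ξ₀ := by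
      intro m hm
      rcases ih with h | ⟨w, hw, h⟩
      · exact ⟨m, hm, by rw [h]⟩
      · exact ⟨m * w, GEN_mul D hm hw, by rw [h, map_mul]; rfl⟩
    cases b with
    | true => exact key n hn
    | false => exact key (star n) (GEN_star D hn)

theorem GEN_closed {π : A →⋆ₙₐ[ℂ] (H →L[ℂ] H)} (K : Submodule ℂ H) {a : A}
    (h : ∀ x ∈ K, π a x ∈ K) : ∀ x ∈ K.topologicalClosure, π a x ∈ K.topologicalClosure := by
  intro x hx
  rw [← SetLike.mem_coe, Submodule.topologicalClosure_coe] at hx ⊢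
  exact map_mem_closure (π a).continuous hx fun y hy => h y hy

/-- the closed star subalgebra of all `a` for which `K` is invariant -/
noncomputable def GEN_inv (π : A →⋆ₙₐ[ℂ] (H →L[ℂ] H)) (K : Submodule ℂ H) :
    NonUnitalStarSubalgebra ℂ A where
  carrier := {a | (∀ x ∈ K, π a x ∈ K) ∧ ∀ x ∈ K, π (star a) x ∈ K}
  add_mem' := by
    rintro a b ⟨h1, h2⟩ ⟨g1, g2⟩
    refine ⟨fun x hx => ?_, fun x hx => ?_⟩
    · rw [map_add]; exact K.add_mem (h1 x hx) (g1 x hx)
    · rw [star_add, map_add]; exact K.add_mem (h2 x hx) (g2 x hx)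
  zero_mem' := by
    refine ⟨fun x _ => ?_, fun x _ => ?_⟩
    · rw [map_zero]; exact K.zero_mem
    · rw [star_zero, map_zero]; exact K.zero_mem
  mul_mem' := by
    rintro a b ⟨h1, h2⟩ ⟨g1, g2⟩
    refine ⟨fun x hx => ?_, fun x hx => ?_⟩
    · rw [map_mul]; exact h1 _ (g1 x hx)
    · rw [star_mul, map_mul]; exact g2 _ (h2 x hx)
  smul_mem' := by
    rintro c a ⟨h1, h2⟩
    refine ⟨fun x hx => ?_, fun x hx => ?_⟩
    · rw [map_smul]; exact K.smul_mem c (h1 x hx)
    · rw [star_smul, map_smul]; exact K.smul_mem _ (h2 x hx)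
  star_mem' := by
    rintro a ⟨h1, h2⟩
    exact ⟨h2, by rwa [star_star]⟩

theorem GEN_inv_closed (π : A →⋆ₙₐ[ℂ] (H →L[ℂ] H)) (K : Submodule ℂ H)
    (hK : IsClosed (K : Set H)) : IsClosed (GEN_inv π K : Set A) := by
  have hπ : Continuous (fun a : A => π a) :=
    AddMonoidHomClass.continuous_of_bound π 1 fun a => by
      rw [one_mul]; exact NonUnitalStarAlgHom.norm_apply_le π a
  have h1 : ∀ x : H, Continuous fun a : A => π a x := fun x =>
    (ContinuousLinearMap.apply ℂ H x).continuous.comp hπ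
  have h2 : (GEN_inv π K : Set A) = (⋂ x ∈ K, {a | π a x ∈ K}) ∩ ⋂ x ∈ K, {a | π (star a) x ∈ K} := by
    ext a
    simp only [Set.mem_inter_iff, Set.mem_iInter]
    rfl
  rw [h2]
  refine IsClosed.inter ?_ ?_
  · exact isClosed_biInter fun x _ => hK.preimage (h1 x)
  · exact isClosed_biInter fun x _ => hK.preimage ((h1 x).comp continuous_star)

theorem gen_small {π : A →⋆ₙₐ[ℂ] (H →L[ℂ] H)} (hπ : IsIrred π)
    (D : NonUnitalStarSubalgebra ℂ A) (hcomm : ∀ x ∈ D, ∀ y ∈ D, x * y = y * x)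
    (N : Set A) (hNn : N ⊆ normalizer D) (hNc : Cardinal.mk N < Cardinal.continuum)
    (hgen : ∀ B : NonUnitalStarSubalgebra ℂ A, IsClosed (B : Set A) → (D : Set A) ⊆ B →
      N ⊆ (B : Set A) → B = ⊤)
    {χ : A → ℂ} {ξ₀ : H} (h0 : ξ₀ ≠ 0) (heig : ∀ d ∈ D, π d ξ₀ = χ d • ξ₀) :
    ¬ ∃ v : (ℕ → Bool) → H, Orthonormal ℂ v := by
  rintro ⟨v, hv⟩
  set W : Set H := Set.range (GEN_vec π N ξ₀) with hW
  set K₀ : Submodule ℂ H := Submodule.span ℂ W with hK₀
  set K : Submodule ℂ H := K₀.topologicalClosure with hK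
  have hKcl : IsClosed (K : Set H) := K₀.isClosed_topologicalClosure
  have hspan : ∀ a : A, (∀ L, π a (GEN_vec π N ξ₀ L) ∈ K₀) → ∀ x ∈ K, π a x ∈ K := by
    intro a ha
    refine GEN_closed K₀ ?_
    intro x hx
    have h1 : K₀ ≤ K₀.comap (π a).toLinearMap := by
      rw [hK₀, Submodule.span_le]
      rintro _ ⟨L, rfl⟩
      exact ha L
    exact h1 hx
  have hD : ∀ d ∈ D, ∀ x ∈ K, π d x ∈ K := by
    intro d hd
    refine hspan d fun L => ?_
    have hmem : GEN_vec π N ξ₀ L ∈ K₀ := Submodule.subset_span ⟨L, rfl⟩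
    rcases GEN_vec_form (π := π) D N hNn ξ₀ L with h | ⟨w, hw, h⟩
    · have h1 : π d (GEN_vec π N ξ₀ L) = χ d • GEN_vec π N ξ₀ L := by rw [h, heig d hd]
      rw [h1]; exact K₀.smul_mem _ hmem
    · obtain ⟨c, hc⟩ := GEN_eig D hcomm heig hw hd
      have h1 : π d (GEN_vec π N ξ₀ L) = c • GEN_vec π N ξ₀ L := by rw [h, hc]
      rw [h1]; exact K₀.smul_mem _ hmem
  have hN1 : ∀ n ∈ N, ∀ x ∈ K, π n x ∈ K := fun n hn =>
    hspan n fun L => Submodule.subset_span ⟨(⟨n, hn⟩, true) :: L, rfl⟩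
  have hN2 : ∀ n ∈ N, ∀ x ∈ K, π (star n) x ∈ K := fun n hn =>
    hspan (star n) fun L => Submodule.subset_span ⟨(⟨n, hn⟩, false) :: L, rfl⟩
  have htop : GEN_inv π K = ⊤ := by
    refine hgen _ (GEN_inv_closed π K hKcl) ?_ ?_
    · intro d hd
      exact ⟨hD d hd, hD (star d) (star_mem (SetLike.mem_coe.1 hd))⟩
    · intro n hn
      exact ⟨hN1 n hn, hN2 n hn⟩
  have hinv : ∀ a, ∀ x ∈ K, π a x ∈ K := by
    intro a x hx
    have h1 : a ∈ GEN_inv π K := by rw [htop]; trivial
    exact h1.1 x hx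
  have hξK : ξ₀ ∈ K := K₀.le_topologicalClosure (Submodule.subset_span ⟨[], rfl⟩)
  have hKtop : K = ⊤ := by
    rcases hπ.irred K hKcl hinv with h | h
    · exact absurd (by rw [h] at hξK; exact hξK) (by rwa [Submodule.mem_bot])
    · exact h
  -- some `v t` is orthogonal to all the vectors
  have hex : ∃ t : ℕ → Bool, ∀ L, ⟪v t, GEN_vec π N ξ₀ L⟫_ℂ = 0 := by
    by_contra hcon
    push Not at hcon
    choose f hf using hcon
    have hfib : ∀ L, Set.Countable (f ⁻¹' {L}) := by
      intro L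
      have h1 := (hv.inner_products_summable (GEN_vec π N ξ₀ L)).countable_support
      refine h1.mono ?_
      intro t ht
      rw [Set.mem_preimage, Set.mem_singleton_iff] at ht
      rw [Function.mem_support]
      have h2 := hf t
      rw [ht] at h2
      exact pow_ne_zero 2 (norm_ne_zero_iff.2 h2)
    have h1 : Cardinal.lift.{u} (Cardinal.mk (ℕ → Bool)) ≤
        Cardinal.lift.{0} (Cardinal.mk (List (N × Bool))) * Cardinal.aleph0 := by
      refine Cardinal.lift_mk_le_lift_mk_mul_of_lift_mk_preimage_le f fun L => ?_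
      have := (hfib L).le_aleph0
      simpa using this
    have h2 : Cardinal.mk (ℕ → Bool) = Cardinal.continuum := by
      rw [← Cardinal.two_power_aleph0]
      simp
    rw [h2, Cardinal.lift_continuum, Cardinal.lift_id'] at h1
    have hNB : Cardinal.mk (N × Bool) < Cardinal.continuum := by
      rw [Cardinal.mk_prod]
      refine Cardinal.mul_lt_of_lt Cardinal.aleph0_le_continuum ?_ ?_
      · simpa using hNc
      · simpa using Cardinal.nat_lt_continuum 2
    have h3 : Cardinal.mk (List (N × Bool)) < Cardinal.continuum :=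
      lt_of_le_of_lt (Cardinal.mk_list_le_max _) (max_lt Cardinal.aleph0_lt_continuum hNB)
    exact absurd h1 (not_le.2 (Cardinal.mul_lt_of_lt Cardinal.aleph0_le_continuum h3
      Cardinal.aleph0_lt_continuum))
  obtain ⟨t, ht⟩ := hex
  have horth : K₀ ≤ (Submodule.span ℂ {v t})ᗮ := by
    rw [hK₀, Submodule.span_le]
    rintro _ ⟨L, rfl⟩
    rw [SetLike.mem_coe, Submodule.mem_orthogonal_singleton_iff_inner_right]
    exact ht L
  have horth2 : K ≤ (Submodule.span ℂ {v t})ᗮ :=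
    Submodule.topologicalClosure_minimal _ horth (Submodule.isClosed_orthogonal _)
  have h4 : v t ∈ (Submodule.span ℂ {v t})ᗮ := horth2 (by rw [hKtop]; trivial)
  rw [Submodule.mem_orthogonal_singleton_iff_inner_right] at h4
  have h5 := hv.1 t
  rw [inner_self_eq_zero.1 h4, norm_zero] at h5
  exact zero_ne_one h5

end Vale.Agent.P070
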