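import Vale.Agent.P070.RegDefs
import Vale.Agent.P070.Nondeg
import Vale.Agent.P070.Spread

/-!
# P070, module REG2: regular `D` acts atomically with one-dimensional eigenspaces

Let `n ∈ normalizer D`, `c = χ (n* n)` (so `‖π n ξ₀‖² = c`).  If `c ≠ 0`, then for `d ∈ D`:
`d n (n* n) = d (n n*) n = (n n*) d n = n (n* d n)`, so `π d (π n ξ₀) = (χ (n* d n) / c) π n ξ₀`:
`π n ξ₀` is a joint eigenvector; if `c = 0` it is `0`.  The span of the normalisers is dense and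
`ξ₀` is cyclic (`orbit_dense`), so the joint eigenvectors `π n ξ₀` span a dense subspace.
Eigenspaces: let `n, m` be normalisers with `π n ξ₀, π m ξ₀ ≠ 0` in the same eigenspace
(eigenvalues `χ₁ d`).  `π (n* m) ξ₀` is an eigenvector for `χ`:
`d n* m`: `(n n*)`-trick: `π d π n* (π m ξ₀)`; compute `π (d n* ) π m ξ₀`: since
`(n* n) (d n*) = d (n* n) n* = d n* (n n*) ` and `n* (n d n*) = (n* n) d n* = d n* n n*`, so
`π (d n*) π(n n*) π m ξ₀ = π n* π (n d n*) π m ξ₀`, i.e.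
`χ₁(n n*) π d (π n* π m ξ₀) = χ₁(n d n*) π n* π m ξ₀` and `χ₁(n n*) = c`, `χ₁(n d n*) = c χ(d)`
(evaluate `χ₁` on `π n ξ₀`).  So `π n* π m ξ₀ = λ ξ₀` by `hone`, and applying `π n`:
`c π m ξ₀ = λ π n ξ₀`.  Hence any two nonzero `π n ξ₀, π m ξ₀` in the same eigenspace are
proportional, and (different eigenspaces are orthogonal, `eig_orth`) an eigenvector for `χ₁`
orthogonal to the `π n ξ₀` in that eigenspace is orthogonal to all `π n ξ₀`, hence `0`.
-/

open scoped ComplexOrder InnerProductSpace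

namespace Vale.Agent.P070

universe u
variable {A : Type u} [NonUnitalCStarAlgebra A]
variable {H : Type u} [NormedAddCommGroup H] [InnerProductSpace ℂ H] [CompleteSpace H]

theorem REG2_cont (π : A →⋆ₙₐ[ℂ] (H →L[ℂ] H)) (x : H) : Continuous fun b : A => π b x := by
  have hc1 : Continuous π := AddMonoidHomClass.continuous_of_bound π 1 fun b => by
    rw [one_mul]
    exact NonUnitalStarAlgHom.norm_apply_le π b
  exact (ContinuousLinearMap.apply ℂ H x).continuous.comp hc1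

theorem REG2_mul (π : A →⋆ₙₐ[ℂ] (H →L[ℂ] H)) (x y : A) (v : H) : π (x * y) v = π x (π y v) := by
  rw [map_mul]
  rfl

theorem REG2_all {π : A →⋆ₙₐ[ℂ] (H →L[ℂ] H)} {D : NonUnitalStarSubalgebra ℂ A}
    (hreg : IsRegular D) {ξ₀ : H} (K : Submodule ℂ H) (hK : IsClosed (K : Set H))
    (h : ∀ n ∈ normalizer D, π n ξ₀ ∈ K) (a : A) : π a ξ₀ ∈ K := by
  have hspan : ∀ b ∈ Submodule.span ℂ (normalizer D), π b ξ₀ ∈ K := by
    intro b hb
    induction hb using Submodule.span_induction with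
    | mem n hn => exact h n hn
    | zero =>
      rw [map_zero]
      exact K.zero_mem
    | add x y _ _ hx hy =>
      rw [map_add]
      exact K.add_mem hx hy
    | smul c x _ hx =>
      rw [map_smul]
      exact K.smul_mem c hx
  have hcl : IsClosed {b : A | π b ξ₀ ∈ K} := hK.preimage (REG2_cont π ξ₀)
  exact closure_minimal (fun b hb => hspan b hb) hcl (hreg a)

theorem REG2_top {π : A →⋆ₙₐ[ℂ] (H →L[ℂ] H)} (hπ : IsIrred π) {D : NonUnitalStarSubalgebra ℂ A}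
    (hreg : IsRegular D) {ξ₀ : H} (h0 : ξ₀ ≠ 0) (K : Submodule ℂ H) (hK : IsClosed (K : Set H))
    (h : ∀ n ∈ normalizer D, π n ξ₀ ∈ K) : K = ⊤ := by
  rw [Submodule.eq_top_iff']
  intro η
  have h1 : η ∈ closure (K : Set H) := by
    rw [Metric.mem_closure_iff]
    intro ε hε
    obtain ⟨a, ha⟩ := orbit_dense hπ h0 η hε
    exact ⟨π a ξ₀, REG2_all hreg K hK h a, by rwa [dist_comm, dist_eq_norm]⟩
  rwa [hK.closure_eq] at h1

theorem REG2_orth {π : A →⋆ₙₐ[ℂ] (H →L[ℂ] H)} (hπ : IsIrred π) {D : NonUnitalStarSubalgebra ℂ A}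
    (hreg : IsRegular D) {ξ₀ : H} (h0 : ξ₀ ≠ 0) {w : H}
    (h : ∀ n ∈ normalizer D, ⟪w, π n ξ₀⟫_ℂ = 0) : w = 0 := by
  have h1 := REG2_top hπ hreg h0 (ℂ ∙ w)ᗮ (Submodule.isClosed_orthogonal _) fun n hn =>
    Submodule.mem_orthogonal_singleton_iff_inner_right.2 (h n hn)
  have h2 : w ∈ (ℂ ∙ w)ᗮ := by
    rw [h1]
    trivial
  exact inner_self_eq_zero.1 (Submodule.mem_orthogonal_singleton_iff_inner_right.1 h2)

theorem REG2_norm (π : A →⋆ₙₐ[ℂ] (H →L[ℂ] H)) {D : NonUnitalStarSubalgebra ℂ A} {χ : A → ℂ}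
    {ξ₀ : H} (h1 : ‖ξ₀‖ = 1) (heig : ∀ d ∈ D, π d ξ₀ = χ d • ξ₀) {n : A}
    (hn : n ∈ normalizer D) : χ (star n * n) = ⟪π n ξ₀, π n ξ₀⟫_ℂ := by
  have h2 : ⟪ξ₀, π (star n * n) ξ₀⟫_ℂ = χ (star n * n) := by
    rw [heig _ hn.1, inner_smul_right, inner_self_eq_norm_sq_to_K, h1]
    simp
  rw [← h2, REG2_mul, map_star, ContinuousLinearMap.star_eq_adjoint,
    ContinuousLinearMap.adjoint_inner_right]

theorem REG2_eigv (π : A →⋆ₙₐ[ℂ] (H →L[ℂ] H)) {D : NonUnitalStarSubalgebra ℂ A}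
    (hcomm : ∀ x ∈ D, ∀ y ∈ D, x * y = y * x) {χ : A → ℂ}
    {ξ₀ : H} (heig : ∀ d ∈ D, π d ξ₀ = χ d • ξ₀) {n : A}
    (hn : n ∈ normalizer D) {d : A} (hd : d ∈ D) :
    χ (star n * n) • π d (π n ξ₀) = χ (star n * d * n) • π n ξ₀ := by
  have e1 : d * n * (star n * n) = n * (star n * d * n) := by
    calc d * n * (star n * n) = (d * (n * star n)) * n := by simp only [mul_assoc]
      _ = ((n * star n) * d) * n := by rw [hcomm d hd _ hn.2.1]
      _ = n * (star n * d * n) := by simp only [mul_assoc]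
  have e2 : π (d * n * (star n * n)) ξ₀ = χ (star n * n) • π d (π n ξ₀) := by
    rw [REG2_mul, heig _ hn.1, map_smul, REG2_mul]
  have e3 : π (n * (star n * d * n)) ξ₀ = χ (star n * d * n) • π n ξ₀ := by
    rw [REG2_mul, heig _ (hn.2.2.1 d hd), map_smul]
  rw [← e2, e1, e3]

/-- each `π n ξ₀` is a joint eigenvector -/
theorem REG2_mem (π : A →⋆ₙₐ[ℂ] (H →L[ℂ] H)) {D : NonUnitalStarSubalgebra ℂ A}
    (hcomm : ∀ x ∈ D, ∀ y ∈ D, x * y = y * x) {χ : A → ℂ}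
    {ξ₀ : H} (h1 : ‖ξ₀‖ = 1) (heig : ∀ d ∈ D, π d ξ₀ = χ d • ξ₀) {n : A}
    (hn : n ∈ normalizer D) :
    ∃ τ : (↥(π '' (D : Set A)) → ℂ), π n ξ₀ ∈ eig (π '' (D : Set A)) τ := by
  by_cases hc : π n ξ₀ = 0
  · refine ⟨fun _ => 0, ?_⟩
    rw [hc]
    exact Submodule.zero_mem _
  · have hne : ⟪π n ξ₀, π n ξ₀⟫_ℂ ≠ 0 := fun h => hc (inner_self_eq_zero.1 h)
    refine ⟨fun T => ⟪π n ξ₀, (T : H →L[ℂ] H) (π n ξ₀)⟫_ℂ / ⟪π n ξ₀, π n ξ₀⟫_ℂ, ?_⟩
    rintro ⟨T, d, hd, rfl⟩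
    have h2 := REG2_eigv π hcomm heig hn hd
    rw [REG2_norm π h1 heig hn] at h2
    have h3 : π d (π n ξ₀) = (χ (star n * d * n) / ⟪π n ξ₀, π n ξ₀⟫_ℂ) • π n ξ₀ := by
      rw [div_eq_inv_mul, mul_smul, ← h2, smul_smul, inv_mul_cancel₀ hne, one_smul]
    show π d (π n ξ₀) = (⟪π n ξ₀, π d (π n ξ₀)⟫_ℂ / ⟪π n ξ₀, π n ξ₀⟫_ℂ) • π n ξ₀
    rw [h3, inner_smul_right, mul_div_assoc, div_self hne, mul_one]

theorem REG2_prop {π : A →⋆ₙₐ[ℂ] (H →L[ℂ] H)} {D : NonUnitalStarSubalgebra ℂ A}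
    (hcomm : ∀ x ∈ D, ∀ y ∈ D, x * y = y * x) {χ : A → ℂ}
    {ξ₀ : H} (h1 : ‖ξ₀‖ = 1) (heig : ∀ d ∈ D, π d ξ₀ = χ d • ξ₀)
    (hone : ∀ η : H, (∀ d ∈ D, π d η = χ d • η) → ∃ c : ℂ, η = c • ξ₀) {n : A}
    (hn : n ∈ normalizer D) (hv : π n ξ₀ ≠ 0) {t : A → ℂ}
    (ht : ∀ d ∈ D, π d (π n ξ₀) = t d • π n ξ₀) {w : H}
    (hw : ∀ d ∈ D, π d w = t d • w) : ∃ c : ℂ, w = c • π n ξ₀ := by
  have hc : χ (star n * n) ≠ 0 := by
    rw [REG2_norm π h1 heig hn]
    exact fun h => hv (inner_self_eq_zero.1 h)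
  have ht1 : t (n * star n) = χ (star n * n) := by
    have h2 : π (n * star n) (π n ξ₀) = χ (star n * n) • π n ξ₀ := by
      rw [← REG2_mul, mul_assoc, REG2_mul, heig _ hn.1, map_smul]
    rw [ht _ hn.2.1] at h2
    exact smul_left_injective ℂ hv h2
  have ht2 : ∀ d ∈ D, t (n * d * star n) = χ (star n * n) * χ d := by
    intro d hd
    have h2 : π (n * d * star n) (π n ξ₀) = (χ (star n * n) * χ d) • π n ξ₀ := by
      rw [← REG2_mul, mul_assoc, REG2_mul, heig _ hn.1, map_smul, REG2_mul, heig d hd, map_smul,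
        smul_smul]
    rw [ht _ (hn.2.2.2 d hd)] at h2
    exact smul_left_injective ℂ hv h2
  have hu : ∀ d ∈ D, π d (π (star n) w) = χ d • π (star n) w := by
    intro d hd
    have e1 : d * star n * (n * star n) = star n * (n * d * star n) := by
      calc d * star n * (n * star n) = (d * (star n * n)) * star n := by simp only [mul_assoc]
        _ = ((star n * n) * d) * star n := by rw [hcomm d hd _ hn.1]
        _ = star n * (n * d * star n) := by simp only [mul_assoc]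
    have e2 : π (d * star n * (n * star n)) w = χ (star n * n) • π d (π (star n) w) := by
      rw [REG2_mul, hw _ hn.2.1, map_smul, REG2_mul, ht1]
    have e3 : π (star n * (n * d * star n)) w = (χ (star n * n) * χ d) • π (star n) w := by
      rw [REG2_mul, hw _ (hn.2.2.2 d hd), map_smul, ht2 d hd]
    rw [e1, e3, mul_smul] at e2
    exact (smul_right_injective H hc e2).symm
  obtain ⟨l, hl⟩ := hone _ hu
  have e4 : π n (π (star n) w) = χ (star n * n) • w := by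
    rw [← REG2_mul, hw _ hn.2.1, ht1]
  refine ⟨(χ (star n * n))⁻¹ * l, ?_⟩
  rw [hl, map_smul] at e4
  rw [mul_smul, e4, smul_smul, inv_mul_cancel₀ hc, one_smul]

theorem reg_atomic {π : A →⋆ₙₐ[ℂ] (H →L[ℂ] H)} (hπ : IsIrred π)
    (D : NonUnitalStarSubalgebra ℂ A) (hcomm : ∀ x ∈ D, ∀ y ∈ D, x * y = y * x)
    (hreg : IsRegular D) {χ : A → ℂ} {ξ₀ : H} (h1 : ‖ξ₀‖ = 1)
    (heig : ∀ d ∈ D, π d ξ₀ = χ d • ξ₀)
    (hone : ∀ η : H, (∀ d ∈ D, π d η = χ d • η) → ∃ c : ℂ, η = c • ξ₀) :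
    (⨆ τ : (↥(π '' (D : Set A)) → ℂ), eig (π '' (D : Set A)) τ).topologicalClosure = ⊤ ∧
    ∀ τ : (↥(π '' (D : Set A)) → ℂ), FiniteDimensional ℂ (eig (π '' (D : Set A)) τ) := by
  have h0 : ξ₀ ≠ 0 := by
    intro h
    rw [h, norm_zero] at h1
    exact zero_ne_one h1
  have hstar : ∀ T ∈ π '' (D : Set A), star T ∈ π '' (D : Set A) := by
    rintro T ⟨d, hd, rfl⟩
    exact ⟨star d, star_mem hd, map_star π d⟩
  have hcm : ∀ T ∈ π '' (D : Set A), ∀ T' ∈ π '' (D : Set A), T * T' = T' * T := by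
    rintro T ⟨d, hd, rfl⟩ T' ⟨d', hd', rfl⟩
    rw [← map_mul, ← map_mul, hcomm d hd d' hd']
  constructor
  · refine REG2_top hπ hreg h0 _ (Submodule.isClosed_topologicalClosure _) fun n hn => ?_
    obtain ⟨τ, hτ⟩ := REG2_mem π hcomm h1 heig hn
    exact Submodule.le_topologicalClosure _ (Submodule.mem_iSup_of_mem τ hτ)
  · intro τ
    by_cases hex : ∃ n ∈ normalizer D, π n ξ₀ ≠ 0 ∧ π n ξ₀ ∈ eig (π '' (D : Set A)) τ
    · obtain ⟨n, hn, hv, hm⟩ := hex
      have hle : eig (π '' (D : Set A)) τ ≤ ℂ ∙ (π n ξ₀) := by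
        intro w hw
        classical
        obtain ⟨c, hc⟩ := REG2_prop hcomm h1 heig hone hn hv
          (t := fun d => if hd : d ∈ D then τ ⟨π d, d, hd, rfl⟩ else 0)
          (fun d hd => by
            rw [dif_pos hd]
            exact hm ⟨π d, d, hd, rfl⟩)
          (w := w) (fun d hd => by
            rw [dif_pos hd]
            exact hw ⟨π d, d, hd, rfl⟩)
        rw [hc]
        exact Submodule.smul_mem _ _ (Submodule.mem_span_singleton_self _)
      exact Submodule.finiteDimensional_of_le hle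
    · push Not at hex
      have hbot : eig (π '' (D : Set A)) τ = ⊥ := by
        rw [Submodule.eq_bot_iff]
        intro w hw
        refine REG2_orth hπ hreg h0 fun n hn => ?_
        by_cases hv : π n ξ₀ = 0
        · rw [hv, inner_zero_right]
        · obtain ⟨τ', hτ'⟩ := REG2_mem π hcomm h1 heig hn
          have hne : τ ≠ τ' := by
            rintro rfl
            exact hex n hn hv hτ'
          exact eig_orth hstar hcm hne hw hτ'
      rw [hbot]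
      infer_instance

end Vale.Agent.P070
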