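import Vale.Agent.P070.Sep

/-!
# P070, module SPAN: the span of fewer than `2^ℵ₀` vectors has density character `< 2^ℵ₀`

Let `s` = the range of `fun l : List (X × ℚ × ℚ) => (l.map fun p => ((p.2.1 : ℂ) + p.2.2 * I) • p.1).sum`
(`Cardinal.mk_list_le_max`).  `closure s` is closed under addition (`s` is), and under scalars
(`c • q • x ∈ closure {q' • x}`), so it is a submodule containing `X`.
-/

open scoped ComplexOrder InnerProductSpace

namespace Vale.Agent.P070

variable {H : Type*} [NormedAddCommGroup H] [InnerProductSpace ℂ H] [CompleteSpace H]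

theorem small_span (X : Set H) (hX : Cardinal.mk X < Cardinal.continuum) :
    SmallDim (Submodule.span ℂ X) := by
  obtain ⟨t, htc, htd⟩ := TopologicalSpace.exists_countable_dense ℂ
  obtain ⟨Y, hYdef⟩ : ∃ Y : Set H, Y = (fun p : ℂ × H => p.1 • p.2) '' (t ×ˢ X) := ⟨_, rfl⟩
  have hY : Cardinal.mk Y < Cardinal.continuum := by
    rw [hYdef]
    obtain ⟨f, hf⟩ : ∃ f : (↥t × ↥X) → ↥((fun p : ℂ × H => p.1 • p.2) '' (t ×ˢ X)),
        Function.Surjective f := by
      refine ⟨fun z => ⟨(z.1 : ℂ) • (z.2 : H), ⟨(z.1, z.2), ⟨z.1.2, z.2.2⟩, rfl⟩⟩, ?_⟩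
      rintro ⟨_, ⟨⟨q, x⟩, ⟨hq, hx⟩, rfl⟩⟩
      exact ⟨(⟨q, hq⟩, ⟨x, hx⟩), rfl⟩
    have h1 := Cardinal.mk_le_of_surjective (α := ULift.{0} (↥t × ↥X))
      (f := fun z => f z.down) (fun y => by
        obtain ⟨z, hz⟩ := hf y
        exact ⟨⟨z⟩, hz⟩)
    refine lt_of_le_of_lt h1 ?_
    rw [Cardinal.mk_uLift, Cardinal.lift_uzero, Cardinal.mk_prod, Cardinal.lift_uzero]
    refine Cardinal.mul_lt_of_lt Cardinal.aleph0_le_continuum ?_ hX
    rw [← Cardinal.lift_continuum.{_, 0}, Cardinal.lift_lt]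
    exact lt_of_le_of_lt htc.le_aleph0 Cardinal.aleph0_lt_continuum
  obtain ⟨s, hsdef⟩ : ∃ s : Set H, s = Set.range (fun l : List ↥Y => (List.map (fun y : ↥Y => (y : H)) l).sum) :=
    ⟨_, rfl⟩
  have hs : Cardinal.mk s < Cardinal.continuum := by
    rw [hsdef]
    refine lt_of_le_of_lt Cardinal.mk_range_le ?_
    exact lt_of_le_of_lt (Cardinal.mk_list_le_max _) (max_lt Cardinal.aleph0_lt_continuum hY)
  have hadd : ∀ a ∈ s, ∀ b ∈ s, a + b ∈ s := by
    rw [hsdef]
    rintro _ ⟨l, rfl⟩ _ ⟨m, rfl⟩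
    exact ⟨l ++ m, by simp⟩
  have hzero : (0 : H) ∈ s := by
    rw [hsdef]
    exact ⟨[], rfl⟩
  have hsing : ∀ q ∈ t, ∀ x ∈ X, q • x ∈ s := by
    intro q hq x hx
    have h1 : q • x ∈ Y := by
      rw [hYdef]
      exact ⟨(q, x), ⟨hq, hx⟩, rfl⟩
    rw [hsdef]
    exact ⟨[⟨q • x, h1⟩], by simp⟩
  have hx : ∀ c : ℂ, ∀ x ∈ X, c • x ∈ closure s := by
    intro c x hx
    have hcont : Continuous fun c : ℂ => c • x := by fun_prop
    have h1 : c • x ∈ closure ((fun c : ℂ => c • x) '' t) :=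
      image_closure_subset_closure_image hcont ⟨c, by rw [htd.closure_eq]; trivial, rfl⟩
    refine closure_mono ?_ h1
    rintro _ ⟨q, hq, rfl⟩
    exact hsing q hq x hx
  have hcadd : ∀ a ∈ closure s, ∀ b ∈ closure s, a + b ∈ closure s := by
    intro a ha b hb
    exact map_mem_closure₂ continuous_add ha hb hadd
  have hsmul : ∀ c : ℂ, ∀ a ∈ s, c • a ∈ closure s := by
    intro c a ha
    rw [hsdef] at ha
    obtain ⟨l, rfl⟩ := ha
    induction l with
    | nil =>
      show c • (0 : H) ∈ closure s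
      rw [smul_zero]
      exact subset_closure hzero
    | cons y l ih =>
      show c • ((y : H) + (List.map (fun y : ↥Y => (y : H)) l).sum) ∈ closure s
      rw [smul_add]
      refine hcadd _ ?_ _ ih
      have hy := (Set.ext_iff.1 hYdef (y : H)).1 y.2
      obtain ⟨⟨q, x⟩, ⟨hq, hx'⟩, hqx⟩ := hy
      rw [← hqx, smul_smul]
      exact hx (c * q) x hx'
  let K : Submodule ℂ H :=
    { carrier := closure s
      add_mem' := fun {a b} ha hb => hcadd a ha b hb
      zero_mem' := subset_closure hzero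
      smul_mem' := fun c a ha => by
        have h1 : c • a ∈ closure (closure s) :=
          map_mem_closure (continuous_const_smul c) ha (hsmul c)
        rwa [closure_closure] at h1 }
  refine ⟨s, hs, ?_⟩
  have h1 : Submodule.span ℂ X ≤ K := by
    rw [Submodule.span_le]
    intro x hxX
    have := hx 1 x hxX
    rwa [one_smul] at this
  exact h1

end Vale.Agent.P070
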