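import Vale.Agent.P070.CharDefs
import Vale.Agent.P070.Nondeg
import Vale.Agent.P070.Spread
import Vale.Agent.P070.SpanC
import Vale.Agent.P070.Reg2

/-!
# P070, module ISO: small isotropy gives a small joint eigenspace

`S` is a total set of normalisers of `D`, `ξ₀ ≠ 0` is a joint eigenvector of `π(D)` with eigenvalues
`χ`, and the `n ∈ S` which fix `χ` are, near `χ`, multiples of fewer than `2^ℵ₀` elements (`N`).
(a) As in `Reg4.lean` (same calculation; look at `Reg2.lean`, `Reg4.lean` on main and reuse):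
for `n ∈ S`, `c = χ (n* n)`, `‖π n ξ₀‖² = c ‖ξ₀‖²`, and `c π d (π n ξ₀) = χ (n* d n) π n ξ₀`; so every
`π n ξ₀` is `0` or a joint eigenvector, with eigenvalues `χ (n* d n) / c`.
(b) Let `E = {η | ∀ d ∈ D, π d η = χ d • η}` (a closed subspace).  If `π n ξ₀ ≠ 0` has eigenvalues
different from `χ` on `D` it is orthogonal to `E` (`χ (star d) = conj (χ d)` because `ξ₀ ≠ 0` is an
eigenvector; or `eig_orth`).  Otherwise `χ (n* d n) = c χ d` for all `d ∈ D`, and `hiso` gives, for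
every `ε`, `m ∈ N`, `z : ℂ`, `d ∈ D`, `χ d = 1`, with `‖π n ξ₀ - z • π m ξ₀‖ = ‖π ((n - z m) d) ξ₀‖
≤ ε ‖ξ₀‖`; so `π n ξ₀ ∈ closure (span X)`, `X = {π m ξ₀ | m ∈ N}`.
(c) The `π n ξ₀`, `n ∈ S`, are total in `H` (`orbit_dense`, `hSd`).  Let `K` be the closed span of `X`
and `η ∈ E`; let `η' = η - P η`, with `P` the orthogonal projection onto `E ⊓ K`... simplest:
let `L` be the closed span of the `π n ξ₀`, `n ∈ S`, which lie in `E`; `L ≤ E`, and `η' = η - P_L η ∈ E` is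
orthogonal to all `π n ξ₀`, `n ∈ S` (those in `E` because they lie in `L`, the others because they are
orthogonal to `E`), so `η' = 0` and `η ∈ L ⊆ K`.  `small_span` and `SEP_closure` give the claim.
-/

open scoped ComplexOrder InnerProductSpace

namespace Vale.Agent.P070

universe u
variable {A : Type u} [NonUnitalCStarAlgebra A]
variable {H : Type u} [NormedAddCommGroup H] [InnerProductSpace ℂ H] [CompleteSpace H]

theorem ISO_all {π : A →⋆ₙₐ[ℂ] (H →L[ℂ] H)} {S : Set A}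
    (hSd : Dense (Submodule.span ℂ S : Set A)) {ξ₀ : H} (K : Submodule ℂ H)
    (hK : IsClosed (K : Set H)) (h : ∀ n ∈ S, π n ξ₀ ∈ K) (a : A) : π a ξ₀ ∈ K := by
  have hspan : ∀ b ∈ Submodule.span ℂ S, π b ξ₀ ∈ K := by
    intro b hb
    induction hb using Submodule.span_induction with
    | mem n hn => exact h n hn
    | zero =>
      rw [map_zero]
      exact K.zero_mem
    | add x y _ _ hx hy =>
      rw [map_add]
      exact K.add_mem hx hy
    | smul c x _ hx =>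
      rw [map_smul]
      exact K.smul_mem c hx
  have hcl : IsClosed {b : A | π b ξ₀ ∈ K} := hK.preimage (REG2_cont π ξ₀)
  exact closure_minimal (fun b hb => hspan b hb) hcl (hSd a)

theorem ISO_orth {π : A →⋆ₙₐ[ℂ] (H →L[ℂ] H)} (hπ : IsIrred π) {S : Set A}
    (hSd : Dense (Submodule.span ℂ S : Set A)) {ξ₀ : H} (h0 : ξ₀ ≠ 0) {w : H}
    (h : ∀ n ∈ S, ⟪w, π n ξ₀⟫_ℂ = 0) : w = 0 := by
  have h1 : (ℂ ∙ w)ᗮ = ⊤ := by
    rw [Submodule.eq_top_iff']
    intro η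
    have h1 : η ∈ closure ((ℂ ∙ w)ᗮ : Set H) := by
      rw [Metric.mem_closure_iff]
      intro ε hε
      obtain ⟨a, ha⟩ := orbit_dense hπ h0 η hε
      exact ⟨π a ξ₀, ISO_all hSd (ℂ ∙ w)ᗮ (Submodule.isClosed_orthogonal _)
        (fun n hn => Submodule.mem_orthogonal_singleton_iff_inner_right.2 (h n hn)) a,
        by rwa [dist_comm, dist_eq_norm]⟩
    rwa [(Submodule.isClosed_orthogonal _).closure_eq] at h1
  have h2 : w ∈ (ℂ ∙ w)ᗮ := by
    rw [h1]
    trivial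
  exact inner_self_eq_zero.1 (Submodule.mem_orthogonal_singleton_iff_inner_right.1 h2)

/-- the normalised version -/
theorem ISO_unit {π : A →⋆ₙₐ[ℂ] (H →L[ℂ] H)} (hπ : IsIrred π)
    (D : NonUnitalStarSubalgebra ℂ A) (hcomm : ∀ x ∈ D, ∀ y ∈ D, x * y = y * x)
    (S : Set A) (hS : S ⊆ normalizer D) (hSd : Dense (Submodule.span ℂ S : Set A))
    {χ : A → ℂ} {ξ : H} (h1 : ‖ξ‖ = 1) (heig : ∀ d ∈ D, π d ξ = χ d • ξ) :
    {η : H | ∀ d ∈ D, π d η = χ d • η} ⊆ closure (Submodule.span ℂ {v : H | ∃ n ∈ S,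
      χ (star n * n) ≠ 0 ∧ (∀ d ∈ D, χ (star n * d * n) = χ (star n * n) * χ d) ∧
        v = π n ξ} : Set H) := by
  intro η hη
  have hξ0 : ξ ≠ 0 := by
    intro h
    rw [h, norm_zero] at h1
    exact zero_ne_one h1
  have hstar : ∀ T ∈ π '' (D : Set A), star T ∈ π '' (D : Set A) := by
    rintro T ⟨d, hd, rfl⟩
    exact ⟨star d, star_mem hd, map_star π d⟩
  have hcm : ∀ T ∈ π '' (D : Set A), ∀ T' ∈ π '' (D : Set A), T * T' = T' * T := by
    rintro T ⟨d, hd, rfl⟩ T' ⟨d', hd', rfl⟩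
    rw [← map_mul, ← map_mul, hcomm d hd d' hd']
  obtain ⟨X, hX⟩ : ∃ X : Set H, X = {v : H | ∃ n ∈ S,
      χ (star n * n) ≠ 0 ∧ (∀ d ∈ D, χ (star n * d * n) = χ (star n * n) * χ d) ∧
        v = π n ξ} := ⟨_, rfl⟩
  rw [← hX]
  obtain ⟨τ, hτ⟩ : ∃ τ : (↥(π '' (D : Set A)) → ℂ), ∀ d (hd : d ∈ D),
      τ ⟨π d, d, hd, rfl⟩ = χ d := by
    refine ⟨fun T => ⟪ξ, (T : H →L[ℂ] H) ξ⟫_ℂ, fun d hd => ?_⟩
    show ⟪ξ, π d ξ⟫_ℂ = χ d
    rw [heig d hd, inner_smul_right, inner_self_eq_norm_sq_to_K, h1]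
    simp
  have hE : ∀ v : H, v ∈ eig (π '' (D : Set A)) τ ↔ ∀ d ∈ D, π d v = χ d • v := by
    intro v
    constructor
    · intro hv d hd
      have := hv ⟨π d, d, hd, rfl⟩
      rwa [hτ d hd] at this
    · rintro hv ⟨T, d, hd, rfl⟩
      rw [hτ d hd]
      exact hv d hd
  obtain ⟨L, hL⟩ : ∃ L : Submodule ℂ H, L = (Submodule.span ℂ X).topologicalClosure := ⟨_, rfl⟩
  have hLc : IsClosed (L : Set H) := by
    rw [hL]; exact Submodule.isClosed_topologicalClosure _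
  have hEc : IsClosed ((eig (π '' (D : Set A)) τ : Submodule ℂ H) : Set H) := by
    have : ((eig (π '' (D : Set A)) τ : Submodule ℂ H) : Set H) =
        ⋂ d : ↥(π '' (D : Set A)), {v : H | (d : H →L[ℂ] H) v = τ d • v} := by
      ext v
      rw [Set.mem_iInter]
      exact Iff.rfl
    rw [this]
    exact isClosed_iInter fun d =>
      isClosed_eq (d : H →L[ℂ] H).continuous (continuous_const_smul (τ d))
  have hLE : L ≤ eig (π '' (D : Set A)) τ := by
    rw [hL]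
    refine Submodule.topologicalClosure_minimal _ (Submodule.span_le.2 ?_) hEc
    rw [hX]
    rintro v ⟨n, hn, hc, hch, rfl⟩
    refine (hE _).2 fun d hd => ?_
    have h2 := REG2_eigv π hcomm heig (hS hn) hd
    rw [hch d hd, mul_smul] at h2
    exact smul_right_injective H hc h2
  have hcomp : CompleteSpace L := hLc.completeSpace_coe
  have hdec := L.sub_starProjection_mem_orthogonal η
  have hpm : L.starProjection η ∈ L := L.starProjection_apply_mem η
  have hw0 : η - L.starProjection η = 0 := by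
    refine ISO_orth hπ hSd hξ0 fun n hn => ?_
    by_cases hin : π n ξ ∈ eig (π '' (D : Set A)) τ
    · by_cases hz : π n ξ = 0
      · rw [hz, inner_zero_right]
      have hc : χ (star n * n) ≠ 0 := by
        rw [REG2_norm π h1 heig (hS hn)]
        exact fun h => hz (inner_self_eq_zero.1 h)
      have hch : ∀ d ∈ D, χ (star n * d * n) = χ (star n * n) * χ d := by
        intro d hd
        have h2 := REG2_eigv π hcomm heig (hS hn) hd
        rw [(hE _).1 hin d hd, smul_smul] at h2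
        exact (smul_left_injective ℂ hz h2).symm
      have hm : π n ξ ∈ L := by
        rw [hL]
        refine Submodule.le_topologicalClosure _ (Submodule.subset_span ?_)
        rw [hX]
        exact ⟨n, hn, hc, hch, rfl⟩
      exact Submodule.inner_left_of_mem_orthogonal hm hdec
    · obtain ⟨τ', hτ'⟩ := REG2_mem π hcomm h1 heig (hS hn)
      have hne : τ ≠ τ' := by
        rintro rfl
        exact hin hτ'
      refine eig_orth hstar hcm hne ?_ hτ'
      exact Submodule.sub_mem _ ((hE η).2 hη) (hLE hpm)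
  have hηL : η ∈ L := by
    rw [sub_eq_zero] at hw0
    rw [hw0]
    exact hpm
  rw [← Submodule.topologicalClosure_coe, ← hL]
  exact hηL

theorem iso_core {π : A →⋆ₙₐ[ℂ] (H →L[ℂ] H)} (hπ : IsIrred π)
    (D : NonUnitalStarSubalgebra ℂ A) (hcomm : ∀ x ∈ D, ∀ y ∈ D, x * y = y * x)
    (S : Set A) (hS : S ⊆ normalizer D) (hSd : Dense (Submodule.span ℂ S : Set A))
    {χ : A → ℂ} {ξ₀ : H} (h0 : ξ₀ ≠ 0) (heig : ∀ d ∈ D, π d ξ₀ = χ d • ξ₀) :
    {η : H | ∀ d ∈ D, π d η = χ d • η} ⊆ closure (Submodule.span ℂ {v : H | ∃ n ∈ S,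
      χ (star n * n) ≠ 0 ∧ (∀ d ∈ D, χ (star n * d * n) = χ (star n * n) * χ d) ∧
        v = π n ξ₀} : Set H) := by
  obtain ⟨ξ, hξ⟩ : ∃ ξ, ξ = ((‖ξ₀‖⁻¹ : ℝ) : ℂ) • ξ₀ := ⟨_, rfl⟩
  have hn0 : ‖ξ₀‖ ≠ 0 := norm_ne_zero_iff.2 h0
  have h1 : ‖ξ‖ = 1 := by
    rw [hξ, norm_smul, Complex.norm_real, norm_inv, norm_norm, inv_mul_cancel₀ hn0]
  have heig' : ∀ d ∈ D, π d ξ = χ d • ξ := by
    intro d hd
    rw [hξ, map_smul, heig d hd, smul_comm]
  refine (ISO_unit hπ D hcomm S hS hSd h1 heig').trans (closure_mono ?_)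
  refine SetLike.coe_subset_coe.2 (Submodule.span_le.2 ?_)
  rintro v ⟨n, hn, hc, hch, rfl⟩
  rw [hξ, map_smul]
  exact Submodule.smul_mem _ _ (Submodule.subset_span ⟨n, hn, hc, hch, rfl⟩)

theorem iso_small {π : A →⋆ₙₐ[ℂ] (H →L[ℂ] H)} (hπ : IsIrred π)
    (D : NonUnitalStarSubalgebra ℂ A) (hcomm : ∀ x ∈ D, ∀ y ∈ D, x * y = y * x)
    (S : Set A) (hS : S ⊆ normalizer D) (hSd : Dense (Submodule.span ℂ S : Set A))
    {χ : A → ℂ} {ξ₀ : H} (h0 : ξ₀ ≠ 0) (heig : ∀ d ∈ D, π d ξ₀ = χ d • ξ₀)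
    (N : Set A) (hNc : Cardinal.mk N < Cardinal.continuum)
    (hiso : ∀ n ∈ S, χ (star n * n) ≠ 0 →
      (∀ d ∈ D, χ (star n * d * n) = χ (star n * n) * χ d) →
      ∀ ε > 0, ∃ m ∈ N, ∃ z : ℂ, ∃ d ∈ D, χ d = 1 ∧ ‖(n - z • m) * d‖ < ε) :
    ∃ s : Set H, Cardinal.mk s < Cardinal.continuum ∧
      {η : H | ∀ d ∈ D, π d η = χ d • η} ⊆ closure s := by
  obtain ⟨X, hX⟩ : ∃ X : Set H, X = (fun m => π m ξ₀) '' N := ⟨_, rfl⟩
  have hXc : Cardinal.mk X < Cardinal.continuum := by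
    rw [hX]
    exact lt_of_le_of_lt Cardinal.mk_image_le hNc
  obtain ⟨s, hsc, hss⟩ := small_span X hXc
  refine ⟨s, hsc, (iso_core hπ D hcomm S hS hSd h0 heig).trans ?_⟩
  refine Set.Subset.trans ?_ (closure_minimal hss isClosed_closure)
  rw [← Submodule.topologicalClosure_coe, ← Submodule.topologicalClosure_coe]
  refine SetLike.coe_subset_coe.2 (Submodule.topologicalClosure_minimal _
    (Submodule.span_le.2 ?_) (Submodule.isClosed_topologicalClosure _))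
  rintro v ⟨n, hn, hc, hch, rfl⟩
  rw [Submodule.topologicalClosure_coe, Metric.mem_closure_iff]
  intro ε hε
  have hn0 : 0 < ‖ξ₀‖ := norm_pos_iff.2 h0
  obtain ⟨m, hm, z, d, hd, hd1, hlt⟩ := hiso n hn hc hch (ε / ‖ξ₀‖) (div_pos hε hn0)
  refine ⟨z • π m ξ₀, Submodule.smul_mem _ _ (Submodule.subset_span ?_), ?_⟩
  · rw [hX]
    exact ⟨m, hm, rfl⟩
  · have e1 : π ((n - z • m) * d) ξ₀ = π n ξ₀ - z • π m ξ₀ := by
      rw [REG2_mul, heig d hd, hd1, one_smul, map_sub, map_smul]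
      rfl
    rw [dist_eq_norm, ← e1]
    refine lt_of_le_of_lt ((π _).le_opNorm ξ₀) ?_
    have h5 := lt_of_le_of_lt (NonUnitalStarAlgHom.norm_apply_le π ((n - z • m) * d)) hlt
    calc ‖π ((n - z • m) * d)‖ * ‖ξ₀‖ < ε / ‖ξ₀‖ * ‖ξ₀‖ := mul_lt_mul_of_pos_right h5 hn0
      _ = ε := div_mul_cancel₀ _ hn0.ne'

end Vale.Agent.P070
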