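import Vale.Agent.P070.Defs

/-!
# P070, module IRR: the GNS representation of a nonzero extreme point is irreducible

Let `K` be a closed invariant subspace, `P` the orthogonal projection onto `K`; `K^⊥` is
invariant too (`π` is a star map), so `P` commutes with all `ρ a`.  Put `ξ = D.ξ`,
`η = P ξ`, `θ = ξ - η`.  If `η = 0` then all `ρ a ξ ∈ K^⊥`, so `K^⊥ = ⊤` by `cyc`, `K = ⊥`.  If
`θ = 0` then `K = ⊤` by `cyc`.  Otherwise let `t = ‖η‖²/‖ξ‖² ∈ (0,1)`; the functionals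
`ψ₁ a = t⁻¹ ⟪η, ρ a η⟫`, `ψ₂ a = (1-t)⁻¹ ⟪θ, ρ a θ⟫` are in `Q A` (positive; norm `≤ ‖ξ‖² ≤ 1`)
and `φ = t ψ₁ + (1-t) ψ₂`.  By extremality `ψ₁ = φ`: `⟪η, ρ a ξ⟫ = ⟪η, ρ a η⟫ = t ⟪ξ, ρ a ξ⟫`
for all `a`; the orbit of `ξ` is total (`cyc`), so `η = t ξ`, and `P η = η` gives `t = 1`,
contradiction.  `ρ ≠ 0` because `φ ≠ 0`.
-/

open scoped ComplexOrder InnerProductSpace

namespace Vale.Agent.P070

universe u
variable {A : Type u} [NonUnitalCStarAlgebra A]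

theorem irr_adj {H : Type*} [NormedAddCommGroup H] [InnerProductSpace ℂ H] [CompleteSpace H]
    (ρ : A →⋆ₙₐ[ℂ] (H →L[ℂ] H)) (a : A) (x y : H) : ⟪x, ρ a y⟫_ℂ = ⟪ρ (star a) x, y⟫_ℂ := by
  rw [map_star, ContinuousLinearMap.star_eq_adjoint, ContinuousLinearMap.adjoint_inner_left]

theorem irr_vec_mem {H : Type*} [NormedAddCommGroup H] [InnerProductSpace ℂ H] [CompleteSpace H]
    (ρ : A →⋆ₙₐ[ℂ] (H →L[ℂ] H)) {x : H} (hx : ‖x‖ ≤ 1) : vec ρ x ∈ Q A := by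
  constructor
  · intro a
    rw [vec_apply, map_mul]
    show 0 ≤ ⟪x, ρ (star a) (ρ a x)⟫_ℂ
    rw [irr_adj, star_star]
    rw [inner_self_eq_norm_sq_to_K]
    have h1 : (0 : ℂ) ≤ ((‖ρ a x‖ ^ 2 : ℝ) : ℂ) := Complex.zero_le_real.2 (sq_nonneg _)
    rw [Complex.ofReal_pow] at h1
    exact h1
  · intro a
    rw [vec_apply]
    calc ‖⟪x, ρ a x⟫_ℂ‖ ≤ ‖x‖ * ‖ρ a x‖ := norm_inner_le_norm _ _
      _ ≤ ‖x‖ * (‖ρ a‖ * ‖x‖) := by gcongr; exact (ρ a).le_opNorm x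
      _ ≤ ‖x‖ * (‖a‖ * ‖x‖) := by gcongr; exact NonUnitalStarAlgHom.norm_apply_le ρ a
      _ ≤ 1 * (‖a‖ * 1) := by gcongr
      _ = ‖a‖ := by ring

theorem irred_of_extreme {φ : WeakDual ℂ A} (hφ : φ ∈ (Q A).extremePoints ℝ) (h0 : φ ≠ 0)
    (D : GNSData φ) : IsIrred D.ρ := by
  refine ⟨?_, ?_⟩
  · by_contra hcon
    push Not at hcon
    refine h0 (ContinuousLinearMap.ext fun a => ?_)
    show φ a = 0
    rw [D.apply, hcon a]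
    simp
  intro K hKc hKi
  have : CompleteSpace K := hKc.completeSpace_coe
  have hKo : ∀ a, ∀ x ∈ Kᗮ, D.ρ a x ∈ Kᗮ := by
    intro a x hx
    rw [Submodule.mem_orthogonal] at hx ⊢
    intro k hk
    rw [irr_adj]
    exact hx _ (hKi _ k hk)
  set ξ := D.ξ with hξ
  obtain ⟨η, hη, θ, hθ, hsum⟩ : ∃ η ∈ K, ∃ θ ∈ Kᗮ, η + θ = ξ := by
    refine ⟨K.starProjection ξ, K.starProjection_apply_mem ξ, ξ - K.starProjection ξ, ?_, ?_⟩
    · exact K.sub_starProjection_mem_orthogonal ξ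
    · abel
  by_cases hη0 : η = 0
  · left
    rw [hη0, zero_add] at hsum
    have h1 : Kᗮ = ⊤ := D.cyc Kᗮ K.isClosed_orthogonal fun a => by
      rw [← hξ, ← hsum]
      exact hKo a θ hθ
    rwa [Submodule.orthogonal_eq_top_iff] at h1
  by_cases hθ0 : θ = 0
  · right
    rw [hθ0, add_zero] at hsum
    exact D.cyc K hKc fun a => by
      rw [← hξ, ← hsum]
      exact hKi a η hη
  exfalso
  have hin : ∀ x ∈ K, ∀ y ∈ Kᗮ, ⟪x, y⟫_ℂ = 0 := fun x hx y hy =>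
    (Submodule.mem_orthogonal K y).1 hy x hx
  have hin' : ∀ x ∈ K, ∀ y ∈ Kᗮ, ⟪y, x⟫_ℂ = 0 := fun x hx y hy => by
    rw [← inner_conj_symm, hin x hx y hy, map_zero]
  have hηp : 0 < ‖η‖ := norm_pos_iff.2 hη0
  have hθp : 0 < ‖θ‖ := norm_pos_iff.2 hθ0
  have hpy : ‖ξ‖ ^ 2 = ‖η‖ ^ 2 + ‖θ‖ ^ 2 := by
    have h1 := norm_add_sq_eq_norm_sq_add_norm_sq_of_inner_eq_zero η θ (hin η hη θ hθ)
    rw [hsum] at h1
    nlinarith
  have hξp : 0 < ‖ξ‖ := by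
    by_contra hcon
    have : ‖ξ‖ = 0 := le_antisymm (not_lt.1 hcon) (norm_nonneg _)
    rw [this] at hpy
    nlinarith
  set t : ℝ := ‖η‖ ^ 2 / ‖ξ‖ ^ 2 with ht
  have ht0 : 0 < t := by positivity
  have ht1 : 1 - t = ‖θ‖ ^ 2 / ‖ξ‖ ^ 2 := by
    rw [ht]
    field_simp
    linarith
  have ht1p : 0 < 1 - t := by rw [ht1]; positivity
  have hdec : ∀ a, ⟪ξ, D.ρ a ξ⟫_ℂ = ⟪η, D.ρ a η⟫_ℂ + ⟪θ, D.ρ a θ⟫_ℂ := by
    intro a
    rw [← hsum, map_add, inner_add_left, inner_add_right, inner_add_right,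
      hin η hη _ (hKo a θ hθ), hin' _ (hKi a η hη) θ hθ]
    ring
  set c1 : ℝ := ‖ξ‖ / ‖η‖ with hc1
  set c2 : ℝ := ‖ξ‖ / ‖θ‖ with hc2
  have hq1 : vec D.ρ ((c1 : ℂ) • η) ∈ Q A := irr_vec_mem D.ρ (by
    rw [norm_smul, Complex.norm_real, Real.norm_of_nonneg (by positivity), hc1,
      div_mul_cancel₀ _ hηp.ne']
    exact D.norm_le)
  have hq2 : vec D.ρ ((c2 : ℂ) • θ) ∈ Q A := irr_vec_mem D.ρ (by
    rw [norm_smul, Complex.norm_real, Real.norm_of_nonneg (by positivity), hc2,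
      div_mul_cancel₀ _ hθp.ne']
    exact D.norm_le)
  have hv : ∀ (c : ℝ) (x : D.H) (a : A), vec D.ρ ((c : ℂ) • x) a = ((c ^ 2 : ℝ) : ℂ) *
      ⟪x, D.ρ a x⟫_ℂ := by
    intro c x a
    rw [vec_apply, map_smul, inner_smul_left, inner_smul_right, Complex.conj_ofReal]
    push_cast
    ring
  have hseg : φ ∈ openSegment ℝ (vec D.ρ ((c1 : ℂ) • η)) (vec D.ρ ((c2 : ℂ) • θ)) := by
    refine ⟨t, 1 - t, ht0, ht1p, by ring, ?_⟩
    refine ContinuousLinearMap.ext fun a => ?_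
    show t • (vec D.ρ ((c1 : ℂ) • η) a) + (1 - t) • (vec D.ρ ((c2 : ℂ) • θ) a) = φ a
    rw [hv, hv, D.apply, ← hξ, hdec a, Complex.real_smul, Complex.real_smul, ← mul_assoc,
      ← mul_assoc, ← Complex.ofReal_mul, ← Complex.ofReal_mul, ht1, ht, hc1, hc2]
    have e1 : ‖η‖ ^ 2 / ‖ξ‖ ^ 2 * (‖ξ‖ / ‖η‖) ^ 2 = 1 := by field_simp
    have e2 : ‖θ‖ ^ 2 / ‖ξ‖ ^ 2 * (‖ξ‖ / ‖θ‖) ^ 2 = 1 := by field_simp
    rw [e1, e2, Complex.ofReal_one, one_mul, one_mul]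
  have hext := (mem_extremePoints.1 hφ).2 _ hq1 _ hq2 hseg
  have h1 : ∀ a, ⟪η - (t : ℂ) • ξ, D.ρ a ξ⟫_ℂ = 0 := by
    intro a
    have h2 : vec D.ρ ((c1 : ℂ) • η) a = φ a := by rw [hext.1]
    rw [hv, D.apply, ← hξ] at h2
    have h3 : ⟪η, D.ρ a ξ⟫_ℂ = ⟪η, D.ρ a η⟫_ℂ := by
      rw [← hsum, map_add, inner_add_right, hin η hη _ (hKo a θ hθ), add_zero]
    rw [inner_sub_left, inner_smul_left, Complex.conj_ofReal, h3, ← h2, ← mul_assoc,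
      ← Complex.ofReal_mul, ht, hc1]
    have e1 : ‖η‖ ^ 2 / ‖ξ‖ ^ 2 * (‖ξ‖ / ‖η‖) ^ 2 = 1 := by field_simp
    rw [e1, Complex.ofReal_one, one_mul, sub_self]
  have h2 : (Submodule.span ℂ {η - (t : ℂ) • ξ})ᗮ = ⊤ :=
    D.cyc _ (Submodule.isClosed_orthogonal _) fun a => by
      rw [Submodule.mem_orthogonal_singleton_iff_inner_right]
      exact h1 a
  have h3 : η - (t : ℂ) • ξ ∈ (Submodule.span ℂ {η - (t : ℂ) • ξ})ᗮ := by
    rw [h2]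
    trivial
  rw [Submodule.mem_orthogonal_singleton_iff_inner_right, inner_self_eq_zero, sub_eq_zero] at h3
  have h4 := hin η hη θ hθ
  have h5 : θ = ((1 - t : ℝ) : ℂ) • ξ := by
    have : θ = ξ - η := by rw [← hsum]; abel
    rw [this]
    nth_rewrite 1 [h3]
    push_cast
    rw [sub_smul, one_smul]
  rw [h5, inner_smul_right] at h4
  have h6 : ⟪η, ξ⟫_ℂ = ((t * ‖ξ‖ ^ 2 : ℝ) : ℂ) := by
    nth_rewrite 1 [h3]
    rw [inner_smul_left, Complex.conj_ofReal, inner_self_eq_norm_sq_to_K]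
    push_cast
    rfl
  rw [h6, ← Complex.ofReal_mul, Complex.ofReal_eq_zero] at h4
  have : 0 < (1 - t) * (t * ‖ξ‖ ^ 2) := by positivity
  linarith

end Vale.Agent.P070
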