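import Vale.Agent.P070.Weak
import Vale.Agent.P070.Gns
import Vale.Agent.P070.Irr
import Vale.Agent.P070.Exist

/-!
# P070, module PURE (helper75): consequences of property (N)
-/

open scoped ComplexOrder InnerProductSpace

namespace Vale.Agent.P070

universe u
variable {A : Type u} [NonUnitalCStarAlgebra A]
variable {H : Type u} [NormedAddCommGroup H] [InnerProductSpace ℂ H] [CompleteSpace H]

/-- Under (N) every nonzero extreme quasi-state is a vector functional of `π`. -/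
theorem pure_vector (hN : PropertyN A) {π : A →⋆ₙₐ[ℂ] (H →L[ℂ] H)} (hπ : IsIrred π)
    {φ : WeakDual ℂ A} (hφ : φ ∈ (Q A).extremePoints ℝ) (h0 : φ ≠ 0) :
    ∃ ζ : H, ζ ≠ 0 ∧ ‖ζ‖ ≤ 1 ∧ ∀ a, φ a = ⟪ζ, π a ζ⟫_ℂ := by
  obtain ⟨D⟩ := gns_exists hφ.1
  have hD : IsIrred D.ρ := irred_of_extreme hφ h0 D
  obtain ⟨U, hU⟩ := hN.2 D.H H D.ρ π hD hπ
  have hval : ∀ a, φ a = ⟪U D.ξ, π a (U D.ξ)⟫_ℂ := by
    intro a
    rw [← hU a D.ξ, U.inner_map_map, D.apply a]
  refine ⟨U D.ξ, ?_, ?_, hval⟩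
  · intro hz
    apply h0
    refine DFunLike.ext _ _ fun a => ?_
    rw [hval a, hz]
    simp only [map_zero, inner_zero_left]
    rfl
  · rw [U.norm_map]
    exact D.norm_le

/-- Under (N) irreducible representations are faithful. -/
theorem injective_of_N (hN : PropertyN A) {π : A →⋆ₙₐ[ℂ] (H →L[ℂ] H)} (hπ : IsIrred π) :
    Function.Injective π := by
  rw [injective_iff_map_eq_zero]
  intro a ha
  by_contra hne
  obtain ⟨φ, hφ, hφa⟩ := exists_Q_ne a hne
  obtain ⟨ψ, hψ, hψa⟩ := exists_extreme_ne Q_isCompact Q_convex hφ hφa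
  have hψ0 : ψ ≠ 0 := by
    rintro rfl
    exact hψa rfl
  obtain ⟨ζ, -, -, hζ⟩ := pure_vector hN hπ hψ hψ0
  apply hψa
  rw [hζ, map_mul, ha]
  simp

end Vale.Agent.P070
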