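import Vale.Agent.P070.Weak

/-!
# P070, module SLICE: slices form a neighbourhood base at extreme points (Choquet/Milman)

`φ₀` extreme in `Q A`, finitely many closed convex sets `C i ⊆ Q A` not containing `φ₀`.
(1) `C = convexHull ℝ (⋃ i, C i)` is compact: it is the image of the compact set
`stdSimplex × Π i, C i` (restrict to the nonempty `C i`) under `(w, ψ) ↦ ∑ w i • ψ i`;
(induction on the number of sets with `convexJoin` is an alternative).
(2) `φ₀ ∉ C`: if `φ₀ = ∑ w i ψ i` is a convex combination of points `ψ i ∈ C i ⊆ Q A`, extremality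
gives `φ₀ = ψ i` for some `i` (Mathlib: extreme points of the convex hull of `X` are in `X`:
`extremePoints_convexHull_subset`, and `φ₀ ∈ C ⊆ Q A` is extreme in `C`:
`inter_extremePoints_subset_extremePoints_of_subset`).
(3) For every `ψ ∈ C`, `ψ ≠ φ₀`, so there is `b : A` with `ψ b ≠ φ₀ b`, and then a self-adjoint
`b_ψ` with `(ψ b_ψ).re < (φ₀ b_ψ).re` (quasi-states are hermitian: `φ (star b) = star (φ b)`;
take real/imaginary part and sign).  By compactness finitely many `b_1, …, b_m` suffice: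
`E φ = ((φ b_j).re)_j : ℝ^m` maps `C` to a compact convex set not containing `E φ₀`.  Separate in
`ℝ^m` (`geometric_hahn_banach_compact_point`/`geometric_hahn_banach_closed_point`): `a = ∑ c_j b_j`.
Alternative to (3): Hahn-Banach directly in `WeakDual ℂ A` if the continuous real functionals on
it are known to be `φ ↦ (φ a).re`.
If all `C i` are empty any `a` (e.g. `a = 0`, `t = -1`) works.
-/

open scoped ComplexOrder InnerProductSpace

namespace Vale.Agent.P070

universe u
variable {A : Type u} [NonUnitalCStarAlgebra A]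

section order

attribute [local instance] CStarAlgebra.spectralOrder CStarAlgebra.spectralOrderedRing

private theorem SLICE_nonneg {φ : WeakDual ℂ A} (hφ : φ ∈ Q A) {x : A} (hx : 0 ≤ x) :
    0 ≤ φ x := by
  rw [StarOrderedRing.nonneg_iff] at hx
  induction hx using AddSubmonoid.closure_induction with
  | mem x hx =>
    obtain ⟨s, rfl⟩ := hx
    exact hφ.1 s
  | zero => rw [map_zero]
  | add x y _ _ hx hy =>
    rw [map_add]
    exact add_nonneg hx hy

private theorem SLICE_real {φ : WeakDual ℂ A} (hφ : φ ∈ Q A) {x : A} (hx : IsSelfAdjoint x) :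
    star (φ x) = φ x := by
  have h1 := CFC.posPart_sub_negPart x hx
  have h2 := SLICE_nonneg hφ (CFC.posPart_nonneg x)
  have h3 := SLICE_nonneg hφ (CFC.negPart_nonneg x)
  rw [← h1, map_sub, star_sub]
  rw [(IsSelfAdjoint.of_nonneg h2).star_eq, (IsSelfAdjoint.of_nonneg h3).star_eq]

end order

theorem Q_herm {φ : WeakDual ℂ A} (hφ : φ ∈ Q A) (a : A) : φ (star a) = star (φ a) := by
  have h1 := realPart_add_I_smul_imaginaryPart a
  have h2 := SLICE_real hφ (realPart a).2
  have h3 := SLICE_real hφ (imaginaryPart a).2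
  have h4 : star a = (realPart a : A) - Complex.I • (imaginaryPart a : A) := by
    conv_lhs => rw [← h1]
    rw [star_add, star_smul, (realPart a).2.star_eq, (imaginaryPart a).2.star_eq]
    simp [sub_eq_add_neg]
  rw [h4, map_sub, map_smul]
  conv_rhs => rw [← h1, map_add, map_smul, star_add, smul_eq_mul, star_mul', h2, h3]
  simp [sub_eq_add_neg]

private theorem SLICE_tower : IsScalarTower ℝ ℂ (WeakDual ℂ A) := ⟨fun r z φ => by
  refine DFunLike.ext _ _ fun a => ?_
  show (r • z) • φ a = r • (z • φ a)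
  exact smul_assoc r z (φ a)⟩

private theorem SLICE_lcs : LocallyConvexSpace ℝ (WeakDual ℂ A) := WeakBilin.locallyConvexSpace

private theorem SLICE_join {φ₀ : WeakDual ℂ A} (hφ : φ₀ ∈ (Q A).extremePoints ℝ)
    {K C : Set (WeakDual ℂ A)} (hK : IsCompact K) (hC : IsCompact C) (hKc : Convex ℝ K)
    (hCc : Convex ℝ C) (hKQ : K ⊆ Q A) (hCQ : C ⊆ Q A) (h0K : φ₀ ∉ K) (h0C : φ₀ ∉ C) :
    ∃ L : Set (WeakDual ℂ A), IsCompact L ∧ Convex ℝ L ∧ L ⊆ Q A ∧ φ₀ ∉ L ∧ K ⊆ L ∧ C ⊆ L := by
  rcases K.eq_empty_or_nonempty with hKe | hKne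
  · exact ⟨C, hC, hCc, hCQ, h0C, by rw [hKe]; exact Set.empty_subset _, subset_rfl⟩
  rcases C.eq_empty_or_nonempty with hCe | hCne
  · exact ⟨K, hK, hKc, hKQ, h0K, subset_rfl, by rw [hCe]; exact Set.empty_subset _⟩
  refine ⟨convexJoin ℝ K C, ?_, hKc.convexJoin hCc, convexJoin_subset hKQ hCQ Q_convex, ?_,
    subset_convexJoin_left hCne, subset_convexJoin_right hKne⟩
  · have h1 : convexJoin ℝ K C = (fun p : ℝ × WeakDual ℂ A × WeakDual ℂ A =>
        (1 - p.1) • p.2.1 + p.1 • p.2.2) '' (Set.Icc (0 : ℝ) 1 ×ˢ (K ×ˢ C)) := by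
      ext x
      rw [mem_convexJoin]
      constructor
      · rintro ⟨a, ha, b, hb, s, t, hs, ht, hst, rfl⟩
        refine ⟨(t, a, b), ⟨⟨ht, by linarith⟩, ha, hb⟩, ?_⟩
        have h2 : 1 - t = s := by linarith
        simp only [h2]
      · rintro ⟨⟨t, a, b⟩, ⟨ht, ha, hb⟩, rfl⟩
        exact ⟨a, ha, b, hb, 1 - t, t, by linarith [ht.2], ht.1, by ring, rfl⟩
    rw [h1]
    refine (isCompact_Icc.prod (hK.prod hC)).image ?_
    refine WeakDual.continuous_of_continuous_eval fun y => ?_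
    have h2 : Continuous fun p : ℝ × WeakDual ℂ A × WeakDual ℂ A => p.2.1 y :=
      (WeakDual.eval_continuous y).comp (continuous_fst.comp continuous_snd)
    have h3 : Continuous fun p : ℝ × WeakDual ℂ A × WeakDual ℂ A => p.2.2 y :=
      (WeakDual.eval_continuous y).comp (continuous_snd.comp continuous_snd)
    show Continuous fun p : ℝ × WeakDual ℂ A × WeakDual ℂ A =>
      (1 - p.1) • p.2.1 y + p.1 • p.2.2 y
    exact ((continuous_const.sub continuous_fst).smul h2).add (continuous_fst.smul h3)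
  · rw [mem_convexJoin]
    rintro ⟨a, ha, b, hb, hx⟩
    by_cases h1 : φ₀ = a
    · exact h0K (h1 ▸ ha)
    by_cases h2 : φ₀ = b
    · exact h0C (h2 ▸ hb)
    have h3 := mem_openSegment_of_ne_left_right (Ne.symm h1) (Ne.symm h2) hx
    exact h1 (hφ.2 (hKQ ha) (hCQ hb) h3).symm

theorem slice {φ₀ : WeakDual ℂ A} (hφ : φ₀ ∈ (Q A).extremePoints ℝ) {ι : Type} [Finite ι]
    (C : ι → Set (WeakDual ℂ A)) (hconv : ∀ i, Convex ℝ (C i)) (hcl : ∀ i, IsClosed (C i))
    (hsub : ∀ i, C i ⊆ Q A) (h0 : ∀ i, φ₀ ∉ C i) :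
    ∃ a : A, IsSelfAdjoint a ∧ ∃ t : ℝ, t < (φ₀ a).re ∧ ∀ i, ∀ φ ∈ C i, (φ a).re ≤ t := by
  classical
  have := Fintype.ofFinite ι
  have hcomp : ∀ i, IsCompact (C i) := fun i => Q_isCompact.of_isClosed_subset (hcl i) (hsub i)
  have key : ∀ s : Finset ι, ∃ L : Set (WeakDual ℂ A), IsCompact L ∧ Convex ℝ L ∧ L ⊆ Q A ∧
      φ₀ ∉ L ∧ ∀ i ∈ s, C i ⊆ L := by
    intro s
    induction s using Finset.induction_on with
    | empty =>
      exact ⟨∅, isCompact_empty, convex_empty, Set.empty_subset _, Set.notMem_empty _,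
        fun i hi => absurd hi (Finset.notMem_empty i)⟩
    | insert j s _ ih =>
      obtain ⟨K, k1, k2, k3, k4, k5⟩ := ih
      obtain ⟨L, l1, l2, l3, l4, l5, l6⟩ := SLICE_join hφ k1 (hcomp j) k2 (hconv j) k3 (hsub j) k4
        (h0 j)
      refine ⟨L, l1, l2, l3, l4, fun i hi => ?_⟩
      rcases Finset.mem_insert.1 hi with rfl | hi
      · exact l6
      · exact (k5 i hi).trans l5
  obtain ⟨L, l1, l2, l3, l4, l5⟩ := key Finset.univ
  obtain ⟨f, t, h1, h2⟩ := @RCLike.geometric_hahn_banach_closed_point ℂ (WeakDual ℂ A) _ _ _ L φ₀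
    _ _ SLICE_tower _ _ SLICE_lcs l2 l1.isClosed l4
  obtain ⟨b, hb⟩ := LinearMap.dualEmbedding_surjective (topDualPairing ℂ A) f
  have h3 : ∀ ψ : WeakDual ℂ A, f ψ = ψ b := fun ψ => by
    rw [← hb]
    rfl
  have h4 : ∀ ψ ∈ Q A, (ψ (realPart b : A)).re = (f ψ).re := by
    intro ψ hψ
    rw [h3]
    have h5 := realPart_add_I_smul_imaginaryPart b
    have h6 := SLICE_real hψ (imaginaryPart b).2
    conv_rhs => rw [← h5, map_add, map_smul]
    have h7 : (ψ (imaginaryPart b : A)).im = 0 := Complex.conj_eq_iff_im.1 h6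
    simp [h7]
  refine ⟨realPart b, (realPart b).2, t, ?_, fun i φ hi => ?_⟩
  · rw [h4 _ hφ.1]
    exact h2
  · rw [h4 _ (hsub i hi)]
    exact (h1 φ (l5 i (Finset.mem_univ i) hi)).le

end Vale.Agent.P070
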