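import Vale.Agent.P070.RegDefs
import Vale.Agent.P070.Pure
import Vale.Agent.P070.Nondeg
import Vale.Agent.P070.Slice

/-!
# P070, module REG1: a character with unique extension is a vector state; one-dimensional
eigenspace

`reg_ext`: a character `χ` of the closed subalgebra `D` extends to some `φ ∈ Q A`:
`χ` is contractive and hermitian on `D` (spectral theory: e.g. `D` closed is a C*-algebra,
`norm_apply_le` for star homs / `WeakDual.CharacterSpace`), extend to `D + ℂ 1 ⊆ Unitization ℂ A`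
by `χ (d + c) = χ d + c` (a unital homomorphism, contractive), then Hahn-Banach to a functional
of norm `≤ 1` with value `1` at `1`, hence positive (see module EXIST, which has this lemma).
`reg_extreme`: the unique extension `φ₀` is extreme in `Q A`: if `φ₀ = t ψ₁ + (1-t) ψ₂`, then for
`d ∈ D`, `χ d = 0`: `φ₀ (d* d) = χ (d* d) = 0`, so `ψᵢ (d* d) = 0`, `ψᵢ d = 0` (`Q_norm_sq_le`);
choose `u ∈ D`, `u = x* x / χ(x* x)`-type element: `u` self-adjoint with `χ u = 1`, and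
`‖χ u‖`… simplest: for every `ε` there is `e ∈ D`, `‖e‖ ≤ 1 + ε`… then `ψᵢ = cᵢ χ` on `D` with
`|cᵢ| ≤ 1` and `t c₁ + (1-t) c₂ = 1`, so `cᵢ = 1`; uniqueness gives `ψᵢ = φ₀`.
`pure_vector` gives `ξ₀`; `‖ξ₀‖ = 1` and `π d ξ₀ = χ d ξ₀` by expanding
`‖π d ξ₀ - χ d ξ₀‖² = χ(d* d) - 2 |χ d|² + |χ d|² ‖ξ₀‖² ≤ 0`; `‖ξ₀‖ = 1` because
`|χ x| = |⟪ξ₀, π x ξ₀⟫|` and `χ(x* x) = |χ x|² ≤ …` (Cauchy-Schwarz: `|χ x|² ≤ ‖ξ₀‖² ‖π x ξ₀‖² =
‖ξ₀‖² |χ x|²`).
One-dimensionality: a unit vector `η` with `π d η = χ d η` gives `vec π η ∈ Q A` extending `χ`,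
so `vec π η = vec π ξ₀`; then `⟪π a ξ₀, π b ξ₀⟫ = ⟪π a η, π b η⟫` for all `a, b`; the map
`π a ξ₀ ↦ π a η` extends to a unitary commuting with `π(A)`, scalar by `schur`, so `η = c ξ₀`
(or: if `η ⊥ ξ₀` wlog, `ζ = (ξ₀ + η)/√2` is also a unit eigenvector, so `⟪ζ, π a ζ⟫ =
⟪ξ₀, π a ξ₀⟫ = ⟪η, π a η⟫`, and with `ξ₀ + i η` too: `⟪ξ₀, π a η⟫ = 0` for all `a`, contradiction to
`orbit_dense`).
-/

open scoped ComplexOrder InnerProductSpace

namespace Vale.Agent.P070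

universe u
variable {A : Type u} [NonUnitalCStarAlgebra A]
variable {H : Type u} [NormedAddCommGroup H] [InnerProductSpace ℂ H] [CompleteSpace H]

/-- a character of `D` extends to a quasi-state of `A` -/
theorem REG1_ext (D : NonUnitalStarSubalgebra ℂ A) (hcl : IsClosed (D : Set A)) {χ : A → ℂ}
    (hχ : UniqueChar D χ) : ∃ φ ∈ Q A, ∀ d ∈ D, φ d = χ d := by
  have _ : IsClosed (D : Set A) := hcl
  let χD : D →ₙₐ[ℂ] ℂ :=
    { toFun := fun d => χ d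
      map_smul' := fun c d => hχ.smul c d d.2
      map_zero' := by
        have h := hχ.smul 0 0 D.zero_mem
        rw [zero_smul, zero_mul] at h
        exact h
      map_add' := fun x y => hχ.add x x.2 y y.2
      map_mul' := fun x y => hχ.mul x x.2 y y.2 }
  let F : Unitization ℂ D →ₐ[ℂ] ℂ := Unitization.lift χD
  have hF : ∀ y : Unitization ℂ D, ‖F y‖ ≤ ‖y‖ := fun y => AlgHom.norm_apply_le_self F y
  let j : D →⋆ₙₐ[ℂ] A := NonUnitalStarSubalgebraClass.subtype D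
  have hj : Function.Injective j := Subtype.val_injective
  let J : Unitization ℂ D →⋆ₐ[ℂ] Unitization ℂ A := Unitization.starMap j
  have hJ : Function.Injective J := Unitization.starMap_injective hj
  have hJn : ∀ y : Unitization ℂ D, ‖J y‖ = ‖y‖ := fun y => NonUnitalStarAlgHom.norm_map J hJ y
  let Jl : Unitization ℂ D →ₗ[ℂ] Unitization ℂ A := J.toAlgHom.toLinearMap
  have hJl : ∀ y, Jl y = J y := fun y => rfl
  let e : Unitization ℂ D ≃ₗ[ℂ] LinearMap.range Jl := LinearEquiv.ofInjective Jl hJ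
  have he : ∀ y, ((e y : LinearMap.range Jl) : Unitization ℂ A) = J y := fun y => rfl
  let f0 : LinearMap.range Jl →ₗ[ℂ] ℂ := F.toLinearMap.comp e.symm.toLinearMap
  have hf0 : ∀ y, f0 (e y) = F y := fun y => by
    show F (e.symm (e y)) = F y
    rw [e.symm_apply_apply]
  have hf0n : ∀ x, ‖f0 x‖ ≤ 1 * ‖x‖ := by
    intro x
    obtain ⟨y, rfl⟩ := e.surjective x
    rw [hf0, one_mul]
    calc ‖F y‖ ≤ ‖y‖ := hF y
      _ = ‖J y‖ := (hJn y).symm
      _ = ‖((e y : LinearMap.range Jl) : Unitization ℂ A)‖ := by rw [he]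
  obtain ⟨g, hg1, hg2⟩ := exists_extension_norm_eq (LinearMap.range Jl) (f0.mkContinuous 1 hf0n)
  have hgn : ‖g‖ ≤ 1 := by
    rw [hg2]
    exact LinearMap.mkContinuous_norm_le _ zero_le_one _
  have hgF : ∀ y, g (J y) = F y := by
    intro y
    have h := hg1 (e y)
    rw [he] at h
    rw [h]
    exact hf0 y
  have hgb : ∀ b, ‖g b‖ ≤ ‖b‖ := fun b => by
    have := g.le_opNorm b
    have h2 : ‖g‖ * ‖b‖ ≤ 1 * ‖b‖ := mul_le_mul_of_nonneg_right hgn (norm_nonneg _)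
    linarith
  have hg11 : g 1 = 1 := by
    rw [← map_one J, hgF, map_one]
  let L : A →ₗ[ℂ] ℂ :=
    { toFun := fun b => g (b : Unitization ℂ A)
      map_add' := fun b c => by rw [Unitization.inr_add, map_add]
      map_smul' := fun c b => by rw [Unitization.inr_smul, map_smul]; rfl }
  have hL : ∀ b, ‖L b‖ ≤ 1 * ‖b‖ := fun b => by
    rw [one_mul, ← Unitization.norm_inr (𝕜 := ℂ) b]
    exact hgb _
  let φ : WeakDual ℂ A := StrongDual.toWeakDual (L.mkContinuous 1 hL)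
  have hφ : ∀ b, φ b = g (b : Unitization ℂ A) := fun b => rfl
  refine ⟨φ, ⟨fun b => ?_, fun b => ?_⟩, fun d hd => ?_⟩
  · rw [hφ, Unitization.inr_mul, Unitization.inr_star]
    exact EXIST_pos g hg11 hgb _
  · have := hL b
    rw [one_mul] at this
    exact this
  · have h1 : J (Unitization.inr (⟨d, hd⟩ : D)) = ((d : A) : Unitization ℂ A) := by
      show Unitization.starMap j (Unitization.inr (⟨d, hd⟩ : D)) = _
      rw [Unitization.starMap_inr]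
      rfl
    rw [hφ, ← h1, hgF]
    show Unitization.lift χD (Unitization.inr (⟨d, hd⟩ : D)) = χ d
    simp [χD]

/-- quasi-states in a convex decomposition of the extension of a character -/
theorem REG1_part (D : NonUnitalStarSubalgebra ℂ A) {χ : A → ℂ}
    (hχ : UniqueChar D χ) (hst : ∀ d ∈ D, χ (star d) = star (χ d)) {ψ₁ ψ₂ : WeakDual ℂ A}
    (h1 : ψ₁ ∈ Q A) (h2 : ψ₂ ∈ Q A) {s t : ℝ} (hs : 0 < s) (ht : 0 < t) (hst1 : s + t = 1)
    (hφ : ∀ d ∈ D, (s : ℂ) * ψ₁ d + (t : ℂ) * ψ₂ d = χ d) : ∀ d ∈ D, ψ₁ d = χ d := by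
  obtain ⟨x, hx, hx0⟩ := hχ.ne
  -- normalised element
  obtain ⟨u, hu, hu1⟩ : ∃ u ∈ D, χ u = 1 := by
    refine ⟨(χ x)⁻¹ • x, SMulMemClass.smul_mem _ hx, ?_⟩
    rw [hχ.smul _ _ hx, inv_mul_cancel₀ hx0]
  have hre : ∀ {z : ℂ}, 0 ≤ z → 0 ≤ z.re ∧ z.im = 0 := fun {z} hz => by
    rw [Complex.nonneg_iff] at hz
    exact ⟨hz.1, hz.2.symm⟩
  -- both vanish on the kernel
  have hker : ∀ d ∈ D, χ d = 0 → ψ₁ d = 0 ∧ ψ₂ d = 0 := by
    intro d hd hd0
    have hdd : star d * d ∈ D := mul_mem (star_mem hd) hd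
    have e1 := hφ _ hdd
    rw [hχ.mul _ (star_mem hd) _ hd, hd0, mul_zero] at e1
    have p1 := hre (h1.1 d)
    have p2 := hre (h2.1 d)
    have e2 := congrArg Complex.re e1
    rw [Complex.add_re, Complex.re_ofReal_mul, Complex.re_ofReal_mul, Complex.zero_re] at e2
    have q1 : 0 ≤ s * (ψ₁ (star d * d)).re := mul_nonneg hs.le p1.1
    have q2 : 0 ≤ t * (ψ₂ (star d * d)).re := mul_nonneg ht.le p2.1
    have r1 : (ψ₁ (star d * d)).re = 0 := by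
      have : s * (ψ₁ (star d * d)).re = 0 := by linarith
      exact (mul_eq_zero.1 this).resolve_left hs.ne'
    have r2 : (ψ₂ (star d * d)).re = 0 := by
      have : t * (ψ₂ (star d * d)).re = 0 := by linarith
      exact (mul_eq_zero.1 this).resolve_left ht.ne'
    have k1 := Q_norm_sq_le h1 d
    have k2 := Q_norm_sq_le h2 d
    rw [r1] at k1
    rw [r2] at k2
    have z1 : ‖ψ₁ d‖ = 0 := pow_eq_zero_iff (two_ne_zero) |>.1 (le_antisymm k1 (sq_nonneg _))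
    have z2 : ‖ψ₂ d‖ = 0 := pow_eq_zero_iff (two_ne_zero) |>.1 (le_antisymm k2 (sq_nonneg _))
    exact ⟨norm_eq_zero.1 z1, norm_eq_zero.1 z2⟩
  have hmul : ∀ d ∈ D, ψ₁ d = χ d * ψ₁ u ∧ ψ₂ d = χ d * ψ₂ u := by
    intro d hd
    have hm : d + (-(χ d)) • u ∈ D := add_mem hd (SMulMemClass.smul_mem _ hu)
    have h0 : χ (d + (-(χ d)) • u) = 0 := by
      rw [hχ.add _ hd _ (SMulMemClass.smul_mem _ hu), hχ.smul _ _ hu, hu1]
      ring
    obtain ⟨a1, a2⟩ := hker _ hm h0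
    rw [map_add, map_smul, smul_eq_mul] at a1 a2
    constructor
    · linear_combination a1
    · linear_combination a2
  have huu : χ (star u * u) = 1 := by
    rw [hχ.mul _ (star_mem hu) _ hu, hst _ hu, hu1]
    simp
  have hc : ∀ {ψ : WeakDual ℂ A}, ψ ∈ Q A → ψ (star u * u) = ψ u →
      (ψ u).im = 0 ∧ (ψ u).re ≤ 1 := by
    intro ψ hψ hψu
    have p := hre (hψ.1 u)
    have k := Q_norm_sq_le hψ u
    rw [hψu] at p k
    refine ⟨p.2, ?_⟩
    have n1 : ‖ψ u‖ ^ 2 = (ψ u).re ^ 2 := by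
      rw [← Complex.normSq_eq_norm_sq, Complex.normSq_apply, p.2]
      ring
    rw [n1] at k
    by_contra hcon
    push Not at hcon
    nlinarith
  have c1 := hc h1 (by
    rw [(hmul _ (mul_mem (star_mem hu) hu)).1, huu, one_mul])
  have c2 := hc h2 (by
    rw [(hmul _ (mul_mem (star_mem hu) hu)).2, huu, one_mul])
  have e3 := congrArg Complex.re (hφ u hu)
  rw [Complex.add_re, Complex.re_ofReal_mul, Complex.re_ofReal_mul, hu1, Complex.one_re] at e3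
  have hc1 : (ψ₁ u).re = 1 := by
    by_contra hne
    have hlt : (ψ₁ u).re < 1 := lt_of_le_of_ne c1.2 hne
    have q1 : s * (ψ₁ u).re < s * 1 := mul_lt_mul_of_pos_left hlt hs
    have q2 : t * (ψ₂ u).re ≤ t * 1 := mul_le_mul_of_nonneg_left c2.2 ht.le
    linarith
  have hu11 : ψ₁ u = 1 := Complex.ext (by rw [hc1, Complex.one_re]) (by rw [c1.1, Complex.one_im])
  intro d hd
  rw [(hmul d hd).1, hu11, mul_one]

/-- a joint eigenvector of norm one gives an extension of `χ` -/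
theorem REG1_vec {π : A →⋆ₙₐ[ℂ] (H →L[ℂ] H)} (D : NonUnitalStarSubalgebra ℂ A) {χ : A → ℂ}
    (hχ : UniqueChar D χ) {ξ η : H} (hξ1 : ‖ξ‖ = 1) (hη1 : ‖η‖ = 1)
    (hξ : ∀ d ∈ D, π d ξ = χ d • ξ) (hη : ∀ d ∈ D, π d η = χ d • η) (a : A) :
    ⟪ξ, π a ξ⟫_ℂ = ⟪η, π a η⟫_ℂ := by
  have hval : ∀ {v : H}, ‖v‖ = 1 → (∀ d ∈ D, π d v = χ d • v) → ∀ d ∈ D, vec π v d = χ d := by
    intro v hv hd d hdD
    rw [vec_apply, hd d hdD, inner_smul_right, inner_self_eq_norm_sq_to_K, hv]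
    simp
  have h := hχ.unique _ (vec_mem π hξ1.le) _ (vec_mem π hη1.le) (hval hξ1 hξ) (hval hη1 hη)
  have h2 := DFunLike.congr_fun h a
  rwa [vec_apply, vec_apply] at h2

theorem reg_eigvec (hN : PropertyN A) {π : A →⋆ₙₐ[ℂ] (H →L[ℂ] H)} (hπ : IsIrred π)
    (D : NonUnitalStarSubalgebra ℂ A) (hcl : IsClosed (D : Set A)) {χ : A → ℂ}
    (hχ : UniqueChar D χ) :
    ∃ ξ₀ : H, ‖ξ₀‖ = 1 ∧ (∀ d ∈ D, π d ξ₀ = χ d • ξ₀) ∧
      ∀ η : H, (∀ d ∈ D, π d η = χ d • η) → ∃ c : ℂ, η = c • ξ₀ := by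
  obtain ⟨φ, hφ, hφD⟩ := REG1_ext D hcl hχ
  have hst : ∀ d ∈ D, χ (star d) = star (χ d) := by
    intro d hd
    rw [← hφD _ (star_mem hd), ← hφD _ hd]
    exact Q_herm hφ d
  obtain ⟨x, hx, hx0⟩ := hχ.ne
  obtain ⟨u, hu, hu1⟩ : ∃ u ∈ D, χ u = 1 := by
    refine ⟨(χ x)⁻¹ • x, SMulMemClass.smul_mem _ hx, ?_⟩
    rw [hχ.smul _ _ hx, inv_mul_cancel₀ hx0]
  have hext : φ ∈ (Q A).extremePoints ℝ := by
    rw [mem_extremePoints]
    refine ⟨hφ, fun ψ₁ h1 ψ₂ h2 hseg => ?_⟩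
    obtain ⟨s, t, hs, ht, hst1, rfl⟩ := hseg
    have hval : ∀ d ∈ D, (s : ℂ) * ψ₁ d + (t : ℂ) * ψ₂ d = χ d := by
      intro d hd
      rw [← hφD d hd]
      show _ = s • ψ₁ d + t • ψ₂ d
      rw [Complex.real_smul, Complex.real_smul]
    have k1 := REG1_part D hχ hst h1 h2 hs ht hst1 hval
    have k2 := REG1_part D hχ hst h2 h1 ht hs (by rw [add_comm]; exact hst1) (fun d hd => by
      rw [add_comm]
      exact hval d hd)
    exact ⟨hχ.unique _ h1 _ hφ k1 hφD, hχ.unique _ h2 _ hφ k2 hφD⟩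
  have hφ0 : φ ≠ 0 := by
    rintro rfl
    have := hφD u hu
    rw [hu1] at this
    exact zero_ne_one this
  obtain ⟨ζ, hζ0, hζ1, hζ⟩ := pure_vector hN hπ hext hφ0
  have heig : ∀ d ∈ D, π d ζ = χ d • ζ := by
    intro d hd
    have a1 : ⟪ζ, π d ζ⟫_ℂ = χ d := by rw [← hζ, hφD d hd]
    have a2 : ‖π d ζ‖ ^ 2 = ‖χ d‖ ^ 2 := by
      have b1 : ⟪ζ, π (star d * d) ζ⟫_ℂ = ((‖χ d‖ ^ 2 : ℝ) : ℂ) := by
        rw [← hζ, hφD _ (mul_mem (star_mem hd) hd), hχ.mul _ (star_mem hd) _ hd, hst d hd]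
        rw [Complex.star_def, mul_comm, Complex.mul_conj, Complex.normSq_eq_norm_sq]
      rw [map_mul, map_star, ContinuousLinearMap.star_eq_adjoint,
        mul_apply_eq_comp, ContinuousLinearMap.adjoint_inner_right,
        inner_self_eq_norm_sq_to_K] at b1
      have b2 : ((‖π d ζ‖ ^ 2 : ℝ) : ℂ) = ((‖χ d‖ ^ 2 : ℝ) : ℂ) := by
        rw [← b1]
        simp
      exact_mod_cast b2
    have a3 : ‖π d ζ - χ d • ζ‖ ^ 2 = ‖π d ζ‖ ^ 2 - 2 * (⟪π d ζ, χ d • ζ⟫_ℂ).re +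
        ‖χ d • ζ‖ ^ 2 := by
      have := @norm_sub_sq ℂ H _ _ _ (π d ζ) (χ d • ζ)
      simpa using this
    have a4 : (⟪π d ζ, χ d • ζ⟫_ℂ).re = ‖χ d‖ ^ 2 := by
      rw [inner_smul_right, ← inner_conj_symm, a1, Complex.mul_conj, Complex.ofReal_re,
        Complex.normSq_eq_norm_sq]
    have a5 : ‖χ d • ζ‖ ^ 2 ≤ ‖χ d‖ ^ 2 := by
      rw [norm_smul, mul_pow]
      have : ‖ζ‖ ^ 2 ≤ 1 := pow_le_one₀ (norm_nonneg _) hζ1
      exact mul_le_of_le_one_right (sq_nonneg _) this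
    have a6 : ‖π d ζ - χ d • ζ‖ ^ 2 ≤ 0 := by
      rw [a3, a4, a2]
      linarith
    have a7 : ‖π d ζ - χ d • ζ‖ = 0 :=
      pow_eq_zero_iff (two_ne_zero) |>.1 (le_antisymm a6 (sq_nonneg _))
    exact sub_eq_zero.1 (norm_eq_zero.1 a7)
  have hζn : ‖ζ‖ = 1 := by
    have a1 : ⟪ζ, π u ζ⟫_ℂ = 1 := by rw [← hζ, hφD u hu, hu1]
    rw [heig u hu, hu1, one_smul, inner_self_eq_norm_sq_to_K] at a1
    have a2 : ‖ζ‖ ^ 2 = 1 := by
      have : ((‖ζ‖ ^ 2 : ℝ) : ℂ) = ((1 : ℝ) : ℂ) := by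
        rw [Complex.ofReal_one, ← a1]
        simp
      exact_mod_cast this
    exact (pow_eq_one_iff_of_nonneg (norm_nonneg _) two_ne_zero).1 a2
  refine ⟨ζ, hζn, heig, fun η hη => ⟨⟪ζ, η⟫_ℂ, ?_⟩⟩
  by_contra hne
  obtain ⟨η', hη'⟩ : ∃ η', η' = η - ⟪ζ, η⟫_ℂ • ζ := ⟨_, rfl⟩
  have hη'0 : η' ≠ 0 := by
    rw [hη']
    exact sub_ne_zero.2 hne
  have horth : ⟪ζ, η'⟫_ℂ = 0 := by
    rw [hη', inner_sub_right, inner_smul_right, inner_self_eq_norm_sq_to_K, hζn]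
    simp
  have hη'e : ∀ d ∈ D, π d η' = χ d • η' := by
    intro d hd
    rw [hη', map_sub, map_smul, hη d hd, heig d hd, smul_sub, smul_comm]
  obtain ⟨e, he⟩ : ∃ e, e = ((‖η'‖⁻¹ : ℝ) : ℂ) • η' := ⟨_, rfl⟩
  have hn0 : ‖η'‖ ≠ 0 := norm_ne_zero_iff.2 hη'0
  have he1 : ‖e‖ = 1 := by
    rw [he, norm_smul, Complex.norm_real, norm_inv, norm_norm, inv_mul_cancel₀ hn0]
  have hee : ∀ d ∈ D, π d e = χ d • e := by
    intro d hd
    rw [he, map_smul, hη'e d hd, smul_comm]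
  have heo : ⟪ζ, e⟫_ℂ = 0 := by rw [he, inner_smul_right, horth, mul_zero]
  have heo' : ⟪e, ζ⟫_ℂ = 0 := by rw [← inner_conj_symm, heo, map_zero]
  have hcomb : ∀ w : ℂ, ‖w‖ = 1 → ∀ a,
      w * ⟪ζ, π a e⟫_ℂ + (starRingEnd ℂ) w * ⟪e, π a ζ⟫_ℂ = 0 := by
    intro w hw a
    obtain ⟨r, hr⟩ : ∃ r : ℝ, r = (Real.sqrt 2)⁻¹ := ⟨_, rfl⟩
    have hr2 : r ^ 2 = 1 / 2 := by
      rw [hr, inv_pow, Real.sq_sqrt (by norm_num)]
      norm_num
    have hr2c : (r : ℂ) * (r : ℂ) = 1 / 2 := by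
      rw [← Complex.ofReal_mul, ← sq, hr2]
      norm_num
    obtain ⟨v, hv⟩ : ∃ v, v = (r : ℂ) • (ζ + w • e) := ⟨_, rfl⟩
    have hvn : ‖v‖ = 1 := by
      have n1 : ‖ζ + w • e‖ ^ 2 = 2 := by
        have := @norm_add_sq ℂ H _ _ _ ζ (w • e)
        rw [this, inner_smul_right, heo, mul_zero, norm_smul, hw, he1, hζn]
        norm_num
      have n2 : ‖v‖ ^ 2 = 1 := by
        rw [hv, norm_smul, mul_pow, n1, Complex.norm_real, Real.norm_eq_abs, sq_abs, hr2]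
        norm_num
      exact (pow_eq_one_iff_of_nonneg (norm_nonneg _) two_ne_zero).1 n2
    have hve : ∀ d ∈ D, π d v = χ d • v := by
      intro d hd
      rw [hv, map_smul, map_add, map_smul, heig d hd, hee d hd, smul_comm w, ← smul_add,
        smul_comm]
    have h1 := REG1_vec D hχ hζn hvn heig hve a
    have h2 := REG1_vec D hχ hζn he1 heig hee a
    have h3 : ⟪v, π a v⟫_ℂ = (r : ℂ) * (r : ℂ) * (⟪ζ, π a ζ⟫_ℂ + w * ⟪ζ, π a e⟫_ℂ +
        (starRingEnd ℂ) w * ⟪e, π a ζ⟫_ℂ + (starRingEnd ℂ) w * w * ⟪e, π a e⟫_ℂ) := by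
      rw [hv, map_smul, map_add, map_smul, inner_smul_left, inner_smul_right, inner_add_left,
        inner_add_right, inner_add_right, inner_smul_left, inner_smul_left, inner_smul_right,
        inner_smul_right, Complex.conj_ofReal]
      ring
    have hww : (starRingEnd ℂ) w * w = 1 := by
      rw [mul_comm, Complex.mul_conj, Complex.normSq_eq_norm_sq, hw]
      norm_num
    rw [h3, hr2c, hww, one_mul, ← h2] at h1
    linear_combination (-2 : ℂ) * h1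
  have hzero : ∀ a, ⟪e, π a ζ⟫_ℂ = 0 := by
    intro a
    have h1 := hcomb 1 norm_one a
    have h2 := hcomb Complex.I Complex.norm_I a
    rw [map_one, one_mul, one_mul] at h1
    rw [Complex.conj_I] at h2
    have h3 : Complex.I * (2 * ⟪e, π a ζ⟫_ℂ) = 0 := by
      linear_combination Complex.I * h1 - h2
    have h4 := (mul_eq_zero.1 h3).resolve_left Complex.I_ne_zero
    exact (mul_eq_zero.1 h4).resolve_left two_ne_zero
  obtain ⟨a, ha⟩ := orbit_dense hπ hζ0 e one_pos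
  have h5 : ⟪e, π a ζ - e⟫_ℂ = -1 := by
    rw [inner_sub_right, hzero, inner_self_eq_norm_sq_to_K, he1]
    simp
  have h6 := norm_inner_le_norm (𝕜 := ℂ) e (π a ζ - e)
  rw [h5, he1, one_mul, norm_neg, norm_one] at h6
  linarith

end Vale.Agent.P070
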