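import Vale.Agent.P070.CharDefs
import Vale.Agent.P070.Nondeg
import Vale.Agent.P070.Spread
import Vale.Agent.P070.Sep
import Vale.Agent.P070.Reg2

/-!
# P070, module REG4: a regular subalgebra with one small joint eigenspace is atomic with all
joint eigenspaces small

`ξ₀ ≠ 0` is a joint eigenvector of `π(D)` with eigenvalues `χ`.
(a) For `n ∈ normalizer D`, `π n ξ₀` is a joint eigenvector (or `0`): put `c = χ (n* n)`
(`‖π n ξ₀‖² = ⟪ξ₀, π (n* n) ξ₀⟫ = c ‖ξ₀‖²`, so `c` is real `≥ 0` and `c = 0` iff `π n ξ₀ = 0`).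
For `d ∈ D`: `d n (n* n) = (d (n n*)) n = (n n*) d n = n (n* d n)` (`d` and `n n*` are in `D` and
commute), apply `π _ ξ₀`: `c π d (π n ξ₀) = χ (n* d n) π n ξ₀`.
(b) Hence `⨆ eig` contains all `π n ξ₀`; the normalisers span a dense subspace of `A` and
`orbit_dense`, so `⨆ eig` is dense.
(c) Let `τ` be any function with `eig (π '' D) τ ≠ ⊥` (otherwise `SEP_bot`), `0 ≠ η` in it.  `η` is
not orthogonal to all `π n ξ₀` (these are total), so `⟪π n ξ₀, η⟫ ≠ 0` for some normaliser `n`;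
by `eig_orth` the eigenvalues of `π n ξ₀` are `τ`.  Let `c = χ (n* n) ≠ 0`; evaluating on
`π n ξ₀`: `τ (n n*) = c` and `τ (n d n*) = c χ d`.  So for every `η ∈ eig τ` and `d ∈ D`:
`c π d (π n* η) = π (d n* n n*) η = π ((n* n) d n*) η = π n* (π (n d n*) η) = c χ d π n* η`, i.e.
`π n* η` is a `χ`-eigenvector, and `π n (π n* η) = c η`.  So
`eig τ ⊆ closure ((fun ξ => c⁻¹ • π n ξ) '' s)`, and the image has cardinality `≤ #s`.
-/

open scoped ComplexOrder InnerProductSpace

namespace Vale.Agent.P070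

universe u
variable {A : Type u} [NonUnitalCStarAlgebra A]
variable {H : Type u} [NormedAddCommGroup H] [InnerProductSpace ℂ H] [CompleteSpace H]

private theorem REG4_key {π : A →⋆ₙₐ[ℂ] (H →L[ℂ] H)} {D : NonUnitalStarSubalgebra ℂ A}
    (hcomm : ∀ x ∈ D, ∀ y ∈ D, x * y = y * x) {χ : A → ℂ}
    {ξ₀ : H} (h1 : ‖ξ₀‖ = 1) (heig : ∀ d ∈ D, π d ξ₀ = χ d • ξ₀) {n : A}
    (hn : n ∈ normalizer D) (hv : π n ξ₀ ≠ 0) {t : A → ℂ}
    (ht : ∀ d ∈ D, π d (π n ξ₀) = t d • π n ξ₀) {w : H}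
    (hw : ∀ d ∈ D, π d w = t d • w) :
    χ (star n * n) ≠ 0 ∧ (∀ d ∈ D, π d (π (star n) w) = χ d • π (star n) w) ∧
      π n (π (star n) w) = χ (star n * n) • w := by
  have hc : χ (star n * n) ≠ 0 := by
    rw [REG2_norm π h1 heig hn]
    exact fun h => hv (inner_self_eq_zero.1 h)
  have ht1 : t (n * star n) = χ (star n * n) := by
    have h2 : π (n * star n) (π n ξ₀) = χ (star n * n) • π n ξ₀ := by
      rw [← REG2_mul, mul_assoc, REG2_mul, heig _ hn.1, map_smul]
    rw [ht _ hn.2.1] at h2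
    exact smul_left_injective ℂ hv h2
  have ht2 : ∀ d ∈ D, t (n * d * star n) = χ (star n * n) * χ d := by
    intro d hd
    have h2 : π (n * d * star n) (π n ξ₀) = (χ (star n * n) * χ d) • π n ξ₀ := by
      rw [← REG2_mul, mul_assoc, REG2_mul, heig _ hn.1, map_smul, REG2_mul, heig d hd, map_smul,
        smul_smul]
    rw [ht _ (hn.2.2.2 d hd)] at h2
    exact smul_left_injective ℂ hv h2
  refine ⟨hc, fun d hd => ?_, ?_⟩
  · have e1 : d * star n * (n * star n) = star n * (n * d * star n) := by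
      calc d * star n * (n * star n) = (d * (star n * n)) * star n := by simp only [mul_assoc]
        _ = ((star n * n) * d) * star n := by rw [hcomm d hd _ hn.1]
        _ = star n * (n * d * star n) := by simp only [mul_assoc]
    have e2 : π (d * star n * (n * star n)) w = χ (star n * n) • π d (π (star n) w) := by
      rw [REG2_mul, hw _ hn.2.1, map_smul, REG2_mul, ht1]
    have e3 : π (star n * (n * d * star n)) w = (χ (star n * n) * χ d) • π (star n) w := by
      rw [REG2_mul, hw _ (hn.2.2.2 d hd), map_smul, ht2 d hd]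
    rw [e1, e3, mul_smul] at e2
    exact (smul_right_injective H hc e2).symm
  · rw [← REG2_mul, hw _ hn.2.1, ht1]

theorem reg_small {π : A →⋆ₙₐ[ℂ] (H →L[ℂ] H)} (hπ : IsIrred π)
    (D : NonUnitalStarSubalgebra ℂ A) (hcomm : ∀ x ∈ D, ∀ y ∈ D, x * y = y * x)
    (hreg : IsRegular D) {χ : A → ℂ} {ξ₀ : H} (h0 : ξ₀ ≠ 0)
    (heig : ∀ d ∈ D, π d ξ₀ = χ d • ξ₀)
    (hs : ∃ s : Set H, Cardinal.mk s < Cardinal.continuum ∧
      {η : H | ∀ d ∈ D, π d η = χ d • η} ⊆ closure s) :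
    (⨆ τ : (↥(π '' (D : Set A)) → ℂ), eig (π '' (D : Set A)) τ).topologicalClosure = ⊤ ∧
    ∀ τ : (↥(π '' (D : Set A)) → ℂ), SmallDim (eig (π '' (D : Set A)) τ) := by
  obtain ⟨ξ, hξ⟩ : ∃ ξ, ξ = ((‖ξ₀‖⁻¹ : ℝ) : ℂ) • ξ₀ := ⟨_, rfl⟩
  have hn0 : ‖ξ₀‖ ≠ 0 := norm_ne_zero_iff.2 h0
  have h1 : ‖ξ‖ = 1 := by
    rw [hξ, norm_smul, Complex.norm_real, norm_inv, norm_norm, inv_mul_cancel₀ hn0]
  have hξ0 : ξ ≠ 0 := by
    intro h
    rw [h, norm_zero] at h1
    exact zero_ne_one h1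
  have heig' : ∀ d ∈ D, π d ξ = χ d • ξ := by
    intro d hd
    rw [hξ, map_smul, heig d hd, smul_comm]
  have hstar : ∀ T ∈ π '' (D : Set A), star T ∈ π '' (D : Set A) := by
    rintro T ⟨d, hd, rfl⟩
    exact ⟨star d, star_mem hd, map_star π d⟩
  have hcm : ∀ T ∈ π '' (D : Set A), ∀ T' ∈ π '' (D : Set A), T * T' = T' * T := by
    rintro T ⟨d, hd, rfl⟩ T' ⟨d', hd', rfl⟩
    rw [← map_mul, ← map_mul, hcomm d hd d' hd']
  constructor
  · refine REG2_top hπ hreg hξ0 _ (Submodule.isClosed_topologicalClosure _) fun n hn => ?_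
    obtain ⟨τ, hτ⟩ := REG2_mem π hcomm h1 heig' hn
    exact Submodule.le_topologicalClosure _ (Submodule.mem_iSup_of_mem τ hτ)
  · intro τ
    by_cases hex : ∃ n ∈ normalizer D, π n ξ ≠ 0 ∧ π n ξ ∈ eig (π '' (D : Set A)) τ
    · obtain ⟨n, hn, hv, hm⟩ := hex
      obtain ⟨s, hsc, hss⟩ := hs
      refine ⟨(fun v : H => (χ (star n * n))⁻¹ • π n v) '' s,
        lt_of_le_of_lt Cardinal.mk_image_le hsc, fun w hw => ?_⟩
      classical
      obtain ⟨hc, hu, he⟩ := REG4_key hcomm h1 heig' hn hv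
        (t := fun d => if hd : d ∈ D then τ ⟨π d, d, hd, rfl⟩ else 0)
        (fun d hd => by
          rw [dif_pos hd]
          exact hm ⟨π d, d, hd, rfl⟩)
        (w := w) (fun d hd => by
          rw [dif_pos hd]
          exact hw ⟨π d, d, hd, rfl⟩)
      have hcont : Continuous fun v : H => (χ (star n * n))⁻¹ • π n v :=
        (π n).continuous.const_smul _
      refine image_closure_subset_closure_image hcont ⟨π (star n) w, hss hu, ?_⟩
      show (χ (star n * n))⁻¹ • π n (π (star n) w) = w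
      rw [he, smul_smul, inv_mul_cancel₀ hc, one_smul]
    · push Not at hex
      have hbot : eig (π '' (D : Set A)) τ = ⊥ := by
        rw [Submodule.eq_bot_iff]
        intro w hw
        refine REG2_orth hπ hreg hξ0 fun n hn => ?_
        by_cases hv : π n ξ = 0
        · rw [hv, inner_zero_right]
        · obtain ⟨τ', hτ'⟩ := REG2_mem π hcomm h1 heig' hn
          have hne : τ ≠ τ' := by
            rintro rfl
            exact hex n hn hv hτ'
          exact eig_orth hstar hcm hne hw hτ'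
      rw [hbot]
      exact SEP_bot

end Vale.Agent.P070
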