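import Vale.Agent.P070.Reg3

/-!
# P070, module STATEVEC: a quasi-state of `A` which is multiplicative on the isotropy at `χ`
-/

open scoped ComplexOrder InnerProductSpace

namespace Vale.Agent.P070

universe u
variable {A : Type u} [NonUnitalCStarAlgebra A]
variable {H : Type u} [NormedAddCommGroup H] [InnerProductSpace ℂ H] [CompleteSpace H]

/-- strict convexity of the disc -/
theorem STV_disc {z w₁ w₂ : ℂ} {c s t : ℝ} (hs : 0 < s) (ht : 0 < t) (hst : s + t = 1)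
    (hz : (s : ℂ) * w₁ + (t : ℂ) * w₂ = z) (hzc : ‖z‖ ^ 2 = c) (h1 : ‖w₁‖ ^ 2 ≤ c)
    (h2 : ‖w₂‖ ^ 2 ≤ c) : w₁ = z := by
  have key : ‖z‖ ^ 2 + s * t * ‖w₁ - w₂‖ ^ 2 = s * ‖w₁‖ ^ 2 + t * ‖w₂‖ ^ 2 := by
    subst hz
    have ht' : t = 1 - s := by linarith
    subst ht'
    simp only [← Complex.normSq_eq_norm_sq, Complex.normSq_apply, Complex.add_re, Complex.add_im,
      Complex.sub_re, Complex.sub_im, Complex.mul_re, Complex.mul_im, Complex.ofReal_re,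
      Complex.ofReal_im]
    ring
  have h3 : s * t * ‖w₁ - w₂‖ ^ 2 ≤ 0 := by
    have a1 : s * ‖w₁‖ ^ 2 ≤ s * c := mul_le_mul_of_nonneg_left h1 hs.le
    have a2 : t * ‖w₂‖ ^ 2 ≤ t * c := mul_le_mul_of_nonneg_left h2 ht.le
    have a3 : s * c + t * c = c := by rw [← add_mul, hst, one_mul]
    linarith
  have h4 : ‖w₁ - w₂‖ ^ 2 ≤ 0 := by
    by_contra hcon
    push Not at hcon
    have : 0 < s * t * ‖w₁ - w₂‖ ^ 2 := by positivity
    linarith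
  have h5 : w₁ = w₂ := by
    have : ‖w₁ - w₂‖ = 0 := pow_eq_zero_iff two_ne_zero |>.1 (le_antisymm h4 (sq_nonneg _))
    exact sub_eq_zero.1 (norm_eq_zero.1 this)
  rw [← hz, ← h5, ← add_mul, ← Complex.ofReal_add, hst, Complex.ofReal_one, one_mul]

/-- `T` is a set of elements `n` with `n* n ∈ D`; the quasi-state `φ` extends the character `χ` of
`D` and `|φ n|² = χ (n* n)` for all `n ∈ T`.  Under (N) there is a vector `ζ ≠ 0` in the irreducible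
representation which is a joint eigenvector of `D` and of `T`. -/
theorem state_eigvec (hN : PropertyN A) {π : A →⋆ₙₐ[ℂ] (H →L[ℂ] H)} (hπ : IsIrred π)
    (D : NonUnitalStarSubalgebra ℂ A) {χ : A → ℂ} (hχ : IsChar D χ)
    (T : Set A) (hT : ∀ n ∈ T, star n * n ∈ D) {φ : WeakDual ℂ A} (hφ : φ ∈ Q A)
    (hφD : ∀ d ∈ D, φ d = χ d) (hφT : ∀ n ∈ T, ((‖φ n‖ ^ 2 : ℝ) : ℂ) = χ (star n * n)) :
    ∃ ζ : H, ζ ≠ 0 ∧ (∀ d ∈ D, π d ζ = χ d • ζ) ∧ ∀ n ∈ T, π n ζ = φ n • ζ := by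
  have hst : ∀ d ∈ D, χ (star d) = star (χ d) := by
    intro d hd
    rw [← hφD _ (star_mem hd), ← hφD _ hd]
    exact Q_herm hφ d
  obtain ⟨x, hx, hx0⟩ := hχ.ne
  set F : Set (WeakDual ℂ A) := {ψ | ψ ∈ Q A ∧ (∀ d ∈ D, ψ d = χ d) ∧ ∀ n ∈ T, ψ n = φ n} with hF
  have hFc : IsCompact F := by
    have h : F = Q A ∩ ((⋂ d : D, {ψ : WeakDual ℂ A | ψ d = χ d}) ∩
        ⋂ n : T, {ψ : WeakDual ℂ A | ψ n = φ n}) := by
      ext ψ
      simp only [hF, Set.mem_ofPred_eq, Set.mem_inter_iff, Set.mem_iInter, Subtype.forall]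
    rw [h]
    refine Q_isCompact.inter_right ((isClosed_iInter fun d => ?_).inter
      (isClosed_iInter fun n => ?_))
    · have hc : Continuous fun ψ : WeakDual ℂ A => ψ (d : A) := WeakDual.eval_continuous _
      exact isClosed_eq hc continuous_const
    · have hc : Continuous fun ψ : WeakDual ℂ A => ψ (n : A) := WeakDual.eval_continuous _
      exact isClosed_eq hc continuous_const
  have hFext : IsExtreme ℝ (Q A) F := by
    refine ⟨fun ψ hψ => hψ.1, ?_⟩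
    intro ψ₁ h1 ψ₂ h2 ψ hψ hseg
    obtain ⟨s, t, hs, ht, hst1, rfl⟩ := hseg
    have hval : ∀ a, (s • ψ₁ + t • ψ₂) a = (s : ℂ) * ψ₁ a + (t : ℂ) * ψ₂ a := by
      intro a
      show s • ψ₁ a + t • ψ₂ a = _
      rw [Complex.real_smul, Complex.real_smul]
    have k1 : ∀ d ∈ D, ψ₁ d = χ d := REG3_part D hχ hst h1 h2 hs ht hst1 (fun d hd => by
      rw [← hψ.2.1 d hd, hval])
    have k2 : ∀ d ∈ D, ψ₂ d = χ d :=
      REG3_part D hχ hst h2 h1 ht hs (by rw [add_comm]; exact hst1) (fun d hd => by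
        rw [add_comm, ← hψ.2.1 d hd, hval])
    refine ⟨h1, k1, fun n hn => ?_⟩
    have m1 := Q_norm_sq_le h1 n
    have m2 := Q_norm_sq_le h2 n
    rw [k1 _ (hT n hn), ← hφT n hn, Complex.ofReal_re] at m1
    rw [k2 _ (hT n hn), ← hφT n hn, Complex.ofReal_re] at m2
    exact STV_disc hs ht hst1 (by rw [← hval, hψ.2.2 n hn]) rfl m1 m2
  obtain ⟨ψ, hψF⟩ := exists_extreme hFc ⟨φ, hφ, hφD, fun n _ => rfl⟩
  have hψ : ψ ∈ (Q A).extremePoints ℝ := hFext.extremePoints_subset_extremePoints hψF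
  have hψD : ∀ d ∈ D, ψ d = χ d := hψF.1.2.1
  have hψT : ∀ n ∈ T, ψ n = φ n := hψF.1.2.2
  have hψ0 : ψ ≠ 0 := by
    rintro rfl
    have := hψD x hx
    exact hx0 this.symm
  obtain ⟨ζ, hζ0, hζ1, hζ⟩ := pure_vector hN hπ hψ hψ0
  -- an element with `|ψ n|² = ψ (n* n)` has `ζ` as an eigenvector
  have key : ∀ n : A, ((‖ψ n‖ ^ 2 : ℝ) : ℂ) = ψ (star n * n) → π n ζ = ψ n • ζ := by
    intro n hn
    have a1 : ⟪ζ, π n ζ⟫_ℂ = ψ n := (hζ n).symm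
    have a2 : ‖π n ζ‖ ^ 2 = ‖ψ n‖ ^ 2 := by
      have b1 : ⟪ζ, π (star n * n) ζ⟫_ℂ = ((‖ψ n‖ ^ 2 : ℝ) : ℂ) := by
        rw [← hζ, hn]
      rw [map_mul, map_star, ContinuousLinearMap.star_eq_adjoint,
        mul_apply_eq_comp, ContinuousLinearMap.adjoint_inner_right,
        inner_self_eq_norm_sq_to_K] at b1
      have b2 : ((‖π n ζ‖ ^ 2 : ℝ) : ℂ) = ((‖ψ n‖ ^ 2 : ℝ) : ℂ) := by
        rw [← b1]
        simp
      exact_mod_cast b2
    have a3 : ‖π n ζ - ψ n • ζ‖ ^ 2 = ‖π n ζ‖ ^ 2 - 2 * (⟪π n ζ, ψ n • ζ⟫_ℂ).re +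
        ‖ψ n • ζ‖ ^ 2 := by
      have := @norm_sub_sq ℂ H _ _ _ (π n ζ) (ψ n • ζ)
      simpa using this
    have a4 : (⟪π n ζ, ψ n • ζ⟫_ℂ).re = ‖ψ n‖ ^ 2 := by
      rw [inner_smul_right, ← inner_conj_symm, a1, Complex.mul_conj, Complex.ofReal_re,
        Complex.normSq_eq_norm_sq]
    have a5 : ‖ψ n • ζ‖ ^ 2 ≤ ‖ψ n‖ ^ 2 := by
      rw [norm_smul, mul_pow]
      have : ‖ζ‖ ^ 2 ≤ 1 := pow_le_one₀ (norm_nonneg _) hζ1
      exact mul_le_of_le_one_right (sq_nonneg _) this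
    have a6 : ‖π n ζ - ψ n • ζ‖ ^ 2 ≤ 0 := by
      rw [a3, a4, a2]
      linarith
    have a7 : ‖π n ζ - ψ n • ζ‖ = 0 :=
      pow_eq_zero_iff (two_ne_zero) |>.1 (le_antisymm a6 (sq_nonneg _))
    exact sub_eq_zero.1 (norm_eq_zero.1 a7)
  refine ⟨ζ, hζ0, fun d hd => ?_, fun n hn => ?_⟩
  · rw [← hψD d hd]
    apply key
    rw [hψD d hd, hψD _ (mul_mem (star_mem hd) hd), hχ.mul _ (star_mem hd) _ hd, hst d hd,
      Complex.star_def, mul_comm, Complex.mul_conj, Complex.normSq_eq_norm_sq]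
  · rw [← hψT n hn]
    apply key
    rw [hψT n hn, hψD _ (hT n hn), hφT n hn]

end Vale.Agent.P070
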