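import Vale.Agent.P070.VecExt

/-!
# P070, module SPLIT: splitting a cap into two orthogonal caps

`f g = g`, `g` self-adjoint, the range of `π g` infinite-dimensional, and no nonzero finite rank
operator in `π(A)`.  Find self-adjoint `k ∈ A` with `f k = k`, `k f = k` and two different NONZERO
spectral values of `π k`:
if `π g` has two nonzero spectral values take `k = g`; otherwise `π g = s p` (`s ≠ 0`,
`p` a projection of infinite rank, `p = π (s⁻¹ g)`); `p π(A) p` is not `ℂ p` (for orthonormal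
`ξ, η ∈ p H`, `orbit_dense` gives `c` with `⟪η, π c ξ⟫ ≠ 0`; take real/imaginary part), so
some self-adjoint `k = g c g + μ g` has two different nonzero spectral values (as an operator on
`p H` it is not scalar; choose `μ` large).
Then for disjoint continuous bumps `h₀, h₁` around the two values (supports away from `0`) and
`h₀', h₁'` with slightly bigger disjoint supports and `h_i' h_i = h_i`: `g_i = cfcₙ h_i k`,
`f_i = cfcₙ h_i' k`.
-/

open scoped ComplexOrder InnerProductSpace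

namespace Vale.Agent.P070

universe u
variable {A : Type u} [NonUnitalCStarAlgebra A]
variable {H : Type u} [NormedAddCommGroup H] [InnerProductSpace ℂ H] [CompleteSpace H]

private theorem SPLIT_dich {T : H →L[ℂ] H} (hT : IsSelfAdjoint T) :
    (∃ s₁ ∈ spectrum ℝ T, ∃ s₂ ∈ spectrum ℝ T, s₁ ≠ s₂ ∧ s₁ ≠ 0 ∧ s₂ ≠ 0) ∨
      ∃ r : ℝ, T * T = r • T := by
  by_cases h : ∃ s₁ ∈ spectrum ℝ T, ∃ s₂ ∈ spectrum ℝ T, s₁ ≠ s₂ ∧ s₁ ≠ 0 ∧ s₂ ≠ 0
  · exact Or.inl h
  · right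
    push Not at h
    obtain ⟨r, hr⟩ : ∃ r : ℝ, ∀ s ∈ spectrum ℝ T, s = 0 ∨ s = r := by
      by_cases h2 : ∃ s ∈ spectrum ℝ T, s ≠ 0
      · obtain ⟨s, hs, hs0⟩ := h2
        refine ⟨s, fun t ht => ?_⟩
        by_cases hst : s = t
        · exact Or.inr hst.symm
        · exact Or.inl (h s hs t ht hst hs0)
      · push Not at h2
        exact ⟨0, fun s hs => Or.inl (h2 s hs)⟩
    refine ⟨r, ?_⟩
    have h1 : T * T = cfc (fun x : ℝ => x * x) T := by
      rw [cfc_mul (fun x : ℝ => x) (fun x : ℝ => x) T, cfc_id' ℝ T]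
    have h2 : r • T = cfc (fun x : ℝ => r * x) T := by
      rw [cfc_const_mul r (fun x : ℝ => x) T, cfc_id' ℝ T]
    rw [h1, h2]
    refine cfc_congr fun x hx => ?_
    rcases hr x hx with h3 | h3 <;> simp [h3]

/-- small bump -/
private noncomputable def SPLIT_b (c δ x : ℝ) : ℝ := max 0 (1 - |x - c| / δ)

/-- big bump -/
private noncomputable def SPLIT_B (c δ x : ℝ) : ℝ := max 0 (min 1 (2 - |x - c| / δ))

private theorem SPLIT_b_cont (c δ : ℝ) : Continuous (SPLIT_b c δ) := by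
  unfold SPLIT_b
  fun_prop

private theorem SPLIT_B_cont (c δ : ℝ) : Continuous (SPLIT_B c δ) := by
  unfold SPLIT_B
  fun_prop

private theorem SPLIT_B_nonneg (c δ x : ℝ) : 0 ≤ SPLIT_B c δ x := le_max_left _ _

private theorem SPLIT_B_le (c δ x : ℝ) : SPLIT_B c δ x ≤ 1 :=
  max_le zero_le_one (min_le_left _ _)

private theorem SPLIT_B_far {c δ x : ℝ} (hδ : 0 < δ) (h : 2 * δ ≤ |x - c|) : SPLIT_B c δ x = 0 := by
  unfold SPLIT_B
  have h1 : 2 ≤ |x - c| / δ := (le_div_iff₀ hδ).2 h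
  refine max_eq_left ((min_le_right _ _).trans ?_)
  linarith

private theorem SPLIT_b_far {c δ x : ℝ} (hδ : 0 < δ) (h : δ ≤ |x - c|) : SPLIT_b c δ x = 0 := by
  unfold SPLIT_b
  have h1 : 1 ≤ |x - c| / δ := (le_div_iff₀ hδ).2 (by linarith)
  refine max_eq_left ?_
  linarith

private theorem SPLIT_B_near {c δ x : ℝ} (hδ : 0 < δ) (h : |x - c| ≤ δ) : SPLIT_B c δ x = 1 := by
  unfold SPLIT_B
  have h1 : |x - c| / δ ≤ 1 := (div_le_one hδ).2 h
  rw [min_eq_left (by linarith), max_eq_right zero_le_one]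

private theorem SPLIT_mul {c δ : ℝ} (hδ : 0 < δ) (x : ℝ) :
    SPLIT_B c δ x * SPLIT_b c δ x = SPLIT_b c δ x := by
  rcases le_total |x - c| δ with h | h
  · rw [SPLIT_B_near hδ h, one_mul]
  · rw [SPLIT_b_far hδ h, mul_zero]

private theorem SPLIT_bump (π : A →⋆ₙₐ[ℂ] (H →L[ℂ] H)) (f k : A) (hk : IsSelfAdjoint k)
    (hfk : f * k = k) {c δ : ℝ} (hδ : 0 < δ) (hc : 4 * δ ≤ |c|) (hcs : c ∈ spectrum ℝ (π k)) :
    IsSelfAdjoint (cfcₙ (SPLIT_B c δ) k) ∧ IsSelfAdjoint (cfcₙ (SPLIT_b c δ) k) ∧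
      0 ≤ π (cfcₙ (SPLIT_B c δ) k) ∧ π (cfcₙ (SPLIT_B c δ) k) ≤ 1 ∧
      f * cfcₙ (SPLIT_B c δ) k = cfcₙ (SPLIT_B c δ) k ∧
      cfcₙ (SPLIT_B c δ) k * cfcₙ (SPLIT_b c δ) k = cfcₙ (SPLIT_b c δ) k ∧
      π (cfcₙ (SPLIT_b c δ) k) ≠ 0 := by
  have hB0 : SPLIT_B c δ 0 = 0 := SPLIT_B_far hδ (by rw [zero_sub, abs_neg]; linarith)
  have hb0 : SPLIT_b c δ 0 = 0 := SPLIT_b_far hδ (by rw [zero_sub, abs_neg]; linarith)
  have hBs : IsSelfAdjoint (cfcₙ (SPLIT_B c δ) k) := cfcₙ_predicate _ _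
  have hbs : IsSelfAdjoint (cfcₙ (SPLIT_b c δ) k) := cfcₙ_predicate _ _
  have hBc : ContinuousOn (SPLIT_B c δ) (quasispectrum ℝ k) := (SPLIT_B_cont c δ).continuousOn
  have hbc : ContinuousOn (SPLIT_b c δ) (quasispectrum ℝ k) := (SPLIT_b_cont c δ).continuousOn
  have hpos : 0 ≤ π (cfcₙ (SPLIT_B c δ) k) := by
    have hq : cfcₙ (fun x => √(SPLIT_B c δ x)) k * cfcₙ (fun x => √(SPLIT_B c δ x)) k
        = cfcₙ (SPLIT_B c δ) k := by
      rw [← cfcₙ_mul (fun x => √(SPLIT_B c δ x)) (fun x => √(SPLIT_B c δ x)) k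
        ((SPLIT_B_cont c δ).sqrt.continuousOn) (by simp [hB0])
        ((SPLIT_B_cont c δ).sqrt.continuousOn) (by simp [hB0])]
      refine cfcₙ_congr fun x _ => ?_
      exact Real.mul_self_sqrt (SPLIT_B_nonneg c δ x)
    have hqs : IsSelfAdjoint (cfcₙ (fun x => √(SPLIT_B c δ x)) k) := cfcₙ_predicate _ _
    have hs : star (π (cfcₙ (fun x => √(SPLIT_B c δ x)) k))
        = π (cfcₙ (fun x => √(SPLIT_B c δ x)) k) := by
      rw [← map_star, hqs.star_eq]
    rw [← hq, map_mul]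
    have h1 := star_mul_self_nonneg (π (cfcₙ (fun x => √(SPLIT_B c δ x)) k))
    rwa [hs] at h1
  refine ⟨hBs, hbs, hpos, ?_, ?_, ?_, ?_⟩
  · have h1 : ‖cfcₙ (SPLIT_B c δ) k‖ ≤ 1 := by
      refine norm_cfcₙ_le fun x _ => ?_
      rw [Real.norm_eq_abs, abs_of_nonneg (SPLIT_B_nonneg c δ x)]
      exact SPLIT_B_le c δ x
    have h2 : ‖π (cfcₙ (SPLIT_B c δ) k)‖ ≤ 1 :=
      (NonUnitalStarAlgHom.norm_apply_le π _).trans h1
    exact (CStarAlgebra.norm_le_one_iff_of_nonneg _ hpos).1 h2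
  · -- `B x = x * ψ x`
    have hcont : Continuous fun x : ℝ => SPLIT_B c δ x * x / max (x ^ 2) (δ ^ 2) := by
      refine Continuous.div ((SPLIT_B_cont c δ).mul continuous_id) (by fun_prop) fun x => ?_
      have : 0 < max (x ^ 2) (δ ^ 2) := lt_max_of_lt_right (by positivity)
      exact this.ne'
    have h1 : cfcₙ (SPLIT_B c δ) k
        = k * cfcₙ (fun x : ℝ => SPLIT_B c δ x * x / max (x ^ 2) (δ ^ 2)) k := by
      conv_rhs => enter [1]; rw [← cfcₙ_id' ℝ k]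
      rw [← cfcₙ_mul (fun x : ℝ => x) (fun x : ℝ => SPLIT_B c δ x * x / max (x ^ 2) (δ ^ 2)) k
        continuousOn_id rfl hcont.continuousOn (by simp)]
      refine cfcₙ_congr fun x _ => ?_
      rcases le_total δ |x| with h | h
      · have h2 : δ ^ 2 ≤ x ^ 2 := by
          rw [← sq_abs x]
          exact pow_le_pow_left₀ hδ.le h 2
        have h3 : x ^ 2 ≠ 0 := (lt_of_lt_of_le (by positivity) h2).ne'
        change SPLIT_B c δ x = x * (SPLIT_B c δ x * x / max (x ^ 2) (δ ^ 2))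
        have h4 : x ≠ 0 := fun h5 => h3 (by rw [h5]; ring)
        rw [max_eq_left h2]
        field_simp
      · have h2 : SPLIT_B c δ x = 0 := by
          refine SPLIT_B_far hδ ?_
          have h3 : |c| ≤ |x - c| + |x| := by
            have h4 := abs_sub_abs_le_abs_sub c x
            rw [abs_sub_comm] at h4
            linarith
          linarith
        change SPLIT_B c δ x = x * (SPLIT_B c δ x * x / max (x ^ 2) (δ ^ 2))
        rw [h2]
        simp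
    rw [h1, ← mul_assoc, hfk]
  · rw [← cfcₙ_mul (SPLIT_B c δ) (SPLIT_b c δ) k hBc hB0 hbc hb0]
    exact cfcₙ_congr fun x _ => SPLIT_mul hδ x
  · intro h0
    have hπk : IsSelfAdjoint (π k) := by
      rw [IsSelfAdjoint, ← map_star, hk.star_eq]
    have hcπ : Continuous π :=
      AddMonoidHomClass.continuous_of_bound π 1 fun a => by
        rw [one_mul]
        exact NonUnitalStarAlgHom.norm_apply_le π a
    have h1 : π (cfcₙ (SPLIT_b c δ) k) = cfcₙ (SPLIT_b c δ) (π k) :=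
      NonUnitalStarAlgHomClass.map_cfcₙ (S := ℂ) π (SPLIT_b c δ) k hbc hb0 hcπ hk hπk
    have h2 : cfcₙ (SPLIT_b c δ) (π k) = cfc (SPLIT_b c δ) (π k) :=
      cfcₙ_eq_cfc (SPLIT_b_cont c δ).continuousOn hb0
    have h3 : cfc (SPLIT_b c δ) (π k) = cfc (fun _ : ℝ => (0 : ℝ)) (π k) := by
      rw [← h2, ← h1, h0, cfc_const_zero]
    have h4 := (cfc_eq_cfc_iff_eqOn (a := π k) (ha := hπk)
      (hf := (SPLIT_b_cont c δ).continuousOn) (hg := continuousOn_const)).1 h3 hcs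
    simp [SPLIT_b] at h4

private theorem SPLIT_exists {π : A →⋆ₙₐ[ℂ] (H →L[ℂ] H)} (hπ : IsIrred π)
    (hnf : ∀ a, FiniteDimensional ℂ (LinearMap.range (π a : H →ₗ[ℂ] H)) → π a = 0)
    (f g : A) (hg : IsSelfAdjoint g) (hfg : f * g = g) (hg0 : π g ≠ 0) :
    ∃ k : A, IsSelfAdjoint k ∧ f * k = k ∧ ∃ s₁ ∈ spectrum ℝ (π k), ∃ s₂ ∈ spectrum ℝ (π k),
      s₁ ≠ s₂ ∧ s₁ ≠ 0 ∧ s₂ ≠ 0 := by
  by_contra hno
  have hsa : ∀ k : A, IsSelfAdjoint k → IsSelfAdjoint (π k) := by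
    intro k hk
    rw [IsSelfAdjoint, ← map_star, hk.star_eq]
  have key : ∀ k : A, IsSelfAdjoint k → f * k = k → ∃ r : ℝ, π k * π k = r • π k := by
    intro k hk hfk
    rcases SPLIT_dich (hsa k hk) with h | h
    · exact absurd ⟨k, hk, hfk, h⟩ hno
    · exact h
  obtain ⟨s, hs⟩ := key g hg hfg
  set P := π g with hP
  have hPs : IsSelfAdjoint P := hsa g hg
  have hs0 : s ≠ 0 := by
    intro h0
    rw [h0, zero_smul] at hs
    have h1 : star P * P = 0 := by rw [hPs.star_eq]; exact hs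
    exact hg0 (CStarRing.star_mul_self_eq_zero_iff P |>.1 h1)
  have hPP : ∀ x, P (P x) = (s : ℂ) • P x := by
    intro x
    have h1 := congrArg (fun T : H →L[ℂ] H => T x) hs
    simpa using h1
  obtain ⟨x, hx⟩ : ∃ x, P x ≠ 0 := by
    by_contra h
    push Not at h
    exact hg0 (ContinuousLinearMap.ext fun x => by simpa using h x)
  set ξ := P x with hξ
  obtain ⟨y, hy0, hyo⟩ : ∃ y, P y ≠ 0 ∧ ⟪P y, ξ⟫_ℂ = 0 := by
    by_contra h
    push Not at h
    have h1 : ∀ y, P y = (⟪ξ, P y⟫_ℂ / ⟪ξ, ξ⟫_ℂ) • ξ := by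
      intro y
      by_contra hne
      set c : ℂ := ⟪ξ, P y⟫_ℂ / ⟪ξ, ξ⟫_ℂ with hc
      have h2 : P (y - c • x) = P y - c • ξ := by rw [map_sub, map_smul]
      have h3 : P (y - c • x) ≠ 0 := by
        rw [h2]
        exact sub_ne_zero.2 hne
      refine h _ h3 ?_
      rw [h2]
      have h4 : ⟪ξ, P y - c • ξ⟫_ℂ = 0 := by
        rw [inner_sub_right, inner_smul_right, hc]
        have h5 : ⟪ξ, ξ⟫_ℂ ≠ 0 := inner_self_ne_zero.2 hx
        field_simp
        ring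
      rw [← inner_conj_symm, h4, map_zero]
    have h2 : FiniteDimensional ℂ (LinearMap.range (P : H →ₗ[ℂ] H)) := by
      have h3 : LinearMap.range (P : H →ₗ[ℂ] H) ≤ Submodule.span ℂ {ξ} := by
        rintro z ⟨y, rfl⟩
        change P y ∈ _
        rw [h1 y]
        exact Submodule.smul_mem _ _ (Submodule.mem_span_singleton_self ξ)
      exact Submodule.finiteDimensional_of_le h3
    exact hg0 (hnf g h2)
  set η := P y with hη
  have hPξ : P ξ = (s : ℂ) • ξ := hPP x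
  have hPη : P η = (s : ℂ) • η := hPP y
  obtain ⟨c, hc⟩ : ∃ c : A, ⟪η, π c ξ⟫_ℂ ≠ 0 := by
    obtain ⟨c, hc⟩ := orbit_dense hπ hx η (norm_pos_iff.2 hy0)
    refine ⟨c, fun h0 => ?_⟩
    have h1 : ⟪η, π c ξ - η⟫_ℂ = -((‖η‖ : ℂ) ^ 2) := by
      rw [inner_sub_right, h0, zero_sub, inner_self_eq_norm_sq_to_K]
      rfl
    have h2 : ‖η‖ ^ 2 ≤ ‖η‖ * ‖π c ξ - η‖ := by
      have h3 := norm_inner_le_norm (𝕜 := ℂ) η (π c ξ - η)
      rw [h1, norm_neg, norm_pow, Complex.norm_real, norm_norm] at h3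
      exact h3
    have h4 : 0 < ‖η‖ := norm_pos_iff.2 hy0
    nlinarith
  obtain ⟨c, hcs, hc⟩ : ∃ c : A, IsSelfAdjoint c ∧ ⟪η, π c ξ⟫_ℂ ≠ 0 := by
    by_contra h
    push Not at h
    refine hc ?_
    have h1 := realPart_add_I_smul_imaginaryPart c
    rw [← h1, map_add, map_smul]
    have h2 := h _ (realPart c).2
    have h3 := h _ (imaginaryPart c).2
    simp only [add_apply, smul_apply, inner_add_right,
      inner_smul_right]
    rw [h2, h3]
    simp
  set T := π (g * c * g) with hT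
  have hTP : T = P * π c * P := by rw [hT, map_mul, map_mul]
  have hk0 : IsSelfAdjoint (g * c * g) := by
    rw [IsSelfAdjoint, star_mul, star_mul, hg.star_eq, hcs.star_eq, mul_assoc]
  have hfk0 : f * (g * c * g) = g * c * g := by
    rw [← mul_assoc, ← mul_assoc, hfg]
  have hTη : ⟪η, T ξ⟫_ℂ ≠ 0 := by
    have h1 : T ξ = P (π c (P ξ)) := by rw [hTP]; rfl
    have h2 : ⟪η, P (π c (P ξ))⟫_ℂ = ⟪P η, π c (P ξ)⟫_ℂ := by
      rw [← ContinuousLinearMap.adjoint_inner_left, ← ContinuousLinearMap.star_eq_adjoint,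
        hPs.star_eq]
    rw [h1, h2, hPη, hPξ, map_smul, inner_smul_left, inner_smul_right, Complex.conj_ofReal]
    exact mul_ne_zero (by exact_mod_cast hs0) (mul_ne_zero (by exact_mod_cast hs0) hc)
  obtain ⟨r₀, hr₀⟩ := key _ hk0 hfk0
  rw [← hT] at hr₀
  have hPT : P * T = s • T := by
    rw [hTP, ← mul_assoc, ← mul_assoc, hs, smul_mul_assoc, smul_mul_assoc]
  have hTP' : T * P = s • T := by
    rw [hTP, mul_assoc, hs, mul_smul_comm]
  have main : ∀ μ : ℝ, μ ≠ 0 → r₀ = -(μ * s) := by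
    intro μ hμ
    have hk : IsSelfAdjoint (g * c * g + μ • g) := hk0.add ((IsSelfAdjoint.all μ).smul hg)
    have hfk : f * (g * c * g + μ • g) = g * c * g + μ • g := by
      rw [mul_add, hfk0, mul_smul_comm, hfg]
    obtain ⟨r, hr⟩ := key _ hk hfk
    have h1 : π (g * c * g + μ • g) = T + μ • P := by
      rw [map_add, ← hT]
      congr 1
      have h2 : (μ • g : A) = (μ : ℂ) • g := (Complex.coe_smul μ g).symm
      have h3 : (μ • P : H →L[ℂ] H) = (μ : ℂ) • P := (Complex.coe_smul μ P).symm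
      rw [h2, h3, map_smul]
    rw [h1] at hr
    have h2 : (T + μ • P) * (T + μ • P) = (r₀ + 2 * μ * s) • T + (μ * μ * s) • P := by
      rw [add_mul, mul_add, mul_add, hr₀, mul_smul_comm, hTP', smul_mul_assoc, smul_mul_assoc,
        hPT, mul_smul_comm, hs]
      module
    rw [h2] at hr
    have h3 := congrArg (fun S : H →L[ℂ] H => ⟪η, S ξ⟫_ℂ) hr
    have h4 : ⟪η, P ξ⟫_ℂ = 0 := by
      rw [hPξ, inner_smul_right, hyo, mul_zero]
    have h5 : ((r₀ + 2 * μ * s : ℝ) : ℂ) * ⟪η, T ξ⟫_ℂ = (r : ℂ) * ⟪η, T ξ⟫_ℂ := by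
      have e1 : ∀ (a b : ℝ), ⟪η, (a • T + b • P) ξ⟫_ℂ = (a : ℂ) * ⟪η, T ξ⟫_ℂ := by
        intro a b
        have e2 : (a • T + b • P) ξ = (a : ℂ) • T ξ + (b : ℂ) • P ξ := rfl
        rw [e2, inner_add_right, inner_smul_right, inner_smul_right, h4, mul_zero, add_zero]
      have e3 : r • (T + μ • P) = r • T + (r * μ) • P := by module
      rw [e3] at h3
      simp only [e1] at h3
      exact h3
    have h6 : r₀ + 2 * μ * s = r := by exact_mod_cast mul_right_cancel₀ hTη h5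
    have h7 : (μ * μ * s - r * μ) • P = 0 := by
      rw [← h6] at hr
      have e3 : (r₀ + 2 * μ * s) • (T + μ • P)
          = (r₀ + 2 * μ * s) • T + ((r₀ + 2 * μ * s) * μ) • P := by module
      rw [e3] at hr
      have h8 := add_left_cancel hr
      rw [sub_smul, h8, ← h6, sub_self]
    have h8 : μ * μ * s - r * μ = 0 := (smul_eq_zero.1 h7).resolve_right hg0
    have h9 : μ * s = r := by
      have h10 : μ * (μ * s - r) = 0 := by linarith
      linarith [(mul_eq_zero.1 h10).resolve_left hμ]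
    linarith
  have h1 := main 1 one_ne_zero
  have h2 := main 2 two_ne_zero
  apply hs0
  linarith

theorem split {π : A →⋆ₙₐ[ℂ] (H →L[ℂ] H)} (hπ : IsIrred π)
    (hnf : ∀ a, FiniteDimensional ℂ (LinearMap.range (π a : H →ₗ[ℂ] H)) → π a = 0)
    (f g : A) (hg : IsSelfAdjoint g) (hfg : f * g = g) (hg0 : π g ≠ 0) :
    ∃ f' g' : Bool → A, (∀ i, IsSelfAdjoint (f' i) ∧ IsSelfAdjoint (g' i) ∧ 0 ≤ π (f' i) ∧
      π (f' i) ≤ 1 ∧ f * f' i = f' i ∧ f' i * g' i = g' i ∧ π (g' i) ≠ 0) ∧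
      f' true * f' false = 0 := by
  obtain ⟨k, hk, hfk, s₁, hs₁, s₂, hs₂, hne, h10, h20⟩ := SPLIT_exists hπ hnf f g hg hfg hg0
  set δ : ℝ := min |s₁ - s₂| (min |s₁| |s₂|) / 4 with hδd
  have hm : 0 < min |s₁ - s₂| (min |s₁| |s₂|) :=
    lt_min (abs_pos.2 (sub_ne_zero.2 hne)) (lt_min (abs_pos.2 h10) (abs_pos.2 h20))
  have hδ : 0 < δ := by rw [hδd]; linarith
  have h4 : 4 * δ = min |s₁ - s₂| (min |s₁| |s₂|) := by rw [hδd]; ring
  have hd : 4 * δ ≤ |s₁ - s₂| := by rw [h4]; exact min_le_left _ _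
  have hd1 : 4 * δ ≤ |s₁| := by rw [h4]; exact (min_le_right _ _).trans (min_le_left _ _)
  have hd2 : 4 * δ ≤ |s₂| := by rw [h4]; exact (min_le_right _ _).trans (min_le_right _ _)
  refine ⟨fun i => cond i (cfcₙ (SPLIT_B s₁ δ) k) (cfcₙ (SPLIT_B s₂ δ) k),
    fun i => cond i (cfcₙ (SPLIT_b s₁ δ) k) (cfcₙ (SPLIT_b s₂ δ) k), ?_, ?_⟩
  · intro i
    cases i
    · exact SPLIT_bump π f k hk hfk hδ hd2 hs₂
    · exact SPLIT_bump π f k hk hfk hδ hd1 hs₁
  · change cfcₙ (SPLIT_B s₁ δ) k * cfcₙ (SPLIT_B s₂ δ) k = 0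
    have hB1 : SPLIT_B s₁ δ 0 = 0 := SPLIT_B_far hδ (by rw [zero_sub, abs_neg]; linarith)
    have hB2 : SPLIT_B s₂ δ 0 = 0 := SPLIT_B_far hδ (by rw [zero_sub, abs_neg]; linarith)
    rw [← cfcₙ_mul (SPLIT_B s₁ δ) (SPLIT_B s₂ δ) k (SPLIT_B_cont s₁ δ).continuousOn hB1
      (SPLIT_B_cont s₂ δ).continuousOn hB2]
    have h5 : ∀ x, SPLIT_B s₁ δ x * SPLIT_B s₂ δ x = 0 := by
      intro x
      by_cases h6 : 2 * δ ≤ |x - s₁|
      · rw [SPLIT_B_far hδ h6, zero_mul]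
      · push Not at h6
        have h7 : |s₁ - s₂| ≤ |x - s₁| + |x - s₂| := by
          have h8 := abs_sub_le s₁ x s₂
          rw [abs_sub_comm s₁ x] at h8
          exact h8
        rw [SPLIT_B_far hδ (by linarith : 2 * δ ≤ |x - s₂|), mul_zero]
    rw [cfcₙ_congr (g := fun _ => 0) fun x _ => h5 x, cfcₙ_const_zero]

end Vale.Agent.P070
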