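import Vale.Agent.P070.Atomic
import Vale.Agent.P070.Split

/-!
# P070, module TREE (helper75): a counterexample to Naimark's problem has an orthonormal family
of size `2^ℵ₀` in its irreducible representation
-/

open scoped ComplexOrder InnerProductSpace

namespace Vale.Agent.P070

universe u
variable {A : Type u} [NonUnitalCStarAlgebra A]
variable {H : Type u} [NormedAddCommGroup H] [InnerProductSpace ℂ H] [CompleteSpace H]

theorem split_step {π : A →⋆ₙₐ[ℂ] (H →L[ℂ] H)} (hπ : IsIrred π)
    (hnf : ∀ a, FiniteDimensional ℂ (LinearMap.range (π a : H →ₗ[ℂ] H)) → π a = 0)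
    (c : CapData π) : ∃ c' : Bool → CapData π, (∀ i, c.f * (c' i).f = (c' i).f) ∧
      (c' true).f * (c' false).f = 0 := by
  obtain ⟨f', g', h, h01⟩ := split hπ hnf c.f c.g c.hg c.hfg c.hg0
  exact ⟨fun i => ⟨f' i, g' i, (h i).1, (h i).2.1, (h i).2.2.1, (h i).2.2.2.1,
    (h i).2.2.2.2.2.1, (h i).2.2.2.2.2.2⟩, fun i => (h i).2.2.2.2.1, h01⟩

/-- the tree below a given cap -/
theorem tree_from (hN : PropertyN A) {π : A →⋆ₙₐ[ℂ] (H →L[ℂ] H)}
    (hπ : IsIrred π)
    (hnf : ∀ a, FiniteDimensional ℂ (LinearMap.range (π a : H →ₗ[ℂ] H)) → π a = 0)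
    (c0 : CapData π) :
    ∃ v : (ℕ → Bool) → H, Orthonormal ℂ v ∧ ∀ x, π c0.f (v x) = v x := by
  choose nxt hn1 hn2 using split_step hπ hnf
  -- the tree along a branch
  let seq : (ℕ → Bool) → ℕ → CapData π := fun x n => Nat.rec c0 (fun n c => nxt c (x n)) n
  have hseq : ∀ x n, seq x (n + 1) = nxt (seq x n) (x n) := fun x n => rfl
  have hagree : ∀ (x y : ℕ → Bool) (n : ℕ), (∀ m < n, x m = y m) → seq x n = seq y n := by
    intro x y n
    induction n with
    | zero => intro _; rfl
    | succ n ih =>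
      intro h
      rw [hseq, hseq, ih (fun m hm => h m (by omega)), h n (by omega)]
  have hbranch : ∀ x : ℕ → Bool, ∃ ζ : H, ‖ζ‖ = 1 ∧ ∀ n, π (seq x n).f ζ = ζ := by
    intro x
    exact nested hN hπ (fun n => (seq x n).f) (fun n => (seq x n).g)
      (fun n => ⟨(seq x n).hf, (seq x n).h0, (seq x n).h1⟩)
      (fun n => by
        show (seq x n).f * (seq x (n + 1)).f = (seq x (n + 1)).f
        rw [hseq]; exact hn1 (seq x n) (x n))
      (fun n => ⟨(seq x n).hfg, (seq x n).hg0⟩)
  choose v hv1 hv2 using hbranch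
  refine ⟨v, ⟨hv1, ?_⟩, fun x => hv2 x 0⟩
  -- orthogonality
  have key : ∀ x y : ℕ → Bool, ∀ n, (∀ m < n, x m = y m) → x n = true → y n = false →
      ⟪v x, v y⟫_ℂ = 0 := by
    intro x y n hag hx hy
    have e1 : seq x (n + 1) = nxt (seq x n) true := by rw [hseq, hx]
    have e2 : seq y (n + 1) = nxt (seq x n) false := by rw [hseq, hy, hagree x y n hag]
    have h1 := hv2 x (n + 1)
    have h2 := hv2 y (n + 1)
    rw [← h1, ← h2, isSelfAdjoint_inner ((seq x (n + 1)).hf.map π),
      ← ContinuousLinearMap.mul_apply, ← map_mul, e1, e2, hn2, map_zero]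
    simp
  intro x y hxy
  have hex : ∃ n, x n ≠ y n := by
    by_contra hcon
    push Not at hcon
    exact hxy (funext hcon)
  classical
  have hmin : ∀ m < Nat.find hex, x m = y m := fun m hm => by
    have := Nat.find_min hex hm
    push Not at this
    exact this
  have hne := Nat.find_spec hex
  cases hx : x (Nat.find hex) with
  | true =>
    have hy : y (Nat.find hex) = false := by
      cases hy : y (Nat.find hex) with
      | true => exact absurd (hx.trans hy.symm) hne
      | false => rfl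
    exact key x y _ hmin hx hy
  | false =>
    have hy : y (Nat.find hex) = true := by
      cases hy : y (Nat.find hex) with
      | true => rfl
      | false => exact absurd (hx.trans hy.symm) hne
    have := key y x _ (fun m hm => (hmin m hm).symm) hy hx
    rw [← inner_conj_symm, this, map_zero]

theorem exists_orthonormal_continuum (hN : PropertyN A) {π : A →⋆ₙₐ[ℂ] (H →L[ℂ] H)}
    (hπ : IsIrred π)
    (hnf : ∀ a, FiniteDimensional ℂ (LinearMap.range (π a : H →ₗ[ℂ] H)) → π a = 0) :
    ∃ v : (ℕ → Bool) → H, Orthonormal ℂ v := by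
  obtain ⟨c0⟩ := exists_cap hπ
  obtain ⟨v, hv, -⟩ := tree_from hN hπ hnf c0
  exact ⟨v, hv⟩

end Vale.Agent.P070
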