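import Vale.Agent.P070.SetForm
import Vale.Agent.P070.Tree
import Vale.Agent.P070.Reg1
import Vale.Agent.P070.Reg3
import Vale.Agent.P070.Reg4
import Vale.Agent.P070.Gen
import Vale.Agent.P070.CharEx
import Vale.Agent.P070.Iso
import Vale.Agent.P070.StateVec

/-!
# P070, module FINAL (helper75)
-/

open scoped ComplexOrder InnerProductSpace

namespace Vale.Agent.P070

universe u
variable {A : Type u} [NonUnitalCStarAlgebra A]
variable {H : Type u} [NormedAddCommGroup H] [InnerProductSpace ℂ H] [CompleteSpace H]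

/-- Theorem 2. -/
theorem small_dim (hN : PropertyN A) {π : A →⋆ₙₐ[ℂ] (H →L[ℂ] H)} (hπ : IsIrred π)
    (hdim : ¬ ∃ v : (ℕ → Bool) → H, Orthonormal ℂ v) :
    Function.Injective π ∧ Set.range π = {T : H →L[ℂ] H | IsCompactOperator T} := by
  apply compact_of_finite_rank hN hπ
  by_contra hcon
  push Not at hcon
  apply hdim
  apply exists_orthonormal_continuum hN hπ
  intro a ha
  by_contra h
  exact hcon a h ha

/-- Theorem 2, local version. -/
theorem range_small (hN : PropertyN A) {π : A →⋆ₙₐ[ℂ] (H →L[ℂ] H)} (hπ : IsIrred π)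
    (a : A) (ha : a ≠ 0)
    (hs : ∃ s : Set H, Cardinal.mk s < Cardinal.continuum ∧ Set.range (π a) ⊆ closure s) :
    Function.Injective π ∧ Set.range π = {T : H →L[ℂ] H | IsCompactOperator T} := by
  have hinj := injective_of_N hN hπ
  apply compact_of_finite_rank hN hπ
  by_contra hcon
  push Not at hcon
  have hnf : ∀ b, FiniteDimensional ℂ (LinearMap.range (π b : H →ₗ[ℂ] H)) → π b = 0 := by
    intro b hb
    by_contra h
    exact hcon b h hb
  have hg0 : π (a * star a) ≠ 0 := by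
    intro h
    have h1 : a * star a = 0 := hinj (h.trans (map_zero π).symm)
    exact ha ((CStarRing.mul_star_self_eq_zero_iff a).mp h1)
  have hbig := big_range hN hπ hnf (a * star a) (IsSelfAdjoint.mul_star_self a) hg0
  have hsm : SmallDim (LinearMap.range (π (a * star a) : H →ₗ[ℂ] H)) := by
    obtain ⟨s, hs1, hs2⟩ := hs
    refine ⟨s, hs1, ?_⟩
    rintro _ ⟨x, rfl⟩
    apply hs2
    refine ⟨π (star a) x, ?_⟩
    show _ = π (a * star a) x
    rw [map_mul]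
    rfl
  obtain ⟨y, hyR, hy1, hy⟩ := SEP_vector hbig hsm (η := 1 / 2) (by norm_num)
  have h := hy y hyR
  rw [inner_self_eq_norm_sq_to_K, hy1] at h
  norm_num at h

/-- under (N) there is an irreducible representation -/
theorem exists_irred (hN : PropertyN A) :
    ∃ (H : Type u) (_ : NormedAddCommGroup H) (_ : InnerProductSpace ℂ H)
      (_ : CompleteSpace H) (π : A →⋆ₙₐ[ℂ] (H →L[ℂ] H)), IsIrred π := by
  obtain ⟨a, ha⟩ := @exists_ne A hN.1 0
  obtain ⟨φ, hφ, hφa⟩ := exists_Q_ne a ha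
  obtain ⟨ψ, hψ, hψa⟩ := exists_extreme_ne Q_isCompact Q_convex hφ hφa
  have hψ0 : ψ ≠ 0 := by
    rintro rfl
    exact hψa rfl
  obtain ⟨G⟩ := gns_exists hψ.1
  exact ⟨G.H, inferInstance, inferInstance, inferInstance, G.ρ, irred_of_extreme hψ hψ0 G⟩

/-- Theorem 3: regular subalgebras with one small joint eigenspace. -/
theorem regular_small (hN : PropertyN A) {π : A →⋆ₙₐ[ℂ] (H →L[ℂ] H)} (hπ : IsIrred π)
    (D : NonUnitalStarSubalgebra ℂ A) (hcl : IsClosed (D : Set A))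
    (hcomm : ∀ x ∈ D, ∀ y ∈ D, x * y = y * x) (hreg : IsRegular D) {χ : A → ℂ}
    (hχ : IsChar D χ)
    (hs : ∃ s : Set H, Cardinal.mk s < Cardinal.continuum ∧
      {η : H | ∀ d ∈ D, π d η = χ d • η} ⊆ closure s) :
    Function.Injective π ∧ Set.range π = {T : H →L[ℂ] H | IsCompactOperator T} := by
  obtain ⟨ξ₀, h0, heig⟩ := char_eigvec hN hπ D hcl hχ
  obtain ⟨hspan, hsm⟩ := reg_small hπ D hcomm hreg h0 heig hs
  refine atomic_set hN hπ (π '' (D : Set A)) ?_ ?_ ?_ hspan hsm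
  · rintro _ ⟨d, hd, rfl⟩
    exact ⟨star d, star_mem hd, map_star π d⟩
  · rintro _ ⟨d, hd, rfl⟩ _ ⟨d', hd', rfl⟩
    rw [← map_mul, ← map_mul, hcomm d hd d' hd']
  · rintro _ ⟨d, hd, rfl⟩ a
    exact ⟨d * a, map_mul π d a⟩

/-- Theorem 3, a character with only one extension. -/
theorem regular_unique (hN : PropertyN A) {π : A →⋆ₙₐ[ℂ] (H →L[ℂ] H)} (hπ : IsIrred π)
    (D : NonUnitalStarSubalgebra ℂ A) (hcl : IsClosed (D : Set A))
    (hcomm : ∀ x ∈ D, ∀ y ∈ D, x * y = y * x) (hreg : IsRegular D) {χ : A → ℂ}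
    (hχ : UniqueChar D χ) :
    Function.Injective π ∧ Set.range π = {T : H →L[ℂ] H | IsCompactOperator T} := by
  obtain ⟨ξ₀, h1, heig, hone⟩ := reg_eigvec hN hπ D hcl hχ
  refine regular_small hN hπ D hcl hcomm hreg hχ.isChar ?_
  obtain ⟨s, hs1, hs2⟩ := SEP_span ξ₀
  refine ⟨s, hs1, fun η hη => hs2 ?_⟩
  obtain ⟨c, hc⟩ := hone η hη
  exact Submodule.mem_span_singleton.mpr ⟨c, hc.symm⟩

theorem normalizer_regular {D : NonUnitalStarSubalgebra ℂ A} {S : Set A} (hS : S ⊆ normalizer D)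
    (hSd : Dense (Submodule.span ℂ S : Set A)) : IsRegular D :=
  hSd.mono (SetLike.coe_subset_coe.mpr (Submodule.span_mono hS))

/-- Theorem 3, small isotropy at one character. -/
theorem isotropy_small (hN : PropertyN A) {π : A →⋆ₙₐ[ℂ] (H →L[ℂ] H)} (hπ : IsIrred π)
    (D : NonUnitalStarSubalgebra ℂ A) (hcl : IsClosed (D : Set A))
    (hcomm : ∀ x ∈ D, ∀ y ∈ D, x * y = y * x) (S : Set A) (hS : S ⊆ normalizer D)
    (hSd : Dense (Submodule.span ℂ S : Set A)) {χ : A → ℂ} (hχ : IsChar D χ)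
    (N : Set A) (hNc : Cardinal.mk N < Cardinal.continuum)
    (hiso : ∀ n ∈ S, χ (star n * n) ≠ 0 →
      (∀ d ∈ D, χ (star n * d * n) = χ (star n * n) * χ d) →
      ∀ ε > 0, ∃ m ∈ N, ∃ z : ℂ, ∃ d ∈ D, χ d = 1 ∧ ‖(n - z • m) * d‖ < ε) :
    Function.Injective π ∧ Set.range π = {T : H →L[ℂ] H | IsCompactOperator T} := by
  obtain ⟨ξ₀, h0, heig⟩ := char_eigvec hN hπ D hcl hχ
  exact regular_small hN hπ D hcl hcomm (normalizer_regular hS hSd) hχ
    (iso_small hπ D hcomm S hS hSd h0 heig N hNc hiso)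

/-- Theorem 3, a quasi-state which is multiplicative on the isotropy at one character. -/
theorem isotropy_state (hN : PropertyN A) {π : A →⋆ₙₐ[ℂ] (H →L[ℂ] H)} (hπ : IsIrred π)
    (D : NonUnitalStarSubalgebra ℂ A)
    (hcomm : ∀ x ∈ D, ∀ y ∈ D, x * y = y * x) (S : Set A) (hS : S ⊆ normalizer D)
    (hSd : Dense (Submodule.span ℂ S : Set A)) {χ : A → ℂ} (hχ : IsChar D χ)
    {φ : WeakDual ℂ A} (hφ : φ ∈ Q A) (hφD : ∀ d ∈ D, φ d = χ d)
    (hφS : ∀ n ∈ S, χ (star n * n) ≠ 0 →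
      (∀ d ∈ D, χ (star n * d * n) = χ (star n * n) * χ d) →
      ((‖φ n‖ ^ 2 : ℝ) : ℂ) = χ (star n * n)) :
    Function.Injective π ∧ Set.range π = {T : H →L[ℂ] H | IsCompactOperator T} := by
  obtain ⟨ζ, h0, heig, hT⟩ := state_eigvec hN hπ D hχ
    {n | n ∈ S ∧ χ (star n * n) ≠ 0 ∧ ∀ d ∈ D, χ (star n * d * n) = χ (star n * n) * χ d}
    (fun n hn => (hS hn.1).1) hφ hφD (fun n hn => hφS n hn.1 hn.2.1 hn.2.2)
  have hsub := iso_core hπ D hcomm S hS hSd h0 heig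
  have hle : Submodule.span ℂ {v : H | ∃ n ∈ S, χ (star n * n) ≠ 0 ∧
      (∀ d ∈ D, χ (star n * d * n) = χ (star n * n) * χ d) ∧ v = π n ζ} ≤
      Submodule.span ℂ {ζ} := by
    refine Submodule.span_le.2 ?_
    rintro v ⟨n, hn, hc, hch, rfl⟩
    exact Submodule.mem_span_singleton.mpr ⟨φ n, (hT n ⟨hn, hc, hch⟩).symm⟩
  obtain ⟨s, hs1, hs2⟩ := SEP_span ζ
  have hcl : closure (Submodule.span ℂ {ζ} : Set H) = Submodule.span ℂ {ζ} :=
    (Submodule.closed_of_finiteDimensional _).closure_eq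
  have hsm : ∃ s : Set H, Cardinal.mk s < Cardinal.continuum ∧
      {η : H | ∀ d ∈ D, π d η = χ d • η} ⊆ closure s := by
    refine ⟨s, hs1, fun η hη => hs2 ?_⟩
    have h1 := closure_mono (SetLike.coe_subset_coe.2 hle) (hsub hη)
    rwa [hcl] at h1
  obtain ⟨hspan, hsm'⟩ := reg_small hπ D hcomm (normalizer_regular hS hSd) h0 heig hsm
  refine atomic_set hN hπ (π '' (D : Set A)) ?_ ?_ ?_ hspan hsm'
  · rintro _ ⟨d, hd, rfl⟩
    exact ⟨star d, star_mem hd, map_star π d⟩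
  · rintro _ ⟨d, hd, rfl⟩ _ ⟨d', hd', rfl⟩
    rw [← map_mul, ← map_mul, hcomm d hd d' hd']
  · rintro _ ⟨d, hd, rfl⟩ a
    exact ⟨d * a, map_mul π d a⟩

/-- Theorem 4: few normalisers. -/
theorem generated_small (hN : PropertyN A) {π : A →⋆ₙₐ[ℂ] (H →L[ℂ] H)} (hπ : IsIrred π)
    (D : NonUnitalStarSubalgebra ℂ A) (hcl : IsClosed (D : Set A))
    (hcomm : ∀ x ∈ D, ∀ y ∈ D, x * y = y * x)
    (N : Set A) (hNn : N ⊆ normalizer D) (hNc : Cardinal.mk N < Cardinal.continuum)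
    (hgen : ∀ B : NonUnitalStarSubalgebra ℂ A, IsClosed (B : Set A) → (D : Set A) ⊆ B →
      N ⊆ (B : Set A) → B = ⊤) :
    Function.Injective π ∧ Set.range π = {T : H →L[ℂ] H | IsCompactOperator T} := by
  have hD : ∃ x ∈ D, x ≠ 0 := by
    by_contra hcon
    push Not at hcon
    have hbot : (⊥ : NonUnitalStarSubalgebra ℂ A) = ⊤ := by
      apply hgen
      · rw [NonUnitalStarAlgebra.coe_bot]
        exact isClosed_singleton
      · intro x hx
        rw [NonUnitalStarAlgebra.coe_bot]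
        exact hcon x hx
      · intro n hn
        rw [NonUnitalStarAlgebra.coe_bot]
        exact (CStarRing.star_mul_self_eq_zero_iff n).mp (hcon _ (hNn hn).1)
    obtain ⟨a, ha⟩ := @exists_ne A hN.1 0
    have h1 : a ∈ (⊤ : NonUnitalStarSubalgebra ℂ A) := NonUnitalStarAlgebra.mem_top
    rw [← hbot] at h1
    exact ha (NonUnitalStarAlgebra.mem_bot.mp h1)
  obtain ⟨χ, hχ⟩ := exists_char D hcl hcomm hD
  obtain ⟨ξ₀, h0, heig⟩ := char_eigvec hN hπ D hcl hχ
  exact small_dim hN hπ (gen_small hπ D hcomm N hNn hNc hgen h0 heig)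

end Vale.Agent.P070
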