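import Vale.Agent.P070.Nondeg

/-!
# P070, module KIN1: a finite rank operator in `π(A)` gives all rank one operators

Take `T = π a ≠ 0` of minimal finite rank, `R` its range.  For `c ∈ A` the map `ζ ↦ T (π c ζ)` of `R`
has an eigenvalue `μ`; `π (a c a - μ a)` has smaller rank, so it is zero and the map is `μ`.  By
density of orbits these maps act transitively on `R`, so `R` is one-dimensional.
-/

open scoped ComplexOrder InnerProductSpace

namespace Vale.Agent.P070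

universe u
variable {A : Type u} [NonUnitalCStarAlgebra A]
variable {H : Type u} [NormedAddCommGroup H] [InnerProductSpace ℂ H] [CompleteSpace H]

/-- the operator `x ↦ ⟪v, x⟫ w` -/
noncomputable def KIN1_op (v w : H) : H →L[ℂ] H := InnerProductSpace.rankOne ℂ w v

omit [CompleteSpace H] in
theorem KIN1_op_apply (v w x : H) : KIN1_op v w x = ⟪v, x⟫_ℂ • w :=
  InnerProductSpace.rankOne_apply w v x

/-- transitivity on the range of a finite rank element -/
theorem KIN1_trans {π : A →⋆ₙₐ[ℂ] (H →L[ℂ] H)} (hπ : IsIrred π) (a : A)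
    [FiniteDimensional ℂ (LinearMap.range (π a : H →ₗ[ℂ] H))] {ζ : H} (hζ : ζ ≠ 0) (x : H) :
    ∃ c, π a (π c ζ) = π a x := by
  let V : Submodule ℂ H :=
    { carrier := {y | ∃ c, π a (π c ζ) = y}
      add_mem' := by
        rintro y z ⟨c, rfl⟩ ⟨d, rfl⟩
        exact ⟨c + d, by rw [map_add, add_apply, map_add]⟩
      zero_mem' := ⟨0, by rw [map_zero, zero_apply, map_zero]⟩
      smul_mem' := by
        rintro k y ⟨c, rfl⟩
        exact ⟨k • c, by rw [map_smul, smul_apply, map_smul]⟩ }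
  have hV : V ≤ LinearMap.range (π a : H →ₗ[ℂ] H) := by
    rintro y ⟨c, rfl⟩
    exact ⟨π c ζ, rfl⟩
  have hfd : FiniteDimensional ℂ V := Submodule.finiteDimensional_of_le hV
  have hcl : IsClosed (V : Set H) := Submodule.closed_of_finiteDimensional V
  have hmem : π a x ∈ closure (V : Set H) := by
    rw [Metric.mem_closure_iff]
    intro ε hε
    obtain ⟨c, hc⟩ := orbit_dense hπ hζ x (ε := ε / (‖π a‖ + 1)) (by positivity)
    refine ⟨π a (π c ζ), ⟨c, rfl⟩, ?_⟩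
    rw [dist_eq_norm, ← map_sub]
    have h1 : ‖π a (x - π c ζ)‖ ≤ ‖π a‖ * ‖x - π c ζ‖ := (π a).le_opNorm _
    rw [norm_sub_rev] at hc
    rw [lt_div_iff₀ (by positivity)] at hc
    nlinarith [norm_nonneg (x - π c ζ), norm_nonneg (π a)]
  rw [hcl.closure_eq] at hmem
  exact hmem

/-- a nonzero element of minimal finite rank has rank one -/
theorem KIN1_rank_one {π : A →⋆ₙₐ[ℂ] (H →L[ℂ] H)} (hπ : IsIrred π)
    (hfr : ∃ a, π a ≠ 0 ∧ FiniteDimensional ℂ (LinearMap.range (π a : H →ₗ[ℂ] H))) :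
    ∃ (a : A) (ζ v : H), ζ ≠ 0 ∧ v ≠ 0 ∧ ∀ x, π a x = ⟪v, x⟫_ℂ • ζ := by
  classical
  have hex : ∃ n : ℕ, ∃ a, π a ≠ 0 ∧ FiniteDimensional ℂ (LinearMap.range (π a : H →ₗ[ℂ] H)) ∧
      Module.finrank ℂ (LinearMap.range (π a : H →ₗ[ℂ] H)) = n := by
    obtain ⟨a, h1, h2⟩ := hfr
    exact ⟨_, a, h1, h2, rfl⟩
  obtain ⟨a, ha0, hafd, han⟩ := Nat.find_spec hex
  have hmin : ∀ b, FiniteDimensional ℂ (LinearMap.range (π b : H →ₗ[ℂ] H)) →
      Module.finrank ℂ (LinearMap.range (π b : H →ₗ[ℂ] H)) <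
        Module.finrank ℂ (LinearMap.range (π a : H →ₗ[ℂ] H)) → π b = 0 := by
    intro b hb hlt
    by_contra hb0
    rw [han] at hlt
    exact Nat.find_min hex hlt ⟨b, hb0, hb, rfl⟩
  set R := LinearMap.range (π a : H →ₗ[ℂ] H) with hR
  -- a nonzero vector of `R`
  obtain ⟨x0, hx0⟩ : ∃ x, π a x ≠ 0 := by
    by_contra hc
    push Not at hc
    exact ha0 (ContinuousLinearMap.ext hc)
  set ζ := π a x0 with hζ
  have hζR : ζ ∈ R := ⟨x0, rfl⟩
  have hnt : Nontrivial R := ⟨⟨⟨ζ, hζR⟩, 0, fun h => hx0 (congrArg Subtype.val h)⟩⟩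
  -- scalars
  have hsc : ∀ c : A, ∃ μ : ℂ, ∀ y ∈ R, π a (π c y) = μ • y := by
    intro c
    let f : R →ₗ[ℂ] R :=
      LinearMap.codRestrict R (((π a : H →ₗ[ℂ] H).comp (π c : H →ₗ[ℂ] H)).comp R.subtype)
        (fun y => ⟨π c y, rfl⟩)
    have hf : ∀ y : R, ((f y : R) : H) = π a (π c y) := fun y => rfl
    obtain ⟨μ, hμ⟩ := Module.End.exists_eigenvalue f
    obtain ⟨y0, hy0⟩ := hμ.exists_hasEigenvector
    have hy1 : f y0 = μ • y0 := hy0.apply_eq_smul
    have hy2 : y0 ≠ 0 := hy0.2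
    refine ⟨μ, ?_⟩
    let g : R →ₗ[ℂ] R := f - μ • LinearMap.id
    let T' : H →ₗ[ℂ] R := (π a : H →ₗ[ℂ] H).rangeRestrict
    have hg : (π (a * c * a - μ • a) : H →ₗ[ℂ] H) = R.subtype.comp (g.comp T') := by
      ext x
      simp only [g, map_sub, map_mul, map_smul]
      rfl
    have hgr : LinearMap.range g ≠ ⊤ := by
      intro htop
      have hsur := LinearMap.range_eq_top.1 htop
      have hinj := LinearMap.injective_iff_surjective.2 hsur
      apply hy2
      apply hinj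
      rw [map_zero]
      simp only [g, LinearMap.sub_apply, LinearMap.smul_apply, LinearMap.id_apply, hy1, sub_self]
    have hle : LinearMap.range (R.subtype.comp (g.comp T')) ≤ (LinearMap.range g).map R.subtype := by
      rintro _ ⟨x, rfl⟩
      exact ⟨g (T' x), ⟨T' x, rfl⟩, rfl⟩
    have hfd1 : FiniteDimensional ℂ ((LinearMap.range g).map R.subtype) := inferInstance
    have hfd2 : FiniteDimensional ℂ (LinearMap.range (R.subtype.comp (g.comp T'))) :=
      Submodule.finiteDimensional_of_le hle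
    have hz : π (a * c * a - μ • a) = 0 := by
      apply hmin
      · rw [hg]
        exact hfd2
      · rw [hg]
        refine lt_of_le_of_lt (Submodule.finrank_mono hle) ?_
        rw [Submodule.finrank_map_subtype_eq]
        exact Submodule.finrank_lt hgr
    rintro _ ⟨x, rfl⟩
    have h1 := congrArg (fun S : H →L[ℂ] H => S x) hz
    simp only [map_sub, map_mul, map_smul, sub_apply, zero_apply] at h1
    exact sub_eq_zero.1 h1
  -- the range is spanned by `ζ`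
  have hspan : ∀ x, ∃ μ : ℂ, π a x = μ • ζ := by
    intro x
    obtain ⟨c, hc⟩ := KIN1_trans hπ a hx0 x
    obtain ⟨μ, hμ⟩ := hsc c
    exact ⟨μ, by rw [← hc, hμ ζ hζR]⟩
  have hζζ : ⟪ζ, ζ⟫_ℂ ≠ 0 := inner_self_ne_zero.2 hx0
  set v : H := (starRingEnd ℂ (⟪ζ, ζ⟫_ℂ)⁻¹) • (ContinuousLinearMap.adjoint (π a)) ζ with hv
  have hform : ∀ x, π a x = ⟪v, x⟫_ℂ • ζ := by
    intro x
    obtain ⟨μ, hμ⟩ := hspan x
    rw [hv, inner_smul_left, ContinuousLinearMap.adjoint_inner_left, hμ, inner_smul_right,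
      RingHomCompTriple.comp_apply, RingHom.id_apply]
    congr 1
    field_simp
  refine ⟨a, ζ, v, hx0, ?_, hform⟩
  intro hv0
  apply hx0
  rw [hζ, hform, hv0, inner_zero_left, zero_smul]

theorem rank_one_mem {π : A →⋆ₙₐ[ℂ] (H →L[ℂ] H)} (hπ : IsIrred π)
    (hinj : Function.Injective π)
    (hfr : ∃ a, π a ≠ 0 ∧ FiniteDimensional ℂ (LinearMap.range (π a : H →ₗ[ℂ] H)))
    (v w : H) : ∃ a, ∀ x, π a x = ⟪v, x⟫_ℂ • w := by
  obtain ⟨a, ζ, v0, hζ, hv0, ha⟩ := KIN1_rank_one hπ hfr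
  have hcl : IsClosed (Set.range π) :=
    (NonUnitalStarAlgHom.isometry π hinj).isClosedEmbedding.isClosed_range
  have hmem : KIN1_op v w ∈ closure (Set.range π) := by
    rw [Metric.mem_closure_iff]
    intro ε hε
    obtain ⟨c, hc⟩ := orbit_dense hπ hζ w (ε := ε / (2 * (‖v‖ + 1))) (by positivity)
    obtain ⟨d, hd⟩ := orbit_dense hπ hv0 v (ε := ε / (2 * (‖π c ζ‖ + 1))) (by positivity)
    refine ⟨π (c * a * star d), ⟨_, rfl⟩, ?_⟩
    have hop : ∀ x, π (c * a * star d) x = ⟪π d v0, x⟫_ℂ • π c ζ := by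
      intro x
      have h1 : π (c * a * star d) x = π c (π a ((star (π d)) x)) := by
        rw [map_mul, map_mul, map_star]
        rfl
      rw [h1, ha, map_smul, ContinuousLinearMap.star_eq_adjoint,
        ContinuousLinearMap.adjoint_inner_right]
    have hb : ‖KIN1_op v w - π (c * a * star d)‖ ≤
        ‖v‖ * ‖π c ζ - w‖ + ‖π d v0 - v‖ * ‖π c ζ‖ := by
      refine ContinuousLinearMap.opNorm_le_bound _ (by positivity) fun x => ?_
      rw [sub_apply, KIN1_op_apply, hop]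
      have e : ⟪v, x⟫_ℂ • w - ⟪π d v0, x⟫_ℂ • π c ζ =
          ⟪v, x⟫_ℂ • (w - π c ζ) + ⟪v - π d v0, x⟫_ℂ • π c ζ := by
        rw [inner_sub_left, smul_sub, sub_smul]
        abel
      rw [e]
      refine (norm_add_le _ _).trans ?_
      rw [norm_smul, norm_smul, add_mul]
      refine add_le_add ?_ ?_
      · rw [norm_sub_rev w]
        calc ‖⟪v, x⟫_ℂ‖ * ‖π c ζ - w‖ ≤ (‖v‖ * ‖x‖) * ‖π c ζ - w‖ :=
              mul_le_mul_of_nonneg_right (norm_inner_le_norm _ _) (norm_nonneg _)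
          _ = ‖v‖ * ‖π c ζ - w‖ * ‖x‖ := by ring
      · calc ‖⟪v - π d v0, x⟫_ℂ‖ * ‖π c ζ‖ ≤ (‖v - π d v0‖ * ‖x‖) * ‖π c ζ‖ :=
              mul_le_mul_of_nonneg_right (norm_inner_le_norm _ _) (norm_nonneg _)
          _ = ‖π d v0 - v‖ * ‖π c ζ‖ * ‖x‖ := by rw [norm_sub_rev v]; ring
    rw [dist_eq_norm]
    refine lt_of_le_of_lt hb ?_
    have h1 : ‖v‖ * ‖π c ζ - w‖ ≤ (‖v‖ + 1) * ‖π c ζ - w‖ :=
      mul_le_mul_of_nonneg_right (by linarith) (norm_nonneg _)
    have h2 : (‖v‖ + 1) * ‖π c ζ - w‖ < ε / 2 := by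
      rw [lt_div_iff₀ (by positivity)] at hc
      linarith
    have h3 : ‖π d v0 - v‖ * ‖π c ζ‖ ≤ ‖π d v0 - v‖ * (‖π c ζ‖ + 1) :=
      mul_le_mul_of_nonneg_left (by linarith) (norm_nonneg _)
    have h4 : ‖π d v0 - v‖ * (‖π c ζ‖ + 1) < ε / 2 := by
      rw [lt_div_iff₀ (by positivity)] at hd
      linarith
    linarith
  rw [hcl.closure_eq] at hmem
  obtain ⟨b, hb⟩ := hmem
  exact ⟨b, fun x => by rw [hb, KIN1_op_apply]⟩

end Vale.Agent.P070
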