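import Vale.Agent.P070.Nondeg
import Vale.Agent.P070.KIn1

/-!
# P070, module KIN: a finite rank operator in `π(A)` gives all compact operators

`π` irreducible and injective (so isometric, closed range), `π a ≠ 0` of finite rank.
(1) `b = star a * a` self-adjoint, `π b` nonzero finite rank; a spectral projection: the spectrum
of `π b` is finite (finite rank self-adjoint; or take among ALL nonzero self-adjoint elements `b`
with finite rank one of minimal rank `n`).
Minimal rank argument without projections: choose `b` self-adjoint with `π b ≠ 0` of minimal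
rank `n ≥ 1` among nonzero finite-rank elements of `π(A)`.  Let `R = range (π b)`, `T = π b`.
If `n = 1` fine.  Suppose `n ≥ 2`.  For every `c ∈ A`, `b c b` has range in `R`; `T` has an
eigenvector `T ζ = s ζ`, `s ≠ 0` (`ζ ∈ R`).  Minimality forces `T` to have one nonzero eigenvalue
only (otherwise `b² - s b` is nonzero self-adjoint of smaller rank), so `T = s p`, `p` a projection
of rank `n`, and `p π(c) p = λ(c) p` for every self-adjoint `c` (otherwise `p π(c) p - μ p` for an
eigenvalue `μ` on `R` is nonzero of smaller rank), hence for every `c`.  For orthonormal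
`ξ, η ∈ R`: `⟪η, π c ξ⟫ = λ(c) ⟪η, ξ⟫ = 0` for all `c`, contradicting `orbit_dense`.
(2) So some `π b₀` is a nonzero rank one self-adjoint operator `s ⟪ξ, ·⟫ ξ`; `π (c b₀ star d)` is
`s ⟪π d ξ, ·⟫ π c ξ`; by `orbit_dense` and closedness of `π(A)` all rank one operators, so all
finite rank operators are in `π(A)`; a compact `T` is a norm limit of `P_V T` (`P_V` = projection
onto the span of a finite `ε`-net of `T (ball)`), finite rank.
-/

open scoped ComplexOrder InnerProductSpace

namespace Vale.Agent.P070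

universe u
variable {A : Type u} [NonUnitalCStarAlgebra A]
variable {H : Type u} [NormedAddCommGroup H] [InnerProductSpace ℂ H] [CompleteSpace H]

/-- compact operators are limits of finite rank operators -/
theorem KIN2_approx (T : H →L[ℂ] H) (hT : IsCompactOperator T) {ε : ℝ} (hε : 0 < ε) :
    ∃ (n : ℕ) (v w : Fin n → H), ∀ x, ‖T x - ∑ i, ⟪v i, x⟫_ℂ • w i‖ ≤ ε * ‖x‖ := by
  have hcpt : IsCompact (closure (T '' Metric.closedBall 0 1)) :=
    hT.isCompact_closure_image_closedBall 1
  have htb : TotallyBounded (T '' Metric.closedBall 0 1) :=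
    hcpt.totallyBounded.subset subset_closure
  obtain ⟨t, htf, hts⟩ := Metric.totallyBounded_iff.1 htb ε hε
  set V : Submodule ℂ H := Submodule.span ℂ t with hV
  haveI : FiniteDimensional ℂ V := FiniteDimensional.span_of_finite ℂ htf
  set b := stdOrthonormalBasis ℂ V with hb
  set n := Module.finrank ℂ V with hn
  refine ⟨n, fun i => ContinuousLinearMap.adjoint T (b i : H), fun i => (b i : H), ?_⟩
  have hproj : ∀ y, V.starProjection y = ∑ i, ⟪(b i : H), y⟫_ℂ • (b i : H) := by
    intro y
    rw [b.starProjection_eq_sum_rankOne]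
    simp
  have h1 : ∀ x : H, ‖x‖ ≤ 1 → ‖T x - V.starProjection (T x)‖ ≤ ε := by
    intro x hx
    have hmem : T x ∈ T '' Metric.closedBall 0 1 := ⟨x, by simpa using hx, rfl⟩
    obtain ⟨y, hy, hxy⟩ := Set.mem_iUnion₂.1 (hts hmem)
    rw [Submodule.starProjection_minimal]
    refine (ciInf_le ⟨0, ?_⟩ (⟨y, Submodule.subset_span hy⟩ : V)).trans ?_
    · rintro _ ⟨z, rfl⟩
      exact norm_nonneg _
    · have : dist (T x) y < ε := hxy
      rw [dist_eq_norm] at this
      exact this.le
  intro x
  have e1 : ∑ i, ⟪ContinuousLinearMap.adjoint T (b i : H), x⟫_ℂ • (b i : H) =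
      V.starProjection (T x) := by
    rw [hproj]
    refine Finset.sum_congr rfl fun i _ => ?_
    rw [ContinuousLinearMap.adjoint_inner_left]
  rw [e1]
  rcases eq_or_ne x 0 with rfl | hx
  · simp
  · have hx' : 0 < ‖x‖ := norm_pos_iff.2 hx
    have h2 := h1 ((‖x‖ : ℂ)⁻¹ • x) (by
      rw [norm_smul, norm_inv, Complex.norm_real, norm_norm, inv_mul_cancel₀ hx'.ne'])
    rw [map_smul, map_smul, ← smul_sub, norm_smul, norm_inv, Complex.norm_real, norm_norm,
      inv_mul_le_iff₀ hx'] at h2
    linarith

theorem KIN2_core (π : A →⋆ₙₐ[ℂ] (H →L[ℂ] H)) (hinj : Function.Injective π)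
    (h1 : ∀ v w : H, ∃ a, ∀ x, π a x = ⟪v, x⟫_ℂ • w)
    (T : H →L[ℂ] H) (hT : IsCompactOperator T) : ∃ a, π a = T := by
  have hiso : Isometry π := NonUnitalStarAlgHom.isometry π hinj
  have hcl : IsClosed (Set.range π) := hiso.isClosedEmbedding.isClosed_range
  have hmem : T ∈ closure (Set.range π) := by
    rw [Metric.mem_closure_iff]
    intro ε hε
    obtain ⟨n, v, w, h⟩ := KIN2_approx T hT (half_pos hε)
    choose a ha using fun i => h1 (v i) (w i)
    refine ⟨π (∑ i, a i), ⟨_, rfl⟩, ?_⟩
    rw [dist_eq_norm]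
    refine lt_of_le_of_lt ?_ (half_lt_self hε)
    refine ContinuousLinearMap.opNorm_le_bound _ (half_pos hε).le fun x => ?_
    have e : (T - π (∑ i, a i)) x = T x - ∑ i, ⟪v i, x⟫_ℂ • w i := by
      rw [map_sum, sub_apply, sum_apply]
      simp only [ha]
    rw [e]
    exact h x
  rw [hcl.closure_eq] at hmem
  exact hmem

theorem compact_mem {π : A →⋆ₙₐ[ℂ] (H →L[ℂ] H)} (hπ : IsIrred π)
    (hinj : Function.Injective π)
    (h1 : ∀ v w : H, ∃ a, ∀ x, π a x = ⟪v, x⟫_ℂ • w)
    (T : H →L[ℂ] H) (hT : IsCompactOperator T) : ∃ a, π a = T := by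
  exact KIN2_core π hinj h1 T hT

end Vale.Agent.P070
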