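import Vale.Agent.P070.Pure
import Vale.Agent.P070.Nondeg

/-!
# P070, module KOUT: under (N), if `π(A)` contains the rank one operators it is `K(H)`

Suppose `S = π a` is not compact.  Then for some `ε > 0` and every finite set `F` there is a unit
vector `ξ ⊥ F` with `ε ≤ ‖S ξ‖` (otherwise `S` is a norm limit of finite rank operators).  By
compactness of `Q A` there is `φ ∈ Q A` with `ε² ≤ (φ (star a * a)).re` and `φ (star k * k) = 0`
for every `k` with `π k` of rank one.  The set of all such `ψ` (without the first condition) is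
compact, convex and extreme in `Q A`.  `exists_extreme_ne` gives an extreme point `ψ` with
`ψ (star a * a) ≠ 0`; it is `⟪ζ, π · ζ⟫`, `ζ ≠ 0` (`pure_vector`); with `π k = ⟪ζ, ·⟫ ζ`:
`ψ (star k * k) ≠ 0`, contradiction.
-/

open scoped ComplexOrder InnerProductSpace

namespace Vale.Agent.P070

universe u
variable {A : Type u} [NonUnitalCStarAlgebra A]
variable {H : Type u} [NormedAddCommGroup H] [InnerProductSpace ℂ H] [CompleteSpace H]

/-- a non-compact operator is bounded below on unit vectors orthogonal to any finite set -/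
theorem KOUT_exists_eps (S : H →L[ℂ] H) (hS : ¬ IsCompactOperator S) :
    ∃ ε : ℝ, 0 < ε ∧ ∀ F : Set H, F.Finite → ∃ ξ : H, ‖ξ‖ = 1 ∧ (∀ v ∈ F, ⟪v, ξ⟫_ℂ = 0) ∧
      ε ≤ ‖S ξ‖ := by
  by_contra hcon
  push Not at hcon
  apply hS
  have hcl : IsClosed {f : H →L[ℂ] H | IsCompactOperator f} := isClosed_setOfPred_isCompactOperator
  have hmem : S ∈ closure {f : H →L[ℂ] H | IsCompactOperator f} := by
    rw [Metric.mem_closure_iff]
    intro δ hδ
    obtain ⟨F, hF, hF2⟩ := hcon (δ / 2) (by positivity)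
    set V : Submodule ℂ H := Submodule.span ℂ F with hV
    have hfd : FiniteDimensional ℂ V := FiniteDimensional.span_of_finite ℂ hF
    have hpr : ProperSpace V := FiniteDimensional.proper ℂ V
    have hc : IsCompactOperator (S ∘L V.starProjection) :=
      (isCompactOperator_of_locallyCompactSpace_rng (S ∘L V.subtypeL)).comp_clm
        V.orthogonalProjectionOnto
    refine ⟨S ∘L V.starProjection, hc, ?_⟩
    rw [dist_eq_norm]
    have hb : ‖S - S ∘L V.starProjection‖ ≤ δ / 2 := by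
      refine ContinuousLinearMap.opNorm_le_bound _ (by positivity) fun x => ?_
      have e : (S - S ∘L V.starProjection) x = S (x - V.starProjection x) := by
        rw [map_sub]
        rfl
      rw [e]
      set y := x - V.starProjection x with hy
      have hyV : y ∈ Vᗮ := Submodule.sub_starProjection_mem_orthogonal x
      have hyn : ‖y‖ ≤ ‖x‖ := by
        have h1 := Submodule.norm_starProjection_apply_le Vᗮ x
        rwa [Submodule.starProjection_orthogonal_val] at h1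
      by_cases hy0 : y = 0
      · rw [hy0, map_zero, norm_zero]
        positivity
      · have hyn0 : 0 < ‖y‖ := norm_pos_iff.2 hy0
        have h1 := hF2 (((‖y‖⁻¹ : ℝ) : ℂ) • y) (by
          rw [norm_smul, Complex.norm_real, Real.norm_eq_abs, abs_of_pos (by positivity)]
          field_simp) (fun v hv => by
          rw [inner_smul_right, (Submodule.mem_orthogonal V y).1 hyV v (Submodule.subset_span hv),
            mul_zero])
        rw [map_smul, norm_smul, Complex.norm_real, Real.norm_eq_abs,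
          abs_of_pos (by positivity : (0 : ℝ) < ‖y‖⁻¹), inv_mul_lt_iff₀ hyn0] at h1
        calc ‖S y‖ ≤ ‖y‖ * (δ / 2) := h1.le
          _ ≤ ‖x‖ * (δ / 2) := mul_le_mul_of_nonneg_right hyn (by positivity)
          _ = δ / 2 * ‖x‖ := mul_comm _ _
    linarith
  rw [hcl.closure_eq] at hmem
  exact hmem

theorem KOUT_norm_sq (π : A →⋆ₙₐ[ℂ] (H →L[ℂ] H)) (k : A) (ξ : H) :
    ⟪ξ, π (star k * k) ξ⟫_ℂ = ((‖π k ξ‖ ^ 2 : ℝ) : ℂ) := by
  have h1 : π (star k * k) ξ = (star (π k)) (π k ξ) := by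
    rw [map_mul, map_star]
    rfl
  rw [h1, ContinuousLinearMap.star_eq_adjoint, ContinuousLinearMap.adjoint_inner_right,
    inner_self_eq_norm_sq_to_K]
  norm_cast

/-- functionals vanishing on the rank one elements -/
def KOUT_set (π : A →⋆ₙₐ[ℂ] (H →L[ℂ] H)) : Set (WeakDual ℂ A) :=
  {ψ | ψ ∈ Q A ∧ ∀ k : A, (∃ v w : H, ∀ x, π k x = ⟪v, x⟫_ℂ • w) → ψ (star k * k) = 0}

theorem KOUT_extreme (π : A →⋆ₙₐ[ℂ] (H →L[ℂ] H)) : IsExtreme ℝ (Q A) (KOUT_set π) := by
  refine ⟨fun ψ hψ => hψ.1, ?_⟩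
  intro φ₁ h₁ φ₂ h₂ ψ hψ hseg
  refine ⟨h₁, fun k hk => ?_⟩
  obtain ⟨s, t, hs, ht, -, rfl⟩ := hseg
  have h3 := hψ.2 k hk
  have h4 : (s : ℂ) * φ₁ (star k * k) + (t : ℂ) * φ₂ (star k * k) = 0 := by
    rw [← h3]
    rfl
  have h5 := h₁.1 k
  have h6 := h₂.1 k
  have h7 : (0 : ℂ) ≤ (t : ℂ) * φ₂ (star k * k) :=
    mul_nonneg (by exact_mod_cast ht.le) h6
  have h8 : (0 : ℂ) ≤ (s : ℂ) * φ₁ (star k * k) :=
    mul_nonneg (by exact_mod_cast hs.le) h5
  have h9 : (s : ℂ) * φ₁ (star k * k) = 0 := by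
    refine le_antisymm ?_ h8
    rw [← h4]
    exact le_add_of_nonneg_right h7
  rcases mul_eq_zero.1 h9 with h | h
  · exact absurd (by exact_mod_cast h) hs.ne'
  · exact h

theorem KOUT_compact (π : A →⋆ₙₐ[ℂ] (H →L[ℂ] H)) : IsCompact (KOUT_set π) := by
  have h : KOUT_set π = Q A ∩ ⋂ k : {k : A // ∃ v w : H, ∀ x, π k x = ⟪v, x⟫_ℂ • w},
      {ψ : WeakDual ℂ A | ψ (star k.1 * k.1) = 0} := by
    ext ψ
    simp [KOUT_set]
  rw [h]
  refine Q_isCompact.inter_right (isClosed_iInter fun k => ?_)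
  exact isClosed_eq (WeakDual.eval_continuous _) continuous_const

theorem KOUT_convex (π : A →⋆ₙₐ[ℂ] (H →L[ℂ] H)) : Convex ℝ (KOUT_set π) := by
  intro φ₁ h₁ φ₂ h₂ s t hs ht hst
  refine ⟨Q_convex h₁.1 h₂.1 hs ht hst, fun k hk => ?_⟩
  change (s : ℂ) * φ₁ (star k * k) + (t : ℂ) * φ₂ (star k * k) = 0
  rw [h₁.2 k hk, h₂.2 k hk, mul_zero, mul_zero, add_zero]

theorem all_compact (hN : PropertyN A) {π : A →⋆ₙₐ[ℂ] (H →L[ℂ] H)} (hπ : IsIrred π)
    (h1 : ∀ v w : H, ∃ a, ∀ x, π a x = ⟪v, x⟫_ℂ • w) (a : A) :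
    IsCompactOperator (π a) := by
  by_contra hnc
  obtain ⟨ε, hε, hex⟩ := KOUT_exists_eps (π a) hnc
  -- a quasi-state in `KOUT_set` which does not vanish at `star a * a`
  have hcl1 : IsClosed {ψ : WeakDual ℂ A | ε ^ 2 ≤ (ψ (star a * a)).re} :=
    isClosed_le continuous_const (Complex.continuous_re.comp (WeakDual.eval_continuous _))
  have hcs : IsCompact (Q A ∩ {ψ : WeakDual ℂ A | ε ^ 2 ≤ (ψ (star a * a)).re}) :=
    Q_isCompact.inter_right hcl1
  obtain ⟨φ, ⟨hφQ, hφε⟩, hφk⟩ := hcs.inter_iInter_nonempty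
    (fun k : {k : A // ∃ v w : H, ∀ x, π k x = ⟪v, x⟫_ℂ • w} =>
      {ψ : WeakDual ℂ A | ψ (star k.1 * k.1) = 0})
    (fun k => isClosed_eq (WeakDual.eval_continuous _) continuous_const) (by
      intro u
      choose! v w hvw using fun k : {k : A // ∃ v w : H, ∀ x, π k x = ⟪v, x⟫_ℂ • w} => k.2
      obtain ⟨ξ, hξ1, hξ2, hξ3⟩ := hex (v '' (u : Set _)) (u.finite_toSet.image v)
      refine ⟨vec π ξ, ⟨vec_mem π hξ1.le, ?_⟩, ?_⟩
      · change ε ^ 2 ≤ (⟪ξ, π (star a * a) ξ⟫_ℂ).re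
        rw [KOUT_norm_sq, Complex.ofReal_re]
        exact pow_le_pow_left₀ hε.le hξ3 2
      · rw [Set.mem_iInter₂]
        intro k hk
        change ⟪ξ, π (star k.1 * k.1) ξ⟫_ℂ = 0
        rw [KOUT_norm_sq, hvw k ξ, hξ2 (v k) ⟨k, hk, rfl⟩, zero_smul, norm_zero]
        norm_num)
  have hφS : φ ∈ KOUT_set π := by
    refine ⟨hφQ, fun k hk => ?_⟩
    exact (Set.mem_iInter.1 hφk) ⟨k, hk⟩
  have hφ0 : φ (star a * a) ≠ 0 := by
    intro h0
    have : ε ^ 2 ≤ (φ (star a * a)).re := hφε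
    rw [h0, Complex.zero_re] at this
    have : 0 < ε ^ 2 := by positivity
    linarith
  obtain ⟨ψ, hψ, hψ0⟩ := exists_extreme_ne (KOUT_compact π) (KOUT_convex π) hφS hφ0
  have hψ0' : ψ ≠ 0 := by
    rintro rfl
    exact hψ0 rfl
  obtain ⟨ζ, hζ0, -, hζ⟩ := pure_vector hN hπ
    ((KOUT_extreme π).extremePoints_subset_extremePoints hψ) hψ0'
  obtain ⟨k, hk⟩ := h1 ζ ζ
  have hψS : ψ ∈ KOUT_set π := hψ.1
  have h2 := hψS.2 k ⟨ζ, ζ, hk⟩
  rw [hζ, KOUT_norm_sq, hk] at h2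
  have h3 : ‖⟪ζ, ζ⟫_ℂ • ζ‖ ^ 2 = 0 := by exact_mod_cast h2
  have h4 : ⟪ζ, ζ⟫_ℂ • ζ = 0 := by
    rw [← norm_eq_zero]
    exact pow_eq_zero_iff (two_ne_zero) |>.1 h3
  rcases smul_eq_zero.1 h4 with h | h
  · exact hζ0 (inner_self_eq_zero.1 h)
  · exact hζ0 h

end Vale.Agent.P070
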