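import Vale.Agent.P070.Pure
import Vale.Agent.P070.Nondeg

/-!
# P070, module NESTED (helper75): nested caps have a common fixed vector under (N)
-/

open scoped ComplexOrder InnerProductSpace

namespace Vale.Agent.P070

universe u
variable {A : Type u} [NonUnitalCStarAlgebra A]
variable {H : Type u} [NormedAddCommGroup H] [InnerProductSpace ℂ H] [CompleteSpace H]

theorem norm_le_one_of_le {T : H →L[ℂ] H} (h0 : 0 ≤ T) (h1 : T ≤ 1) : ‖T‖ ≤ 1 := by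
  have := CStarAlgebra.norm_le_one_iff_of_nonneg T h0
  exact this.2 h1

theorem isSelfAdjoint_inner {T : H →L[ℂ] H} (hT : IsSelfAdjoint T) (x y : H) :
    ⟪T x, y⟫_ℂ = ⟪x, T y⟫_ℂ := by
  have := ContinuousLinearMap.adjoint_inner_left T y x
  rw [← ContinuousLinearMap.star_eq_adjoint, hT.star_eq] at this
  exact this

/-- a positive contraction fixing the norm of a unit vector fixes the vector -/
theorem fix_of_norm {T : H →L[ℂ] H} (h0 : 0 ≤ T) (h1 : T ≤ 1) {ζ : H} (hζ : ‖ζ‖ ≤ 1)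
    (h : ‖T ζ‖ = 1) : ‖ζ‖ = 1 ∧ T ζ = ζ := by
  have hn := norm_le_one_of_le h0 h1
  have hT : IsSelfAdjoint T := IsSelfAdjoint.of_nonneg h0
  have hle : ∀ x : H, ‖T x‖ ≤ ‖x‖ := fun x => by
    calc ‖T x‖ ≤ ‖T‖ * ‖x‖ := T.le_opNorm x
      _ ≤ 1 * ‖x‖ := by gcongr
      _ = ‖x‖ := one_mul _
  have hζ1 : ‖ζ‖ = 1 := le_antisymm hζ (by rw [← h]; exact hle ζ)
  refine ⟨hζ1, ?_⟩
  -- T² ζ = ζ
  have hin : ⟪T (T ζ), ζ⟫_ℂ = 1 := by
    rw [isSelfAdjoint_inner hT, inner_self_eq_norm_sq_to_K, h]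
    norm_num
  have hTT : T (T ζ) = ζ := by
    have h2 : ‖T (T ζ) - ζ‖ ^ 2 ≤ 0 := by
      rw [@norm_sub_sq ℂ, hin, hζ1]
      have : ‖T (T ζ)‖ ≤ 1 := (hle _).trans (h.le)
      have h3 : ‖T (T ζ)‖ ^ 2 ≤ 1 := by
        have := norm_nonneg (T (T ζ))
        nlinarith
      simp only [RCLike.one_re]
      linarith
    have h4 : ‖T (T ζ) - ζ‖ = 0 := by
      have := norm_nonneg (T (T ζ) - ζ)
      nlinarith
    exact sub_eq_zero.mp (norm_eq_zero.mp h4)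
  -- w = T ζ - ζ, T w = - w
  set w := T ζ - ζ with hw
  have hTw : T w = -w := by
    rw [hw, map_sub, hTT]; abel
  have hpos : 0 ≤ (⟪w, T w⟫_ℂ).re := by
    have h5 := (ContinuousLinearMap.nonneg_iff_isPositive T).mp h0
    have h6 := h5.re_inner_nonneg_right w
    simpa using h6
  rw [hTw, inner_neg_right, inner_self_eq_norm_sq_to_K] at hpos
  have hw0 : ‖w‖ = 0 := by
    have h7 : ((‖w‖ : ℂ) ^ 2).re = ‖w‖ ^ 2 := by
      rw [← Complex.ofReal_pow, Complex.ofReal_re]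
    have h8 : -(‖w‖ ^ 2) ≥ 0 := by
      have := hpos
      simp only [Complex.neg_re] at this
      rw [← h7]
      simpa using this
    have := norm_nonneg w
    nlinarith
  exact sub_eq_zero.mp (norm_eq_zero.mp hw0)

/-- `φ (f f) = ‖ρ f ξ‖²` -/
theorem apply_sq {φ : WeakDual ℂ A} (D : GNSData φ) {f : A} (hf : IsSelfAdjoint f) :
    φ (f * f) = ((‖D.ρ f D.ξ‖ : ℝ) : ℂ) ^ 2 := by
  have hsa : IsSelfAdjoint (D.ρ f) := hf.map D.ρ
  rw [D.apply, map_mul]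
  rw [show (D.ρ f * D.ρ f) D.ξ = D.ρ f (D.ρ f D.ξ) from rfl]
  rw [← isSelfAdjoint_inner hsa, inner_self_eq_norm_sq_to_K]
  rfl

theorem Q_sq_le {φ : WeakDual ℂ A} (hφ : φ ∈ Q A) {f : A} (hf : IsSelfAdjoint f)
    (h1 : ‖f‖ ≤ 1) : (φ (f * f)).im = 0 ∧ (φ (f * f)).re ≤ 1 := by
  have h2 := hφ.1 f
  rw [hf.star_eq] at h2
  refine ⟨(Complex.le_def.mp h2).2.symm, ?_⟩
  calc (φ (f * f)).re ≤ ‖φ (f * f)‖ := Complex.re_le_norm _
    _ ≤ ‖f * f‖ := hφ.2 _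
    _ ≤ ‖f‖ * ‖f‖ := norm_mul_le _ _
    _ ≤ 1 * 1 := by gcongr
    _ = 1 := one_mul _

theorem nested (hN : PropertyN A) {π : A →⋆ₙₐ[ℂ] (H →L[ℂ] H)} (hπ : IsIrred π)
    (f g : ℕ → A) (hf : ∀ n, IsSelfAdjoint (f n) ∧ 0 ≤ π (f n) ∧ π (f n) ≤ 1)
    (hff : ∀ n, f n * f (n + 1) = f (n + 1)) (hg : ∀ n, f n * g n = g n ∧ π (g n) ≠ 0) :
    ∃ ζ : H, ‖ζ‖ = 1 ∧ ∀ n, π (f n) ζ = ζ := by
  have hinj := injective_of_N hN hπ
  have hnorm : ∀ n, ‖f n‖ ≤ 1 := fun n => by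
    have : ‖π (f n)‖ = ‖f n‖ := NonUnitalStarAlgHom.norm_map π hinj (f n)
    rw [← this]
    exact norm_le_one_of_le (hf n).2.1 (hf n).2.2
  let F : ℕ → Set (WeakDual ℂ A) := fun n => {φ | φ ∈ Q A ∧ φ (f n * f n) = 1}
  have hcont : ∀ a : A, Continuous fun φ : WeakDual ℂ A => φ a := WeakDual.eval_continuous
  have hclosed : ∀ n, IsClosed (F n) := fun n =>
    Q_isCompact.isClosed.inter (isClosed_eq (hcont _) continuous_const)
  have hcomp : IsCompact (F 0) := Q_isCompact.of_isClosed_subset (hclosed 0) (fun φ h => h.1)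
  have hne : ∀ n, (F n).Nonempty := by
    intro n
    obtain ⟨hg1, hg2⟩ := hg n
    obtain ⟨η, hη⟩ : ∃ η, π (g n) η ≠ 0 := by
      by_contra hcon
      push_neg at hcon
      exact hg2 (ContinuousLinearMap.ext fun x => by simpa using hcon x)
    set ζ : H := ((‖π (g n) η‖⁻¹ : ℝ) : ℂ) • π (g n) η with hζ
    have hpos : 0 < ‖π (g n) η‖ := norm_pos_iff.mpr hη
    have hζ1 : ‖ζ‖ = 1 := by
      rw [hζ, norm_smul, Complex.norm_real, Real.norm_eq_abs, abs_of_pos (inv_pos.mpr hpos)]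
      exact inv_mul_cancel₀ hpos.ne'
    have hfζ : π (f n) ζ = ζ := by
      rw [hζ, map_smul, ← ContinuousLinearMap.mul_apply, ← map_mul, hg1]
    refine ⟨vec π ζ, vec_mem π hζ1.le, ?_⟩
    rw [vec_apply, map_mul, ContinuousLinearMap.mul_apply, hfζ, hfζ, inner_self_eq_norm_sq_to_K,
      hζ1]
    norm_num
  have hmono : ∀ n, F (n + 1) ⊆ F n := by
    rintro n φ ⟨hφ, h1⟩
    refine ⟨hφ, ?_⟩
    obtain ⟨D⟩ := gns_exists hφ
    have hb : ∀ (a : A) (x : D.H), ‖a‖ ≤ 1 → ‖D.ρ a x‖ ≤ ‖x‖ := fun a x ha => by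
      calc ‖D.ρ a x‖ ≤ ‖D.ρ a‖ * ‖x‖ := (D.ρ a).le_opNorm x
        _ ≤ ‖a‖ * ‖x‖ := by
            gcongr
            exact NonUnitalStarAlgHom.norm_apply_le D.ρ a
        _ ≤ 1 * ‖x‖ := by gcongr
        _ = ‖x‖ := one_mul _
    rw [apply_sq D (hf (n + 1)).1] at h1
    set η := D.ρ (f (n + 1)) D.ξ with hη
    have hη1 : ‖η‖ = 1 := by
      have h3 : ‖η‖ ^ 2 = 1 := by exact_mod_cast h1
      have h4 := norm_nonneg η
      nlinarith
    have hge : 1 ≤ ‖D.ρ (f n) D.ξ‖ := by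
      have e1 : ⟪D.ρ (f n) D.ξ, D.ρ (f (n + 1)) η⟫_ℂ = 1 := by
        rw [isSelfAdjoint_inner ((hf n).1.map D.ρ), ← ContinuousLinearMap.mul_apply, ← map_mul,
          hff n, ← isSelfAdjoint_inner ((hf (n + 1)).1.map D.ρ), ← hη,
          inner_self_eq_norm_sq_to_K, hη1]
        norm_num
      have e2 : (1 : ℝ) ≤ ‖D.ρ (f n) D.ξ‖ * ‖D.ρ (f (n + 1)) η‖ := by
        have := norm_inner_le_norm (𝕜 := ℂ) (D.ρ (f n) D.ξ) (D.ρ (f (n + 1)) η)
        rw [e1, norm_one] at this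
        exact this
      have e3 : ‖D.ρ (f (n + 1)) η‖ ≤ 1 := (hb _ _ (hnorm _)).trans hη1.le
      have := norm_nonneg (D.ρ (f n) D.ξ)
      nlinarith
    have hle : ‖D.ρ (f n) D.ξ‖ ≤ 1 := (hb _ _ (hnorm _)).trans D.norm_le
    rw [apply_sq D (hf n).1, le_antisymm hle hge]
    norm_num
  obtain ⟨φ₀, hφ₀⟩ := IsCompact.nonempty_iInter_of_sequence_nonempty_isCompact_isClosed F
    hmono hne hcomp hclosed
  have hScomp : IsCompact (⋂ n, F n) :=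
    hcomp.of_isClosed_subset (isClosed_iInter hclosed) (Set.iInter_subset F 0)
  obtain ⟨φ, hφ⟩ := exists_extreme hScomp ⟨φ₀, hφ₀⟩
  have hφS : ∀ n, φ ∈ F n := fun n => Set.mem_iInter.mp hφ.1 n
  have hφQ : φ ∈ Q A := (hφS 0).1
  have hext : φ ∈ (Q A).extremePoints ℝ := by
    rw [mem_extremePoints] at hφ ⊢
    refine ⟨hφQ, fun ψ₁ h₁ ψ₂ h₂ hseg => ?_⟩
    have key : ∀ n, ψ₁ (f n * f n) = 1 ∧ ψ₂ (f n * f n) = 1 := by
      intro n
      obtain ⟨s, t, hs, ht, hst, heq⟩ := hseg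
      obtain ⟨i1, r1⟩ := Q_sq_le h₁ (hf n).1 (hnorm n)
      obtain ⟨i2, r2⟩ := Q_sq_le h₂ (hf n).1 (hnorm n)
      have h3 : s * (ψ₁ (f n * f n)).re + t * (ψ₂ (f n * f n)).re = 1 := by
        have h4 := (hφS n).2
        rw [← heq] at h4
        have h5 : (s • ψ₁ + t • ψ₂ : WeakDual ℂ A) (f n * f n)
            = s • ψ₁ (f n * f n) + t • ψ₂ (f n * f n) := rfl
        rw [h5] at h4
        have h6 := congrArg Complex.re h4
        simpa using h6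
      have e1 : (ψ₁ (f n * f n)).re = 1 := by nlinarith
      have e2 : (ψ₂ (f n * f n)).re = 1 := by nlinarith
      exact ⟨Complex.ext (by simpa using e1) (by simpa using i1),
        Complex.ext (by simpa using e2) (by simpa using i2)⟩
    exact hφ.2 ψ₁ (Set.mem_iInter.mpr fun n => ⟨h₁, (key n).1⟩) ψ₂
      (Set.mem_iInter.mpr fun n => ⟨h₂, (key n).2⟩) hseg
  have hφ0 : φ ≠ 0 := by
    rintro rfl
    have h1 := (hφS 0).2
    exact zero_ne_one h1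
  obtain ⟨ζ, -, hζ1, hζ⟩ := pure_vector hN hπ hext hφ0
  have hfix : ∀ n, ‖ζ‖ = 1 ∧ π (f n) ζ = ζ := by
    intro n
    apply fix_of_norm (hf n).2.1 (hf n).2.2 hζ1
    have h1 := (hφS n).2
    rw [hζ, map_mul, ContinuousLinearMap.mul_apply,
      ← isSelfAdjoint_inner ((hf n).1.map π), inner_self_eq_norm_sq_to_K] at h1
    have h1' : ((‖π (f n) ζ‖ : ℝ) : ℂ) ^ 2 = 1 := h1
    have h3 : ‖π (f n) ζ‖ ^ 2 = 1 := by exact_mod_cast h1'
    have h4 := norm_nonneg (π (f n) ζ)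
    nlinarith
  exact ⟨ζ, (hfix 0).1, fun n => (hfix n).2⟩

end Vale.Agent.P070
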