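import Vale.Agent.P070.Defs

/-!
# P070: regular commutative subalgebras (definitions for the corollary)
-/

open scoped ComplexOrder InnerProductSpace

namespace Vale.Agent.P070

universe u
variable {A : Type u} [NonUnitalCStarAlgebra A]

/-- The normalisers of `D` in `A`: `n* D n ⊆ D`, `n D n* ⊆ D` and `n* n, n n* ∈ D` (the last
condition is automatic when `D` contains an approximate unit of `A`). -/
def normalizer (D : NonUnitalStarSubalgebra ℂ A) : Set A :=
  {n | star n * n ∈ D ∧ n * star n ∈ D ∧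
    (∀ d ∈ D, star n * d * n ∈ D) ∧ (∀ d ∈ D, n * d * star n ∈ D)}

/-- `D` is regular: its normalisers span a dense subspace of `A`. -/
def IsRegular (D : NonUnitalStarSubalgebra ℂ A) : Prop :=
  Dense (Submodule.span ℂ (normalizer D) : Set A)

/-- `χ` is a character of `D` (a nonzero complex homomorphism) and it has exactly one extension
to a quasi-state of `A`. -/
structure UniqueChar (D : NonUnitalStarSubalgebra ℂ A) (χ : A → ℂ) : Prop where
  add : ∀ x ∈ D, ∀ y ∈ D, χ (x + y) = χ x + χ y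
  smul : ∀ (c : ℂ), ∀ x ∈ D, χ (c • x) = c * χ x
  mul : ∀ x ∈ D, ∀ y ∈ D, χ (x * y) = χ x * χ y
  ne : ∃ x ∈ D, χ x ≠ 0
  unique : ∀ φ ∈ Q A, ∀ ψ ∈ Q A, (∀ d ∈ D, φ d = χ d) → (∀ d ∈ D, ψ d = χ d) → φ = ψ

end Vale.Agent.P070
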