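import Vale.Agent.P070.AtomicC
import Vale.Agent.P070.KIn
import Vale.Agent.P070.KOut

/-!
# P070, module SETFORM (helper75): Theorem 1 for a star-closed commuting set of multipliers
-/

open scoped ComplexOrder InnerProductSpace

namespace Vale.Agent.P070

universe u
variable {A : Type u} [NonUnitalCStarAlgebra A]
variable {H : Type u} [NormedAddCommGroup H] [InnerProductSpace ℂ H] [CompleteSpace H]

theorem compact_of_finite_rank (hN : PropertyN A) {π : A →⋆ₙₐ[ℂ] (H →L[ℂ] H)}
    (hπ : IsIrred π)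
    (hfr : ∃ a, π a ≠ 0 ∧ FiniteDimensional ℂ (LinearMap.range (π a : H →ₗ[ℂ] H))) :
    Function.Injective π ∧ Set.range π = {T : H →L[ℂ] H | IsCompactOperator T} := by
  have hinj := injective_of_N hN hπ
  have h1 := rank_one_mem hπ hinj hfr
  refine ⟨hinj, Set.Subset.antisymm ?_ ?_⟩
  · rintro _ ⟨a, rfl⟩
    exact all_compact hN hπ h1 a
  · intro T hT
    exact compact_mem hπ hinj h1 T hT

theorem isClosed_range {π : A →⋆ₙₐ[ℂ] (H →L[ℂ] H)} (hinj : Function.Injective π) :
    IsClosed (Set.range π) :=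
  (NonUnitalStarAlgHom.isometry π hinj).isClosedEmbedding.isClosed_range

/-- Theorem 1. -/
theorem atomic_set (hN : PropertyN A) {π : A →⋆ₙₐ[ℂ] (H →L[ℂ] H)} (hπ : IsIrred π)
    (D : Set (H →L[ℂ] H)) (hstar : ∀ d ∈ D, star d ∈ D)
    (hcomm : ∀ d ∈ D, ∀ d' ∈ D, d * d' = d' * d)
    (hmul : ∀ d ∈ D, ∀ a, ∃ b, π b = d * π a)
    (hspan : (⨆ χ : (D → ℂ), eig D χ).topologicalClosure = ⊤)
    (hfin : ∀ χ : (D → ℂ), SmallDim (eig D χ)) :
    Function.Injective π ∧ Set.range π = {T : H →L[ℂ] H | IsCompactOperator T} := by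
  apply compact_of_finite_rank hN hπ
  have hinj := injective_of_N hN hπ
  set B : StarSubalgebra ℂ (H →L[ℂ] H) := (StarAlgebra.adjoin ℂ D).topologicalClosure with hB
  have hBcl : IsClosed (B : Set (H →L[ℂ] H)) := StarSubalgebra.isClosed_topologicalClosure _
  have hDB : D ⊆ (B : Set (H →L[ℂ] H)) :=
    (StarAlgebra.subset_adjoin ℂ D).trans (StarSubalgebra.le_topologicalClosure _)
  have hle : ∀ C : StarSubalgebra ℂ (H →L[ℂ] H), IsClosed (C : Set (H →L[ℂ] H)) →
      D ⊆ (C : Set (H →L[ℂ] H)) → B ≤ C := fun C hC hDC =>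
    StarSubalgebra.topologicalClosure_minimal (StarAlgebra.adjoin_le hDC) hC
  -- commutativity
  have hclC : ∀ s : Set (H →L[ℂ] H),
      IsClosed ((StarSubalgebra.centralizer ℂ s : StarSubalgebra ℂ (H →L[ℂ] H)) :
        Set (H →L[ℂ] H)) := by
    intro s
    rw [StarSubalgebra.coe_centralizer]
    exact Set.isClosed_centralizer _
  have hc1 : B ≤ StarSubalgebra.centralizer ℂ D := by
    apply hle _ (hclC D)
    intro x hx
    rw [SetLike.mem_coe, StarSubalgebra.mem_centralizer_iff]
    intro y hy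
    exact ⟨hcomm y hy x hx, hcomm (star y) (hstar y hy) x hx⟩
  have hc2 : B ≤ StarSubalgebra.centralizer ℂ (B : Set (H →L[ℂ] H)) := by
    apply hle _ (hclC _)
    intro x hx
    rw [SetLike.mem_coe, StarSubalgebra.mem_centralizer_iff]
    intro y hy
    have h1 := (StarSubalgebra.mem_centralizer_iff ℂ).mp (hc1 hy) x hx
    have h2 := (StarSubalgebra.mem_centralizer_iff ℂ).mp (hc1 (star_mem hy)) x hx
    exact ⟨h1.1.symm, h2.1.symm⟩
  have hBcomm : ∀ x ∈ B, ∀ y ∈ B, x * y = y * x := by
    intro x hx y hy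
    exact ((StarSubalgebra.mem_centralizer_iff ℂ).mp (hc2 hx) y hy).1.symm
  -- multipliers
  have hBmul : ∀ x ∈ B, ∀ a, ∃ b, π b = x * π a := by
    let C : StarSubalgebra ℂ (H →L[ℂ] H) :=
      { carrier := {x | (∀ a, ∃ b, π b = x * π a) ∧ ∀ a, ∃ b, π b = star x * π a}
        mul_mem' := by
          rintro x y ⟨hx1, hx2⟩ ⟨hy1, hy2⟩
          refine ⟨fun a => ?_, fun a => ?_⟩
          · obtain ⟨b, hb⟩ := hy1 a
            obtain ⟨c, hc⟩ := hx1 b
            exact ⟨c, by rw [hc, hb, mul_assoc]⟩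
          · obtain ⟨b, hb⟩ := hx2 a
            obtain ⟨c, hc⟩ := hy2 b
            exact ⟨c, by rw [hc, hb, star_mul, mul_assoc]⟩
        add_mem' := by
          rintro x y ⟨hx1, hx2⟩ ⟨hy1, hy2⟩
          refine ⟨fun a => ?_, fun a => ?_⟩
          · obtain ⟨b, hb⟩ := hx1 a
            obtain ⟨c, hc⟩ := hy1 a
            exact ⟨b + c, by rw [map_add, hb, hc, add_mul]⟩
          · obtain ⟨b, hb⟩ := hx2 a
            obtain ⟨c, hc⟩ := hy2 a
            exact ⟨b + c, by rw [map_add, hb, hc, star_add, add_mul]⟩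
        algebraMap_mem' := by
          intro r
          refine ⟨fun a => ⟨r • a, ?_⟩, fun a => ⟨(star r) • a, ?_⟩⟩
          · rw [map_smul, Algebra.algebraMap_eq_smul_one, smul_mul_assoc, one_mul]
          · rw [map_smul, Algebra.algebraMap_eq_smul_one, star_smul, star_one, smul_mul_assoc,
              one_mul]
        star_mem' := by
          rintro x ⟨hx1, hx2⟩
          exact ⟨hx2, by simpa using hx1⟩ }
    have hCcl : IsClosed (C : Set (H →L[ℂ] H)) := by
      have hcl := isClosed_range hinj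
      have e : (C : Set (H →L[ℂ] H)) =
          (⋂ a : A, (fun x : H →L[ℂ] H => x * π a) ⁻¹' (Set.range π)) ∩
          (⋂ a : A, (fun x : H →L[ℂ] H => star x * π a) ⁻¹' (Set.range π)) := by
        ext x
        simp only [Set.mem_inter_iff, Set.mem_iInter, Set.mem_preimage, Set.mem_range]
        exact Iff.rfl
      rw [e]
      refine (isClosed_iInter fun a => ?_).inter (isClosed_iInter fun a => ?_)
      · exact hcl.preimage (continuous_mul_const _)
      · exact hcl.preimage ((continuous_mul_const _).comp continuous_star)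
    have hDC : D ⊆ (C : Set (H →L[ℂ] H)) := fun d hd =>
      ⟨hmul d hd, hmul (star d) (hstar d hd)⟩
    intro x hx
    exact (hle C hCcl hDC hx).1
  -- joint eigenvectors
  have heig : ∀ (χ : D → ℂ), eig D χ ≤ ⨆ τ : (↥(B : Set (H →L[ℂ] H)) → ℂ),
      eig (B : Set (H →L[ℂ] H)) τ := by
    intro χ v hv
    have hall : ∀ x ∈ B, ∃ c : ℂ, x v = c • v := by
      let C : StarSubalgebra ℂ (H →L[ℂ] H) :=
        { carrier := {x | x v ∈ Submodule.span ℂ {v} ∧ (star x) v ∈ Submodule.span ℂ {v}}
          mul_mem' := by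
            rintro x y ⟨hx1, hx2⟩ ⟨hy1, hy2⟩
            obtain ⟨c1, e1⟩ := Submodule.mem_span_singleton.mp hy1
            obtain ⟨c2, e2⟩ := Submodule.mem_span_singleton.mp hx2
            refine ⟨?_, ?_⟩
            · rw [ContinuousLinearMap.mul_apply, ← e1, map_smul]
              exact Submodule.smul_mem _ _ hx1
            · rw [star_mul, ContinuousLinearMap.mul_apply, ← e2, map_smul]
              exact Submodule.smul_mem _ _ hy2
          add_mem' := by
            rintro x y ⟨hx1, hx2⟩ ⟨hy1, hy2⟩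
            refine ⟨?_, ?_⟩
            · exact Submodule.add_mem _ hx1 hy1
            · rw [star_add]; exact Submodule.add_mem _ hx2 hy2
          algebraMap_mem' := by
            intro r
            refine ⟨?_, ?_⟩
            · rw [Algebra.algebraMap_eq_smul_one]
              exact Submodule.smul_mem _ _ (Submodule.mem_span_singleton_self v)
            · rw [Algebra.algebraMap_eq_smul_one, star_smul, star_one]
              exact Submodule.smul_mem _ _ (Submodule.mem_span_singleton_self v)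
          star_mem' := by
            rintro x ⟨hx1, hx2⟩
            exact ⟨hx2, by simpa using hx1⟩ }
      have hCcl : IsClosed (C : Set (H →L[ℂ] H)) := by
        have hcl : IsClosed (Submodule.span ℂ {v} : Set H) :=
          Submodule.closed_of_finiteDimensional _
        have e : (C : Set (H →L[ℂ] H)) =
            ((fun x : H →L[ℂ] H => x v) ⁻¹' (Submodule.span ℂ {v} : Set H)) ∩
            ((fun x : H →L[ℂ] H => (star x) v) ⁻¹' (Submodule.span ℂ {v} : Set H)) := rfl
        rw [e]
        have hev : Continuous fun x : H →L[ℂ] H => x v :=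
          (ContinuousLinearMap.apply ℂ H v).continuous
        exact (hcl.preimage hev).inter (hcl.preimage (hev.comp continuous_star))
      have hDC : D ⊆ (C : Set (H →L[ℂ] H)) := fun d hd => by
        refine ⟨?_, ?_⟩
        · exact Submodule.mem_span_singleton.mpr ⟨χ ⟨d, hd⟩, (hv ⟨d, hd⟩).symm⟩
        · exact Submodule.mem_span_singleton.mpr
            ⟨χ ⟨star d, hstar d hd⟩, (hv ⟨star d, hstar d hd⟩).symm⟩
      intro x hx
      obtain ⟨c, hc⟩ := Submodule.mem_span_singleton.mp (hle C hCcl hDC hx).1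
      exact ⟨c, hc.symm⟩
    choose! τ hτ using hall
    have hvτ : v ∈ eig (B : Set (H →L[ℂ] H)) (fun x => τ x.1) := fun x => hτ x.1 x.2
    exact Submodule.mem_iSup_of_mem _ hvτ
  have hBspan : (⨆ τ : (↥(B : Set (H →L[ℂ] H)) → ℂ),
      eig (B : Set (H →L[ℂ] H)) τ).topologicalClosure = ⊤ := by
    rw [eq_top_iff, ← hspan]
    exact Submodule.topologicalClosure_mono (iSup_le heig)
  have hBfin : ∀ τ : (↥(B : Set (H →L[ℂ] H)) → ℂ),
      SmallDim (eig (B : Set (H →L[ℂ] H)) τ) := by
    intro τ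
    have hsub : eig (B : Set (H →L[ℂ] H)) τ ≤ eig D (fun d => τ ⟨d.1, hDB d.2⟩) :=
      fun v hv d => hv ⟨d.1, hDB d.2⟩
    exact SEP_mono hsub (hfin (fun d => τ ⟨d.1, hDB d.2⟩))
  exact atomic_finite_rank' hN hπ B hBcl hBcomm hBmul hBspan hBfin

end Vale.Agent.P070
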