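import Vale.Agent.P070.Defs

/-!
# P070, module WEAK: the quasi-state space is convex and weak*-compact; Krein-Milman

Everything is a packaging of Mathlib: Banach-Alaoglu (`WeakDual.isCompact_closedBall` or
`WeakDual.isCompact_of_bounded_of_closed`), `IsCompact.extremePoints_nonempty`,
`closure_convexHull_extremePoints`.  If the instance `LocallyConvexSpace ℝ (WeakDual ℂ A)` is not
found: it is `WeakBilin.locallyConvexSpace` (or use that the weak* topology is induced by the map
into the product `A → ℂ`).
-/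

open scoped ComplexOrder InnerProductSpace

namespace Vale.Agent.P070

universe u
variable {A : Type u} [NonUnitalCStarAlgebra A]

private theorem weak_lcs : LocallyConvexSpace ℝ (WeakDual ℂ A) := WeakBilin.locallyConvexSpace

private theorem weak_eval (a : A) : Continuous fun φ : WeakDual ℂ A => φ a :=
  WeakDual.eval_continuous a

theorem Q_convex : Convex ℝ (Q A) := by
  intro φ hφ ψ hψ a b ha hb hab
  refine ⟨fun x => ?_, fun x => ?_⟩
  · have e : (a • φ + b • ψ) (star x * x) = (a : ℂ) * φ (star x * x) + (b : ℂ) * ψ (star x * x) := by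
      show a • φ (star x * x) + b • ψ (star x * x) = _
      rw [Complex.real_smul, Complex.real_smul]
    rw [e]
    have ha' : (0 : ℂ) ≤ (a : ℂ) := by exact_mod_cast ha
    have hb' : (0 : ℂ) ≤ (b : ℂ) := by exact_mod_cast hb
    exact add_nonneg (mul_nonneg ha' (hφ.1 x)) (mul_nonneg hb' (hψ.1 x))
  · show ‖a • φ x + b • ψ x‖ ≤ ‖x‖
    have h1 := norm_add_le (a • φ x) (b • ψ x)
    rw [norm_smul, norm_smul, Real.norm_of_nonneg ha, Real.norm_of_nonneg hb] at h1
    have h2 := mul_le_mul_of_nonneg_left (hφ.2 x) ha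
    have h3 := mul_le_mul_of_nonneg_left (hψ.2 x) hb
    have h4 : a * ‖x‖ + b * ‖x‖ = ‖x‖ := by rw [← add_mul, hab, one_mul]
    linarith

theorem Q_isCompact : IsCompact (Q A) := by
  have h1 : IsCompact (WeakDual.toStrongDual (𝕜 := ℂ) (E := A) ⁻¹'
      Metric.closedBall (0 : StrongDual ℂ A) 1) := WeakDual.isCompact_closedBall 0 1
  refine h1.of_isClosed_subset ?_ ?_
  · have e : Q A = (⋂ a : A, {φ : WeakDual ℂ A | 0 ≤ φ (star a * a)}) ∩
        ⋂ a : A, {φ : WeakDual ℂ A | ‖φ a‖ ≤ ‖a‖} := by
      ext φ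
      simp only [Q, Set.mem_inter_iff, Set.mem_iInter]
      rfl
    rw [e]
    refine (isClosed_iInter fun a => ?_).inter (isClosed_iInter fun a => ?_)
    · exact isClosed_le continuous_const (weak_eval _)
    · exact isClosed_le (weak_eval a).norm continuous_const
  · intro φ hφ
    show WeakDual.toStrongDual φ ∈ Metric.closedBall (0 : StrongDual ℂ A) 1
    rw [mem_closedBall_zero_iff]
    refine ContinuousLinearMap.opNorm_le_bound _ zero_le_one fun a => ?_
    rw [one_mul]
    exact hφ.2 a

theorem zero_mem_Q : (0 : WeakDual ℂ A) ∈ Q A := by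
  refine ⟨fun a => ?_, fun a => ?_⟩
  · exact le_refl (0 : ℂ)
  · show ‖(0 : ℂ)‖ ≤ ‖a‖
    rw [norm_zero]
    exact norm_nonneg a

/-- Krein-Milman, existence of an extreme point. -/
theorem exists_extreme {S : Set (WeakDual ℂ A)} (hS : IsCompact S) (hne : S.Nonempty) :
    (S.extremePoints ℝ).Nonempty := by
  have : LocallyConvexSpace ℝ (WeakDual ℂ A) := weak_lcs
  exact hS.extremePoints_nonempty hne

/-- Krein-Milman: if some element of the compact convex set `S` does not vanish at `a`, then
some extreme point of `S` does not vanish at `a` (otherwise the closed subspace `{φ | φ a = 0}`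
contains the closed convex hull of the extreme points). -/
theorem exists_extreme_ne {S : Set (WeakDual ℂ A)} (hS : IsCompact S) (hc : Convex ℝ S)
    {φ : WeakDual ℂ A} (hφ : φ ∈ S) {a : A} (ha : φ a ≠ 0) :
    ∃ ψ ∈ S.extremePoints ℝ, ψ a ≠ 0 := by
  have : LocallyConvexSpace ℝ (WeakDual ℂ A) := weak_lcs
  by_contra hcon
  push Not at hcon
  have h1 : closure (convexHull ℝ (S.extremePoints ℝ)) = S :=
    closure_convexHull_extremePoints hS hc
  have hcl : IsClosed {ψ : WeakDual ℂ A | ψ a = 0} := isClosed_eq (weak_eval a) continuous_const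
  have hcv : Convex ℝ {ψ : WeakDual ℂ A | ψ a = 0} := by
    intro x hx y hy s t _ _ _
    have hx' : x a = 0 := hx
    have hy' : y a = 0 := hy
    show s • x a + t • y a = 0
    rw [hx', hy', smul_zero, smul_zero, add_zero]
  have h2 : closure (convexHull ℝ (S.extremePoints ℝ)) ⊆ {ψ : WeakDual ℂ A | ψ a = 0} :=
    closure_minimal (convexHull_min (fun ψ hψ => hcon ψ hψ) hcv) hcl
  rw [h1] at h2
  exact ha (h2 hφ)

end Vale.Agent.P070
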